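import Mathlib

/-!
Calculus of positively homogeneous maps of degree one.
-/

namespace Vale.Agent.Lib.P084_helper82

open Filter Topology

variable {V W : Type*} [NormedAddCommGroup V] [NormedSpace ℝ V] [NormedAddCommGroup W]
  [NormedSpace ℝ W]

/-- positive homogeneity of degree one. -/
def Hom1 (Φ : V → W) : Prop := ∀ (t : ℝ) (z : V), 0 < t → Φ (t • z) = t • Φ z

lemma hom1_norm : Hom1 (fun y : V => ‖y‖) := by
  intro t z ht
  simp [norm_smul, abs_of_pos ht]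

omit [NormedSpace ℝ V] in
/-- eventually nonzero near a nonzero point. -/
lemma eventually_ne_zero {z : V} (hz : z ≠ 0) : ∀ᶠ y in 𝓝 z, y ≠ 0 :=
  isOpen_compl_singleton.mem_nhds hz

namespace Hom1

variable {Φ : V → W}

lemma hasFD (hC : ∀ z, z ≠ 0 → ContDiffAt ℝ 2 Φ z) {z : V} (hz : z ≠ 0) :
    HasFDerivAt Φ (fderiv ℝ Φ z) z :=
  ((hC z hz).differentiableAt (by simp)).hasFDerivAt

lemma hasFD2 (hC : ∀ z, z ≠ 0 → ContDiffAt ℝ 2 Φ z) {z : V} (hz : z ≠ 0) :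
    HasFDerivAt (fderiv ℝ Φ) (fderiv ℝ (fderiv ℝ Φ) z) z := by
  have h4 : ContDiffAt ℝ 1 (fderiv ℝ Φ) z := (hC z hz).fderiv_right (m := 1) (by norm_num)
  exact (h4.differentiableAt (by simp)).hasFDerivAt

lemma fderiv_continuousAt (hC : ∀ z, z ≠ 0 → ContDiffAt ℝ 2 Φ z) {z : V} (hz : z ≠ 0) :
    ContinuousAt (fderiv ℝ Φ) z := (hasFD2 hC hz).continuousAt

lemma snd_continuousAt (hC : ∀ z, z ≠ 0 → ContDiffAt ℝ 2 Φ z) {z : V} (hz : z ≠ 0) :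
    ContinuousAt (fderiv ℝ (fderiv ℝ Φ)) z := by
  have h4 : ContDiffAt ℝ 1 (fderiv ℝ Φ) z := (hC z hz).fderiv_right (m := 1) (by norm_num)
  have h5 : ContDiffAt ℝ 0 (fderiv ℝ (fderiv ℝ Φ)) z := h4.fderiv_right (m := 0) (by norm_num)
  exact h5.continuousAt

lemma fderiv_smul (hΦ : Hom1 Φ) (hC : ∀ z, z ≠ 0 → ContDiffAt ℝ 2 Φ z) {z : V} (hz : z ≠ 0)
    {t : ℝ} (ht : 0 < t) : fderiv ℝ Φ (t • z) = fderiv ℝ Φ z := by
  have hz' : t • z ≠ 0 := smul_ne_zero ht.ne' hz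
  have h1 := hasFD hC hz'
  have h2 : HasFDerivAt (fun y : V => t • y) (t • ContinuousLinearMap.id ℝ V) z :=
    (hasFDerivAt_id z).const_smul t
  have h3 : HasFDerivAt (fun y => Φ (t • y)) ((fderiv ℝ Φ (t • z)).comp
      (t • ContinuousLinearMap.id ℝ V)) z := h1.comp z h2
  have h4 : HasFDerivAt (fun y => Φ (t • y)) (t • fderiv ℝ Φ z) z := by
    have : (fun y => Φ (t • y)) = fun y => t • Φ y := by
      funext y; exact hΦ t y ht
    rw [this]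
    exact (hasFD hC hz).const_smul t
  have h5 := h3.unique h4
  ext v
  have h6 := congrArg (fun L => L (t⁻¹ • v)) h5
  simp only [ContinuousLinearMap.comp_apply, _root_.smul_apply, ContinuousLinearMap.id_apply,
    smul_smul, mul_inv_cancel₀ ht.ne', one_smul] at h6
  rw [h6, map_smul, smul_smul, mul_inv_cancel₀ ht.ne', one_smul]

lemma fderiv_self (hΦ : Hom1 Φ) (hC : ∀ z, z ≠ 0 → ContDiffAt ℝ 2 Φ z) {z : V} (hz : z ≠ 0) :
    fderiv ℝ Φ z z = Φ z := by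
  have h1 := hasFD hC hz
  have h2 : HasDerivAt (fun s : ℝ => s • z) z 1 := by
    simpa using (hasDerivAt_id (1 : ℝ)).smul_const z
  have h1' : HasFDerivAt Φ (fderiv ℝ Φ z) ((1 : ℝ) • z) := by simpa using h1
  have h3 := h1'.comp_hasDerivAt (1 : ℝ) h2
  have h4 : HasDerivAt (fun s : ℝ => s • Φ z) (Φ z) 1 := by
    simpa using (hasDerivAt_id (1 : ℝ)).smul_const (Φ z)
  have h5 : (Φ ∘ fun s : ℝ => s • z) =ᶠ[𝓝 1] fun s : ℝ => s • Φ z := by
    filter_upwards [lt_mem_nhds (zero_lt_one : (0 : ℝ) < 1)] with s hs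
    exact hΦ s z hs
  exact h3.unique (h4.congr_of_eventuallyEq h5)

lemma snd_smul (hΦ : Hom1 Φ) (hC : ∀ z, z ≠ 0 → ContDiffAt ℝ 2 Φ z) {z : V} (hz : z ≠ 0)
    {t : ℝ} (ht : 0 < t) :
    fderiv ℝ (fderiv ℝ Φ) (t • z) = t⁻¹ • fderiv ℝ (fderiv ℝ Φ) z := by
  have hz' : t • z ≠ 0 := smul_ne_zero ht.ne' hz
  have h1 := hasFD2 hC hz'
  have h2 : HasFDerivAt (fun y : V => t • y) (t • ContinuousLinearMap.id ℝ V) z :=
    (hasFDerivAt_id z).const_smul t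
  have h3 : HasFDerivAt (fun y => fderiv ℝ Φ (t • y)) ((fderiv ℝ (fderiv ℝ Φ) (t • z)).comp
      (t • ContinuousLinearMap.id ℝ V)) z := h1.comp z h2
  have h4 : (fun y => fderiv ℝ Φ (t • y)) =ᶠ[𝓝 z] fderiv ℝ Φ := by
    filter_upwards [eventually_ne_zero hz] with y hy
    exact fderiv_smul hΦ hC hy ht
  have h5 := h3.unique ((hasFD2 hC hz).congr_of_eventuallyEq h4)
  ext v w
  have h6 := congrArg (fun L => L (t⁻¹ • v) w) h5
  simp only [ContinuousLinearMap.comp_apply, _root_.smul_apply, ContinuousLinearMap.id_apply,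
    smul_smul, inv_mul_cancel₀ ht.ne', one_smul, map_smul] at h6
  simp only [_root_.smul_apply]
  exact h6

lemma snd_self_left (hΦ : Hom1 Φ) (hC : ∀ z, z ≠ 0 → ContDiffAt ℝ 2 Φ z) {z : V} (hz : z ≠ 0) :
    fderiv ℝ (fderiv ℝ Φ) z z = 0 := by
  have h1 := hasFD2 hC hz
  have h2 : HasDerivAt (fun s : ℝ => s • z) z 1 := by
    simpa using (hasDerivAt_id (1 : ℝ)).smul_const z
  have h1' : HasFDerivAt (fderiv ℝ Φ) (fderiv ℝ (fderiv ℝ Φ) z) ((1 : ℝ) • z) := by simpa using h1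
  have h3 := h1'.comp_hasDerivAt (1 : ℝ) h2
  have h5 : (fderiv ℝ Φ ∘ fun s : ℝ => s • z) =ᶠ[𝓝 1] fun _ : ℝ => fderiv ℝ Φ z := by
    filter_upwards [lt_mem_nhds (zero_lt_one : (0 : ℝ) < 1)] with s hs
    exact fderiv_smul hΦ hC hz hs
  exact h3.unique ((hasDerivAt_const (1 : ℝ) (fderiv ℝ Φ z)).congr_of_eventuallyEq h5)

lemma snd_symm (hC : ∀ z, z ≠ 0 → ContDiffAt ℝ 2 Φ z) {z : V} (hz : z ≠ 0) (u v : V) :
    fderiv ℝ (fderiv ℝ Φ) z u v = fderiv ℝ (fderiv ℝ Φ) z v u := by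
  have := (hC z hz).isSymmSndFDerivAt (by simp)
  exact this u v

lemma snd_self_right (hΦ : Hom1 Φ) (hC : ∀ z, z ≠ 0 → ContDiffAt ℝ 2 Φ z) {z : V} (hz : z ≠ 0)
    (u : V) : fderiv ℝ (fderiv ℝ Φ) z u z = 0 := by
  rw [snd_symm hC hz, snd_self_left hΦ hC hz]
  simp

end Hom1

end Vale.Agent.Lib.P084_helper82
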