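import Mathlib
import Vale.Agent.Lib.P084_helper82.Homog

/-!
The radial extension of an isometry between unit spheres.
-/

namespace Vale.Agent.Lib.P084_helper82

open Filter Topology

variable {X Y : Type*} [NormedAddCommGroup X] [NormedSpace ℝ X] [NormedAddCommGroup Y]
  [NormedSpace ℝ Y]

/-- The properties of the radial extension of a sphere isometry. -/
structure RadIso (F : X → Y) : Prop where
  norm_eq : ∀ z, ‖F z‖ = ‖z‖
  hom : Hom1 F
  odd : ∀ z, F (-z) = - F z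
  iso : ∀ z1 z2, ‖‖z2‖ • F z1 - ‖z1‖ • F z2‖ = ‖‖z2‖ • z1 - ‖z1‖ • z2‖

namespace RadIso

variable {F : X → Y}

lemma map_zero (h : RadIso F) : F 0 = 0 := by
  have := h.norm_eq 0
  simpa using this

lemma ne_zero (h : RadIso F) {z : X} (hz : z ≠ 0) : F z ≠ 0 := by
  intro h0
  have := h.norm_eq z
  rw [h0, norm_zero] at this
  exact hz (norm_eq_zero.mp this.symm)

/-- the isometry identity with a plus sign. -/
lemma iso_add (h : RadIso F) (z1 z2 : X) :
    ‖‖z2‖ • F z1 + ‖z1‖ • F z2‖ = ‖‖z2‖ • z1 + ‖z1‖ • z2‖ := by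
  have := h.iso z1 (-z2)
  rw [h.odd, norm_neg, smul_neg, smul_neg, sub_neg_eq_add, sub_neg_eq_add] at this
  exact this

lemma lipschitz (h : RadIso F) : LipschitzWith 3 F := by
  refine LipschitzWith.of_dist_le_mul fun z1 z2 => ?_
  simp only [dist_eq_norm]
  by_cases hz : z2 = 0
  · rw [hz, h.map_zero, sub_zero, sub_zero, h.norm_eq]
    have : 0 ≤ ‖z1‖ := norm_nonneg _
    simp only [NNReal.coe_ofNat]
    linarith
  · have hn : 0 < ‖z2‖ := norm_pos_iff.mpr hz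
    have e1 : ‖z2‖ • (F z1 - F z2) = (‖z2‖ • F z1 - ‖z1‖ • F z2) + (‖z1‖ - ‖z2‖) • F z2 := by
      simp only [smul_sub, sub_smul]; abel
    have e2 : ‖z2‖ • z1 - ‖z1‖ • z2 = ‖z2‖ • (z1 - z2) + (‖z2‖ - ‖z1‖) • z2 := by
      simp only [smul_sub, sub_smul]; abel
    have hdiff : |‖z1‖ - ‖z2‖| ≤ ‖z1 - z2‖ := abs_norm_sub_norm_le _ _
    have h1 : ‖‖z2‖ • z1 - ‖z1‖ • z2‖ ≤ 2 * (‖z2‖ * ‖z1 - z2‖) := by
      rw [e2]
      refine (norm_add_le _ _).trans ?_
      rw [norm_smul, norm_smul, Real.norm_eq_abs, Real.norm_eq_abs, abs_of_pos hn, abs_sub_comm]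
      nlinarith [norm_nonneg z2]
    have h2 : ‖z2‖ * ‖F z1 - F z2‖ ≤ ‖z2‖ * (3 * ‖z1 - z2‖) := by
      have h3 : ‖‖z2‖ • (F z1 - F z2)‖ = ‖z2‖ * ‖F z1 - F z2‖ := by
        rw [norm_smul, Real.norm_eq_abs, abs_of_pos hn]
      rw [← h3, e1]
      refine (norm_add_le _ _).trans ?_
      rw [h.iso, norm_smul, h.norm_eq, Real.norm_eq_abs]
      nlinarith [norm_nonneg z2]
    simp only [NNReal.coe_ofNat]
    exact le_of_mul_le_mul_left h2 hn

lemma continuous (h : RadIso F) : Continuous F := h.lipschitz.continuous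

end RadIso

/-- An isometry of unit spheres, given by total maps with an inverse. -/
structure SphIso (f : X → Y) (g : Y → X) : Prop where
  norm_f : ∀ x, ‖x‖ = 1 → ‖f x‖ = 1
  norm_g : ∀ y, ‖y‖ = 1 → ‖g y‖ = 1
  iso : ∀ x x', ‖x‖ = 1 → ‖x'‖ = 1 → ‖f x - f x'‖ = ‖x - x'‖
  gf : ∀ x, ‖x‖ = 1 → g (f x) = x
  fg : ∀ y, ‖y‖ = 1 → f (g y) = y

variable {f : X → Y} {g : Y → X}

namespace SphIso

omit [NormedSpace ℝ X] [NormedSpace ℝ Y] in
lemma symm (h : SphIso f g) : SphIso g f where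
  norm_f := h.norm_g
  norm_g := h.norm_f
  iso := fun y y' hy hy' => by
    have := h.iso (g y) (g y') (h.norm_g y hy) (h.norm_g y' hy')
    rw [h.fg y hy, h.fg y' hy'] at this
    exact this.symm
  gf := h.fg
  fg := h.gf

/-- oddness on the sphere, by strict convexity of the source. -/
lemma odd_f [StrictConvexSpace ℝ X] (h : SphIso f g) {x : X} (hx : ‖x‖ = 1) : f (-x) = - f x := by
  have hfx := h.norm_f x hx
  have hmf : ‖-f x‖ = 1 := by rw [norm_neg, hfx]
  set x' := g (-f x) with hx'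
  have hx'1 : ‖x'‖ = 1 := h.norm_g _ hmf
  have hfx' : f x' = - f x := h.fg _ hmf
  have h1 : ‖x - x'‖ = 2 := by
    rw [← h.iso x x' hx hx'1, hfx', sub_neg_eq_add, ← two_smul ℝ, norm_smul, hfx]
    simp
  have h2 : ‖x + -x'‖ = ‖x‖ + ‖-x'‖ := by
    rw [← sub_eq_add_neg, h1, norm_neg, hx, hx'1]
    norm_num
  have h3 : SameRay ℝ x (-x') := sameRay_iff_norm_add.mpr h2
  have h4 := h3.norm_smul_eq
  rw [norm_neg, hx, hx'1, one_smul, one_smul] at h4
  have h5 : x' = -x := by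
    rw [← h4, neg_neg]
  rw [← hfx', h5]

lemma odd_g [StrictConvexSpace ℝ X] (h : SphIso f g) {y : Y} (hy : ‖y‖ = 1) : g (-y) = - g y := by
  have h1 := h.odd_f (h.norm_g y hy)
  rw [h.fg y hy] at h1
  rw [← h1, h.gf _ (by rw [norm_neg]; exact h.norm_g y hy)]

end SphIso

/-- The radial extension. -/
noncomputable def radial (f : X → Y) (z : X) : Y := ‖z‖ • f (‖z‖⁻¹ • z)

lemma radial_zero (f : X → Y) : radial f 0 = 0 := by
  simp [radial]

lemma unit_of_ne {z : X} (hz : z ≠ 0) : ‖‖z‖⁻¹ • z‖ = 1 := by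
  rw [norm_smul, norm_inv, norm_norm, inv_mul_cancel₀ (norm_ne_zero_iff.mpr hz)]

lemma radial_unit (f : X → Y) {x : X} (hx : ‖x‖ = 1) : radial f x = f x := by
  simp [radial, hx]

lemma radIso_of (h : SphIso f g) (hodd : ∀ x, ‖x‖ = 1 → f (-x) = - f x) : RadIso (radial f) where
  norm_eq := by
    intro z
    by_cases hz : z = 0
    · simp [hz, radial]
    · rw [radial, norm_smul, h.norm_f _ (unit_of_ne hz)]
      simp
  hom := by
    intro t z ht
    by_cases hz : z = 0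
    · simp [hz, radial]
    · have hn : ‖z‖ ≠ 0 := norm_ne_zero_iff.mpr hz
      have e : ‖t • z‖ = t * ‖z‖ := by rw [norm_smul, Real.norm_eq_abs, abs_of_pos ht]
      simp only [radial]
      rw [e, smul_smul, mul_inv_rev, mul_assoc, inv_mul_cancel₀ ht.ne', mul_one, smul_smul]
  odd := by
    intro z
    by_cases hz : z = 0
    · simp [hz, radial]
    · simp only [radial, norm_neg]
      rw [smul_neg, hodd _ (unit_of_ne hz), smul_neg]
  iso := by
    intro z1 z2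
    by_cases hz1 : z1 = 0
    · simp [hz1, radial]
    by_cases hz2 : z2 = 0
    · simp [hz2, radial]
    have hn1 : 0 < ‖z1‖ := norm_pos_iff.mpr hz1
    have hn2 : 0 < ‖z2‖ := norm_pos_iff.mpr hz2
    have e1 : ‖z2‖ • radial f z1 - ‖z1‖ • radial f z2 =
        (‖z1‖ * ‖z2‖) • (f (‖z1‖⁻¹ • z1) - f (‖z2‖⁻¹ • z2)) := by
      simp only [radial, smul_sub, smul_smul]
      rw [mul_comm ‖z2‖ ‖z1‖]
    have e2 : ‖z2‖ • z1 - ‖z1‖ • z2 = (‖z1‖ * ‖z2‖) • (‖z1‖⁻¹ • z1 - ‖z2‖⁻¹ • z2) := by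
      simp only [smul_sub, smul_smul]
      congr 2
      · field_simp
      · field_simp
    rw [e1, e2, norm_smul, norm_smul, h.iso _ _ (unit_of_ne hz1) (unit_of_ne hz2)]

lemma radial_left_inverse (h : SphIso f g) (z : X) : radial g (radial f z) = z := by
  by_cases hz : z = 0
  · simp [hz, radial]
  · have hn : 0 < ‖z‖ := norm_pos_iff.mpr hz
    have hu := unit_of_ne hz
    have hfu := h.norm_f _ hu
    have e1 : ‖radial f z‖ = ‖z‖ := by
      rw [radial, norm_smul, hfu]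
      simp
    have e2 : ‖z‖⁻¹ • radial f z = f (‖z‖⁻¹ • z) := by
      rw [radial, smul_smul, inv_mul_cancel₀ hn.ne', one_smul]
    rw [radial, e1, e2, h.gf _ hu, smul_smul, mul_inv_cancel₀ hn.ne', one_smul]

end Vale.Agent.Lib.P084_helper82
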