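import Mathlib
import Vale.Agent.Lib.P084_helper82.Radial

/-!
From an isometry between sphere subtypes to total maps; the target is finite dimensional.
-/

namespace Vale.Agent.Lib.P084_helper82

open Metric Module

variable {X Y : Type*} [NormedAddCommGroup X] [NormedSpace ℝ X] [NormedAddCommGroup Y]
  [NormedSpace ℝ Y]

omit [NormedSpace ℝ X] in
lemma mem_of_norm {x : X} (hx : ‖x‖ = 1) : x ∈ sphere (0 : X) 1 := by
  simpa using hx

omit [NormedSpace ℝ X] in
lemma norm_of_mem (x : sphere (0 : X) 1) : ‖(x : X)‖ = 1 := by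
  simpa using x.2

/-- Total maps attached to a surjective isometry of the unit spheres. -/
lemma exists_sphIso (f : sphere (0 : X) 1 → sphere (0 : Y) 1)
    (hiso : ∀ x y, ‖(f x : Y) - (f y : Y)‖ = ‖(x : X) - (y : X)‖)
    (hsurj : Function.Surjective f) :
    ∃ (f' : X → Y) (g' : Y → X), SphIso f' g' ∧ ∀ x : sphere (0 : X) 1, f' x = f x := by
  classical
  let g : sphere (0 : Y) 1 → sphere (0 : X) 1 := Function.surjInv hsurj
  have hfg : ∀ y, f (g y) = y := Function.surjInv_eq hsurj
  have hgf : ∀ x, g (f x) = x := by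
    intro x
    have h1 := hiso (g (f x)) x
    rw [hfg, sub_self, norm_zero] at h1
    have h2 : ((g (f x) : sphere (0 : X) 1) : X) = x := by
      have := norm_eq_zero.mp h1.symm
      exact sub_eq_zero.mp this
    exact Subtype.ext h2
  let f' : X → Y := fun x => if h : ‖x‖ = 1 then (f ⟨x, mem_of_norm h⟩ : Y) else 0
  let g' : Y → X := fun y => if h : ‖y‖ = 1 then (g ⟨y, mem_of_norm h⟩ : X) else 0
  have hf' : ∀ x (h : ‖x‖ = 1), f' x = f ⟨x, mem_of_norm h⟩ := fun x h => by simp [f', h]
  have hg' : ∀ y (h : ‖y‖ = 1), g' y = g ⟨y, mem_of_norm h⟩ := fun y h => by simp [g', h]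
  refine ⟨f', g', ?_, fun x => ?_⟩
  · refine
      { norm_f := fun x hx => ?_
        norm_g := fun y hy => ?_
        iso := fun x x' hx hx' => ?_
        gf := fun x hx => ?_
        fg := fun y hy => ?_ }
    · rw [hf' x hx]; exact norm_of_mem _
    · rw [hg' y hy]; exact norm_of_mem _
    · rw [hf' x hx, hf' x' hx']; exact hiso _ _
    · rw [hf' x hx, hg' _ (norm_of_mem _)]
      have : (⟨(f ⟨x, mem_of_norm hx⟩ : Y), mem_of_norm (norm_of_mem _)⟩ : sphere (0 : Y) 1) = f ⟨x, mem_of_norm hx⟩ := rfl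
      rw [this, hgf]
    · rw [hg' y hy, hf' _ (norm_of_mem _)]
      have : (⟨(g ⟨y, mem_of_norm hy⟩ : X), mem_of_norm (norm_of_mem _)⟩ : sphere (0 : X) 1) = g ⟨y, mem_of_norm hy⟩ := rfl
      rw [this, hfg]
  · rw [hf' x (norm_of_mem x)]

/-- A nonempty compact unit sphere forces finite dimension. -/
lemma finiteDimensional_of_sphere (hc : IsCompact (sphere (0 : Y) 1))
    (hne : (sphere (0 : Y) 1).Nonempty) : FiniteDimensional ℝ Y := by
  have h1 : IsCompact ((fun p : ℝ × Y => p.1 • p.2) '' (Set.Icc (0 : ℝ) 1 ×ˢ sphere (0 : Y) 1)) :=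
    (isCompact_Icc.prod hc).image (by fun_prop)
  have h2 : closedBall (0 : Y) 1 =
      (fun p : ℝ × Y => p.1 • p.2) '' (Set.Icc (0 : ℝ) 1 ×ˢ sphere (0 : Y) 1) := by
    ext y
    constructor
    · intro hy
      have hy1 : ‖y‖ ≤ 1 := by simpa using hy
      by_cases hy0 : y = 0
      · obtain ⟨a, ha⟩ := hne
        exact ⟨(0, a), ⟨⟨le_refl _, zero_le_one⟩, ha⟩, by simp [hy0]⟩
      · refine ⟨(‖y‖, ‖y‖⁻¹ • y), ⟨⟨norm_nonneg _, hy1⟩, ?_⟩, ?_⟩
        · simpa using unit_of_ne hy0
        · simp only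
          rw [smul_smul, mul_inv_cancel₀ (norm_ne_zero_iff.mpr hy0), one_smul]
    · rintro ⟨⟨t, a⟩, ⟨ht, ha⟩, rfl⟩
      have ha1 : ‖a‖ = 1 := by simpa using ha
      simp only [mem_closedBall, dist_zero_right, norm_smul, ha1, mul_one, Real.norm_eq_abs]
      rw [abs_of_nonneg ht.1]
      exact ht.2
  rw [← h2] at h1
  exact FiniteDimensional.of_isCompact_closedBall ℝ zero_lt_one h1

/-- The target of a surjective isometry from a compact sphere is finite dimensional. -/
lemma finiteDimensional_target [FiniteDimensional ℝ X] [Nontrivial X]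
    (f : sphere (0 : X) 1 → sphere (0 : Y) 1)
    (hiso : ∀ x y, ‖(f x : Y) - (f y : Y)‖ = ‖(x : X) - (y : X)‖)
    (hsurj : Function.Surjective f) : FiniteDimensional ℝ Y := by
  have : ProperSpace X := FiniteDimensional.proper_real X
  have hcX : CompactSpace (sphere (0 : X) 1) := isCompact_iff_compactSpace.mp (isCompact_sphere _ _)
  have hcont : Continuous f := by
    have : Isometry f := Isometry.of_dist_eq fun x y => by
      rw [Subtype.dist_eq, Subtype.dist_eq, dist_eq_norm, dist_eq_norm]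
      exact hiso x y
    exact this.continuous
  have hc : IsCompact (sphere (0 : Y) 1) := by
    have h1 : IsCompact (Set.range fun x => ((f x : sphere (0 : Y) 1) : Y)) :=
      isCompact_range (continuous_subtype_val.comp hcont)
    have h2 : (Set.range fun x => ((f x : sphere (0 : Y) 1) : Y)) = sphere (0 : Y) 1 := by
      ext y
      constructor
      · rintro ⟨x, rfl⟩
        exact (f x).2
      · intro hy
        obtain ⟨x, hx⟩ := hsurj ⟨y, hy⟩
        refine ⟨x, ?_⟩
        show ((f x : sphere (0 : Y) 1) : Y) = y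
        rw [hx]
    rwa [h2] at h1
  have hne : (sphere (0 : Y) 1).Nonempty := by
    obtain ⟨x0, hx0⟩ := exists_ne (0 : X)
    have : ‖x0‖⁻¹ • x0 ∈ sphere (0 : X) 1 := by simpa using unit_of_ne hx0
    exact ⟨_, (f ⟨_, this⟩).2⟩
  exact finiteDimensional_of_sphere hc hne

end Vale.Agent.Lib.P084_helper82
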