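import Mathlib
import Vale.Agent.Lib.P084_helper82.Radial

/-!
Regularity of the radial extension: a chart made of distance functions to points of the sphere.
-/

namespace Vale.Agent.Lib.P084_helper82

open Filter Topology

variable {V : Type*} [NormedAddCommGroup V] [NormedSpace ℝ V]

/-- distance of `z` from the sphere point `a` after radial normalisation. -/
noncomputable def psi (a z : V) : ℝ := ‖z - ‖z‖ • a‖

lemma psi_contDiffAt {k : WithTop ℕ∞}
    (hN : ∀ z : V, z ≠ 0 → ContDiffAt ℝ k (fun y : V => ‖y‖) z) {a z : V} (hz : z ≠ 0)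
    (hza : z ≠ ‖z‖ • a) : ContDiffAt ℝ k (psi a) z := by
  have h1 : ContDiffAt ℝ k (fun y : V => y - ‖y‖ • a) z :=
    contDiffAt_id.sub ((hN z hz).smul contDiffAt_const)
  exact (hN _ (sub_ne_zero.mpr hza)).comp z h1

lemma psi_hasFD (hd : ∀ z : V, z ≠ 0 → DifferentiableAt ℝ (fun y : V => ‖y‖) z) {a z : V}
    (hz : z ≠ 0) (hza : z ≠ ‖z‖ • a) :
    HasFDerivAt (psi a) ((fderiv ℝ (fun y : V => ‖y‖) (z - ‖z‖ • a)).comp
      (ContinuousLinearMap.id ℝ V - (fderiv ℝ (fun y : V => ‖y‖) z).smulRight a)) z := by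
  have h1 : HasFDerivAt (fun y : V => y - ‖y‖ • a)
      (ContinuousLinearMap.id ℝ V - (fderiv ℝ (fun y : V => ‖y‖) z).smulRight a) z :=
    (hasFDerivAt_id z).sub ((hd z hz).hasFDerivAt.smul_const a)
  exact (hd _ (sub_ne_zero.mpr hza)).hasFDerivAt.comp z h1

/-- The derivatives of the functions `psi a` at `z` separate the points. -/
lemma exists_psi_ne (hd : ∀ z : V, z ≠ 0 → DifferentiableAt ℝ (fun y : V => ‖y‖) z) {z v : V}
    (hz : z ≠ 0) (hv : v ≠ 0) : ∃ a : V, ‖a‖ = 1 ∧ z ≠ ‖z‖ • a ∧ fderiv ℝ (psi a) z v ≠ 0 := by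
  by_contra hcon
  push Not at hcon
  have hr : 0 < ‖z‖ := norm_pos_iff.mpr hz
  set r := ‖z‖ with hrdef
  set ν := fderiv ℝ (fun y : V => ‖y‖) z with hν
  have hνz : ν z = r := (hd z hz).fderiv_norm_self
  -- first step: `ν v = 0`.
  have h1 : ν v = 0 := by
    set a : V := -(r⁻¹ • z) with ha
    have ha1 : ‖a‖ = 1 := by
      rw [ha, norm_neg, hrdef]; exact unit_of_ne hz
    have hra : r • a = -z := by
      rw [ha, smul_neg, smul_smul, mul_inv_cancel₀ hr.ne', one_smul]
    have hzne : z ≠ -z := by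
      intro h
      have : (2 : ℝ) • z = 0 := by
        rw [two_smul]
        nth_rewrite 1 [h]
        simp
      exact hz ((smul_eq_zero.mp this).resolve_left (by norm_num))
    have hza : z ≠ ‖z‖ • a := by rw [← hrdef, hra]; exact hzne
    have h2 := hcon a ha1 hza
    rw [(psi_hasFD hd hz hza).fderiv] at h2
    simp only [ContinuousLinearMap.comp_apply, _root_.sub_apply,
      ContinuousLinearMap.id_apply, ContinuousLinearMap.smulRight_apply] at h2
    have e : z - ‖z‖ • a = (2 : ℝ) • z := by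
      rw [← hrdef, hra, sub_neg_eq_add, two_smul]
    rw [e, fderiv_norm_smul_pos (by norm_num : (0 : ℝ) < 2), ← hν, map_sub, map_smul] at h2
    have e2 : ν a = -1 := by
      rw [ha, map_neg, map_smul, hνz, smul_eq_mul, inv_mul_cancel₀ hr.ne']
    rw [e2, smul_eq_mul] at h2
    linarith
  -- second step: the derivative in direction `v` vanishes along the line.
  have h2 : ∀ t : ℝ, z + t • v ≠ 0 ∧ fderiv ℝ (fun y : V => ‖y‖) (z + t • v) v = 0 := by
    intro t
    set q := z + t • v with hq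
    have hνq : ν q = r := by
      rw [hq, map_add, map_smul, h1, hνz]; simp
    have hq0 : q ≠ 0 := by
      intro h0
      rw [h0, map_zero] at hνq
      exact hr.ne hνq
    refine ⟨hq0, ?_⟩
    have hqn : 0 < ‖q‖ := norm_pos_iff.mpr hq0
    let g : ℝ → ℝ := fun s => ‖z - s • q‖
    have hgc : Continuous g := by fun_prop
    have hg0 : g 0 = r := by simp [g, hrdef]
    have hgd : HasDerivAt g (-r) 0 := by
      have e1 : HasDerivAt (fun s : ℝ => z - s • q) (-q) 0 := by
        simpa using ((hasDerivAt_id (0 : ℝ)).smul_const q).const_sub z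
      have e2 : HasFDerivAt (fun y : V => ‖y‖) ν (z - (0 : ℝ) • q) := by
        simpa using (hd z hz).hasFDerivAt
      have e3 := e2.comp_hasDerivAt (0 : ℝ) e1
      have e4 : ν (-q) = -r := by rw [map_neg, hνq]
      rw [e4] at e3
      exact e3
    have hs1 : ∃ s1 : ℝ, 0 < s1 ∧ g s1 < r := by
      have e1 := hgd.tendsto_slope_zero_right
      have e2 : ∀ᶠ t : ℝ in 𝓝[>] 0, t⁻¹ • (g (0 + t) - g 0) < 0 :=
        e1.eventually (gt_mem_nhds (by linarith))
      obtain ⟨t1, ht1, ht2⟩ := (e2.and self_mem_nhdsWithin).exists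
      refine ⟨t1, ht2, ?_⟩
      have ht2' : (0 : ℝ) < t1 := ht2
      rw [zero_add, hg0, smul_eq_mul] at ht1
      have := (mul_neg_iff.mp ht1)
      rcases this with h3 | h3
      · linarith [h3.2]
      · have : 0 < t1⁻¹ := inv_pos.mpr ht2'
        linarith [h3.1]
    obtain ⟨s1, hs1p, hs1l⟩ := hs1
    set s2 : ℝ := (2 * r + 1) / ‖q‖ with hs2
    have hs2p : 0 < s2 := by positivity
    have hs2l : r < g s2 := by
      have e1 : ‖s2 • q‖ = 2 * r + 1 := by
        rw [norm_smul, Real.norm_eq_abs, abs_of_pos hs2p, hs2]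
        field_simp
      have e2 : ‖s2 • q‖ - ‖z‖ ≤ ‖s2 • q - z‖ := norm_sub_norm_le _ _
      rw [norm_sub_rev, e1, ← hrdef] at e2
      show r < ‖z - s2 • q‖
      linarith
    have hivt := intermediate_value_uIcc (a := s1) (b := s2) (f := g) hgc.continuousOn
    have hmem : r ∈ Set.uIcc (g s1) (g s2) := by
      rw [Set.mem_uIcc]
      left
      exact ⟨hs1l.le, hs2l.le⟩
    obtain ⟨s, hs, hgs⟩ := hivt hmem
    have hspos : 0 < s := by
      rw [Set.mem_uIcc] at hs
      rcases hs with h3 | h3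
      · linarith [h3.1]
      · linarith [h3.1]
    have hgs' : ‖z - s • q‖ = r := hgs
    set a : V := r⁻¹ • (z - s • q) with ha
    have ha1 : ‖a‖ = 1 := by
      rw [ha, norm_smul, hgs', norm_inv, Real.norm_eq_abs, abs_of_pos hr, inv_mul_cancel₀ hr.ne']
    have hra : r • a = z - s • q := by
      rw [ha, smul_smul, mul_inv_cancel₀ hr.ne', one_smul]
    have hsq : s • q ≠ 0 := smul_ne_zero hspos.ne' hq0
    have hza : z ≠ ‖z‖ • a := by
      rw [← hrdef, hra]
      intro h3
      apply hsq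
      have : z - (z - s • q) = z - z := by rw [← h3]
      simpa using this
    have h3 := hcon a ha1 hza
    rw [(psi_hasFD hd hz hza).fderiv] at h3
    simp only [ContinuousLinearMap.comp_apply, _root_.sub_apply,
      ContinuousLinearMap.id_apply, ContinuousLinearMap.smulRight_apply] at h3
    have e : z - ‖z‖ • a = s • q := by
      rw [← hrdef, hra]; abel
    rw [e, fderiv_norm_smul_pos hspos, ← hν, h1] at h3
    simpa using h3
  -- third step: the norm is constant along the line, a contradiction.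
  have hder : ∀ t : ℝ, HasDerivAt (fun t : ℝ => ‖z + t • v‖) 0 t := by
    intro t
    have e1 : HasDerivAt (fun s : ℝ => z + s • v) v t := by
      simpa using ((hasDerivAt_id t).smul_const v).const_add z
    have e2 := (hd _ (h2 t).1).hasFDerivAt.comp_hasDerivAt t e1
    rw [(h2 t).2] at e2
    exact e2
  have hconst := is_const_of_deriv_eq_zero (f := fun t : ℝ => ‖z + t • v‖)
    (fun t => (hder t).differentiableAt) (fun t => (hder t).deriv)
  have hvn : 0 < ‖v‖ := norm_pos_iff.mpr hv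
  set t : ℝ := (2 * r + 1) / ‖v‖ with ht
  have htp : 0 < t := by positivity
  have e0 := hconst t 0
  simp only [zero_smul, add_zero] at e0
  have e1 : ‖t • v‖ = 2 * r + 1 := by
    rw [norm_smul, Real.norm_eq_abs, abs_of_pos htp, ht]
    field_simp
  have e2 : ‖t • v + z‖ ≥ ‖t • v‖ - ‖z‖ := by
    have := norm_sub_norm_le (t • v) (-z)
    rw [sub_neg_eq_add, norm_neg] at this
    exact this
  rw [add_comm, e0, e1, ← hrdef] at e2
  linarith

/-- A finite subfamily of a separating family of functionals is still separating. -/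
lemma exists_finset_sep {E ι : Type*} [NormedAddCommGroup E] [NormedSpace ℝ E]
    [FiniteDimensional ℝ E] (D : ι → E →L[ℝ] ℝ) (hsep : ∀ v, v ≠ 0 → ∃ i, D i v ≠ 0) :
    ∃ s : Finset ι, ∀ v, (∀ i ∈ s, D i v = 0) → v = 0 := by
  classical
  have hfg : (Submodule.span ℝ (Set.range D)).FG := IsNoetherian.noetherian _
  obtain ⟨t, ht, hspan⟩ := (Submodule.fg_span_iff_fg_span_finset_subset _).mp hfg
  rw [← Set.image_univ] at ht
  obtain ⟨s, _, hs⟩ := Finset.subset_set_image_iff.mp ht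
  refine ⟨s, fun v hv => ?_⟩
  by_contra hv0
  obtain ⟨i, hi⟩ := hsep v hv0
  have hmem : D i ∈ Submodule.span ℝ (t : Set (E →L[ℝ] ℝ)) := by
    rw [← hspan, ← Set.image_univ]
    exact Submodule.subset_span ⟨i, trivial, rfl⟩
  have hall : ∀ φ ∈ Submodule.span ℝ (t : Set (E →L[ℝ] ℝ)), φ v = 0 := by
    intro φ hφ
    induction hφ using Submodule.span_induction with
    | mem x hx =>
      rw [← hs] at hx
      simp only [Finset.coe_image, Set.mem_image, Finset.mem_coe] at hx
      obtain ⟨j, hj, rfl⟩ := hx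
      exact hv j hj
    | zero => simp
    | add x y _ _ hx hy => simp [hx, hy]
    | smul a x _ hx => simp [hx]
  exact hi (hall _ hmem)

section Chart

variable {X Y : Type*} [NormedAddCommGroup X] [NormedSpace ℝ X] [NormedAddCommGroup Y]
  [NormedSpace ℝ Y]

lemma RadIso.psi_eq {F : X → Y} (hF : RadIso F) {a : X} (ha : ‖a‖ = 1) (z : X) :
    psi (F a) (F z) = psi a z := by
  have := hF.iso z a
  rw [ha, one_smul, one_smul] at this
  rw [psi, psi, hF.norm_eq]
  exact this

/-- **Chart lemma**: the radial extension is as regular as the norms. -/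
theorem contDiffAt_of_radIso [FiniteDimensional ℝ Y] {k : WithTop ℕ∞} (hk : k ≠ 0)
    (hNX : ∀ z : X, z ≠ 0 → ContDiffAt ℝ k (fun y : X => ‖y‖) z)
    (hNY : ∀ z : Y, z ≠ 0 → ContDiffAt ℝ k (fun y : Y => ‖y‖) z)
    {F : X → Y} {G : Y → X} (hF : RadIso F) (hG : RadIso G) (hfg : ∀ y, F (G y) = y)
    {z0 : X} (hz0 : z0 ≠ 0) : ContDiffAt ℝ k F z0 := by
  classical
  have hd : ∀ z : Y, z ≠ 0 → DifferentiableAt ℝ (fun y : Y => ‖y‖) z :=
    fun z hz => (hNY z hz).differentiableAt hk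
  set w0 := F z0 with hw0
  have hw0ne : w0 ≠ 0 := hF.ne_zero hz0
  let ι := {a : Y // ‖a‖ = 1 ∧ w0 ≠ ‖w0‖ • a}
  let D : ι → Y →L[ℝ] ℝ := fun i => fderiv ℝ (psi i.1) w0
  have hsep : ∀ v, v ≠ 0 → ∃ i, D i v ≠ 0 := by
    intro v hv
    obtain ⟨a, ha, hza, hne⟩ := exists_psi_ne hd hw0ne hv
    exact ⟨⟨a, ha, hza⟩, hne⟩
  obtain ⟨s, hs⟩ := exists_finset_sep D hsep
  let ΨY : Y → (s → ℝ) := fun y i => psi i.1.1 y
  let ΨX : X → (s → ℝ) := fun z i => psi (G i.1.1) z
  have hΨ : ∀ z, ΨY (F z) = ΨX z := by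
    intro z
    funext i
    have h1 : ‖G i.1.1‖ = 1 := by rw [hG.norm_eq]; exact i.1.2.1
    have h2 := hF.psi_eq h1 z
    rw [hfg] at h2
    exact h2
  have hΨYc : ContDiffAt ℝ k ΨY w0 :=
    contDiffAt_pi.mpr fun i => psi_contDiffAt hNY hw0ne i.1.2.2
  have hne : ∀ a : Y, w0 ≠ ‖w0‖ • a → z0 ≠ ‖z0‖ • G a := by
    intro a ha h0
    apply ha
    have h1 : F z0 = ‖z0‖ • F (G a) := by
      nth_rewrite 1 [h0]
      exact hF.hom _ _ (norm_pos_iff.mpr hz0)
    rw [hfg] at h1
    have e : ‖w0‖ = ‖z0‖ := by rw [hw0, hF.norm_eq]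
    rw [e]
    exact h1
  have hΨXc : ContDiffAt ℝ k ΨX z0 :=
    contDiffAt_pi.mpr fun i => psi_contDiffAt hNX hz0 (hne _ i.1.2.2)
  let Dall : Y →L[ℝ] (s → ℝ) := ContinuousLinearMap.pi fun i => D i.1
  have hΨYd : HasFDerivAt ΨY Dall w0 := by
    refine hasFDerivAt_pi.mpr fun i => ?_
    exact (psi_hasFD hd hw0ne i.1.2.2).differentiableAt.hasFDerivAt
  have hker : LinearMap.ker (Dall : Y →ₗ[ℝ] (s → ℝ)) = ⊥ := by
    rw [LinearMap.ker_eq_bot']
    intro v hv
    refine hs v fun i hi => ?_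
    have := congrFun hv ⟨i, hi⟩
    exact this
  obtain ⟨g, hg⟩ := LinearMap.exists_leftInverse_of_injective _ hker
  let L : (s → ℝ) →L[ℝ] Y := LinearMap.toContinuousLinearMap g
  have hLD : L.comp Dall = ContinuousLinearMap.id ℝ Y := by
    ext v
    exact congrArg (fun φ : Y →ₗ[ℝ] Y => φ v) hg
  let Hf : Y → Y := fun y => L (ΨY y)
  have hHc : ContDiffAt ℝ k Hf w0 := L.contDiff.contDiffAt.comp w0 hΨYc
  have hHd : HasFDerivAt Hf ((ContinuousLinearEquiv.refl ℝ Y : Y ≃L[ℝ] Y) : Y →L[ℝ] Y) w0 := by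
    have := L.hasFDerivAt.comp w0 hΨYd
    rw [hLD] at this
    exact this
  have hinv := hHc.to_localInverse hHd hk
  have hleft : ∀ᶠ y in 𝓝 w0, hHc.localInverse hHd hk (Hf y) = y :=
    (hHc.hasStrictFDerivAt' hHd hk).eventually_left_inverse
  have hev : ∀ᶠ z in 𝓝 z0, hHc.localInverse hHd hk (L (ΨX z)) = F z := by
    have hcont : Tendsto F (𝓝 z0) (𝓝 w0) := hF.continuous.tendsto z0
    filter_upwards [hcont.eventually hleft] with z hz
    have : Hf (F z) = L (ΨX z) := by
      show L (ΨY (F z)) = _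
      rw [hΨ]
    rw [← this]
    exact hz
  have hcomp : ContDiffAt ℝ k (fun z => hHc.localInverse hHd hk (L (ΨX z))) z0 := by
    have h1 : ContDiffAt ℝ k (fun z => L (ΨX z)) z0 := L.contDiff.contDiffAt.comp z0 hΨXc
    have h2 : Hf w0 = L (ΨX z0) := by
      show L (ΨY (F z0)) = _
      rw [hΨ]
    rw [h2] at hinv
    exact hinv.comp z0 h1
  exact hcomp.congr_of_eventuallyEq (hev.mono fun z hz => hz.symm)

end Chart

end Vale.Agent.Lib.P084_helper82
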