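import Mathlib

/-!
Algebraic lemma: a symmetric trilinear form `c` on a Euclidean space of dimension at least two,
together with a norm `N` differentiable off the origin with gradient `J`, such that
`c (J w) w ζ` is proportional to `inner w ζ` for every `w`, vanishes identically.
-/

namespace Vale.Agent.Lib.P084_helper82

open Metric Filter Topology

variable {E : Type*} [NormedAddCommGroup E] [InnerProductSpace ℝ E] [FiniteDimensional ℝ E]

/-- Hypotheses of the algebraic lemma. -/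
structure AlgHyp (N : E → ℝ) (J : E → E) (c : E → E → E → ℝ) : Prop where
  add_le : ∀ x y, N (x + y) ≤ N x + N y
  smul : ∀ (t : ℝ) x, N (t • x) = |t| * N x
  pos : ∀ x, x ≠ 0 → 0 < N x
  cont : Continuous N
  grad : ∀ w, w ≠ 0 → HasGradientAt N (J w) w
  Jcont : ContinuousOn J {0}ᶜ
  add1 : ∀ a a' b d, c (a + a') b d = c a b d + c a' b d
  smul1 : ∀ (t : ℝ) a b d, c (t • a) b d = t * c a b d
  sym12 : ∀ a b d, c a b d = c b a d
  sym23 : ∀ a b d, c a b d = c a d b
  ccont : Continuous (fun p : E × E × E => c p.1 p.2.1 p.2.2)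
  eig : ∀ w, w ≠ 0 → ∃ κ : ℝ, ∀ ζ, c (J w) w ζ = κ * inner ℝ w ζ

namespace AlgHyp

variable {N : E → ℝ} {J : E → E} {c : E → E → E → ℝ}

lemma add2 (h : AlgHyp N J c) (a b b' d : E) : c a (b + b') d = c a b d + c a b' d := by
  rw [h.sym12 a (b + b') d, h.add1, h.sym12 b a d, h.sym12 b' a d]

lemma smul2 (h : AlgHyp N J c) (t : ℝ) (a b d : E) : c a (t • b) d = t * c a b d := by
  rw [h.sym12 a (t • b) d, h.smul1, h.sym12 b a d]

lemma add3 (h : AlgHyp N J c) (a b d d' : E) : c a b (d + d') = c a b d + c a b d' := by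
  rw [h.sym23 a b (d + d'), h.add2, h.sym23 a d b, h.sym23 a d' b]

lemma smul3 (h : AlgHyp N J c) (t : ℝ) (a b d : E) : c a b (t • d) = t * c a b d := by
  rw [h.sym23 a b (t • d), h.smul2, h.sym23 a d b]

lemma sym13 (h : AlgHyp N J c) (a b d : E) : c a b d = c d b a := by
  rw [h.sym12 a b d, h.sym23 b a d, h.sym12 b d a, h.sym23 d b a, h.sym12 d a b, h.sym23 a d b,
    h.sym12 a b d]

/-- directional derivative of `N`. -/
lemma hasDerivAt_line (h : AlgHyp N J c) {w : E} (hw : w ≠ 0) (y : E) :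
    HasDerivAt (fun t : ℝ => N (w + t • y)) (inner ℝ (J w) y) 0 := by
  have h1 := (h.grad w hw).hasFDerivAt
  have h2 : HasDerivAt (fun t : ℝ => w + t • y) y 0 := by
    simpa using ((hasDerivAt_id (0 : ℝ)).smul_const y).const_add w
  have h3 : HasFDerivAt N ((InnerProductSpace.toDual ℝ E) (J w)) (w + (0 : ℝ) • y) := by
    simpa using h1
  have := h3.comp_hasDerivAt (0 : ℝ) h2
  simpa [Function.comp_def, InnerProductSpace.toDual_apply_apply] using this

/-- subgradient inequality. -/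
lemma inner_J_le (h : AlgHyp N J c) {w : E} (hw : w ≠ 0) (y : E) : inner ℝ (J w) y ≤ N y := by
  have h1 := (h.hasDerivAt_line hw y).tendsto_slope_zero_right
  refine le_of_tendsto h1 ?_
  filter_upwards [self_mem_nhdsWithin] with t ht
  have ht' : (0 : ℝ) < t := ht
  have h2 : N (w + t • y) ≤ N w + t * N y := by
    calc N (w + t • y) ≤ N w + N (t • y) := h.add_le _ _
      _ = N w + t * N y := by rw [h.smul, abs_of_pos ht']
  have h3 : N (w + (0 : ℝ) • y) = N w := by simp
  simp only [smul_eq_mul, zero_add] at *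
  rw [h3]
  rw [inv_mul_le_iff₀ ht']
  linarith

/-- Euler identity. -/
lemma inner_J_self (h : AlgHyp N J c) {w : E} (hw : w ≠ 0) : inner ℝ (J w) w = N w := by
  have h1 := h.hasDerivAt_line hw w
  have h2 : HasDerivAt (fun t : ℝ => N (w + t • w)) (N w) 0 := by
    have h3 : HasDerivAt (fun t : ℝ => (1 + t) * N w) (N w) 0 := by
      simpa using ((hasDerivAt_id (0 : ℝ)).const_add 1).mul_const (N w)
    refine h3.congr_of_eventuallyEq ?_
    have : ∀ᶠ t : ℝ in 𝓝 0, 0 < 1 + t := by
      have : Tendsto (fun t : ℝ => 1 + t) (𝓝 0) (𝓝 (1 + 0)) := tendsto_const_nhds.add tendsto_id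
      exact this.eventually (lt_mem_nhds (by norm_num))
    filter_upwards [this] with t ht
    have : w + t • w = (1 + t) • w := by rw [add_smul, one_smul]
    rw [this, h.smul, abs_of_pos ht]
  exact h1.unique h2

lemma J_ne_zero (h : AlgHyp N J c) {w : E} (hw : w ≠ 0) : J w ≠ 0 := by
  intro h0
  have h1 := h.inner_J_self hw
  rw [h0, inner_zero_left] at h1
  exact (h.pos w hw).ne h1

lemma N_zero (h : AlgHyp N J c) : N 0 = 0 := by
  have := h.smul 0 (0 : E)
  simpa using this

/-- homogeneity of the gradient. -/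
lemma J_smul (h : AlgHyp N J c) {w : E} (hw : w ≠ 0) {s : ℝ} (hs : 0 < s) : J (s • w) = J w := by
  have h1 := (h.grad (s • w) (smul_ne_zero hs.ne' hw)).hasFDerivAt
  have h2 := (h.grad w hw).hasFDerivAt
  -- compare derivatives through the identity `N (s • y) = s * N y`.
  have h3 : HasFDerivAt (fun y => N (s • y))
      (((InnerProductSpace.toDual ℝ E) (J (s • w))).comp (s • ContinuousLinearMap.id ℝ E)) w := by
    have h4 : HasFDerivAt (fun y : E => s • y) (s • ContinuousLinearMap.id ℝ E) w :=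
      (hasFDerivAt_id w).const_smul s
    exact h1.comp w h4
  have h5 : HasFDerivAt (fun y => N (s • y)) (s • (InnerProductSpace.toDual ℝ E) (J w)) w := by
    have : (fun y => N (s • y)) = fun y => s * N y := by
      funext y; rw [h.smul, abs_of_pos hs]
    rw [this]
    exact h2.const_mul s
  have h6 := h3.unique h5
  have h7 : (InnerProductSpace.toDual ℝ E) (J (s • w)) = (InnerProductSpace.toDual ℝ E) (J w) := by
    ext y
    have := congrArg (fun L => L (s⁻¹ • y)) h6
    simp only [ContinuousLinearMap.comp_apply, _root_.smul_apply,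
      ContinuousLinearMap.id_apply] at this
    rw [smul_smul, mul_inv_cancel₀ hs.ne', one_smul] at this
    rw [this, map_smul, smul_eq_mul, smul_eq_mul, ← mul_assoc, mul_inv_cancel₀ hs.ne', one_mul]
  exact (InnerProductSpace.toDual ℝ E).injective h7

/-- oddness of the gradient. -/
lemma J_neg (h : AlgHyp N J c) {w : E} (hw : w ≠ 0) : J (-w) = - J w := by
  have h1 := (h.grad (-w) (neg_ne_zero.mpr hw)).hasFDerivAt
  have h2 := (h.grad w hw).hasFDerivAt
  have h3 : HasFDerivAt (fun y => N (-y))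
      (((InnerProductSpace.toDual ℝ E) (J (-w))).comp (-ContinuousLinearMap.id ℝ E)) w := by
    have h4 : HasFDerivAt (fun y : E => -y) (-ContinuousLinearMap.id ℝ E) w :=
      (hasFDerivAt_id w).neg
    exact h1.comp w h4
  have h5 : (fun y => N (-y)) = N := by
    funext y
    have := h.smul (-1) y
    simpa using this
  rw [h5] at h3
  have h6 := h3.unique h2
  have h7 : (InnerProductSpace.toDual ℝ E) (J (-w)) = (InnerProductSpace.toDual ℝ E) (- J w) := by
    ext y
    have := congrArg (fun L => L (-y)) h6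
    simp only [ContinuousLinearMap.comp_apply, _root_.neg_apply,
      ContinuousLinearMap.id_apply, neg_neg, InnerProductSpace.toDual_apply_apply] at this
    simp only [InnerProductSpace.toDual_apply_apply]
    rw [this]
    simp
  exact (InnerProductSpace.toDual ℝ E).injective h7

end AlgHyp

/-- The eigenvalue function. -/
noncomputable def kk (J : E → E) (c : E → E → E → ℝ) (w : E) : ℝ := c (J w) w w / inner ℝ w w

namespace AlgHyp

variable {N : E → ℝ} {J : E → E} {c : E → E → E → ℝ}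

lemma eig' (h : AlgHyp N J c) {w : E} (hw : w ≠ 0) (ζ : E) :
    c (J w) w ζ = kk J c w * inner ℝ w ζ := by
  obtain ⟨κ, hκ⟩ := h.eig w hw
  have h1 : inner ℝ w w ≠ 0 := by simpa [inner_self_eq_zero] using hw
  have h2 : kk J c w = κ := by
    unfold kk; rw [hκ w]; field_simp
  rw [h2, hκ]

lemma kk_contOn (h : AlgHyp N J c) : ContinuousOn (kk J c) {0}ᶜ := by
  unfold kk
  apply ContinuousOn.div
  · have : ContinuousOn (fun w => (J w, w, w)) {0}ᶜ :=
      h.Jcont.prodMk (continuousOn_id.prodMk continuousOn_id)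
    exact h.ccont.comp_continuousOn this
  · exact (continuous_id.inner continuous_id).continuousOn
  · intro w hw
    simpa using hw

lemma kk_contAt (h : AlgHyp N J c) {w : E} (hw : w ≠ 0) : ContinuousAt (kk J c) w :=
  h.kk_contOn.continuousAt (isOpen_compl_singleton.mem_nhds hw)

lemma Jcont_at (h : AlgHyp N J c) {w : E} (hw : w ≠ 0) : ContinuousAt J w :=
  h.Jcont.continuousAt (isOpen_compl_singleton.mem_nhds hw)

lemma neg1 (h : AlgHyp N J c) (a b d : E) : c (-a) b d = - c a b d := by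
  have := h.smul1 (-1) a b d
  simpa using this

lemma neg2 (h : AlgHyp N J c) (a b d : E) : c a (-b) d = - c a b d := by
  have := h.smul2 (-1) a b d
  simpa using this

lemma neg3 (h : AlgHyp N J c) (a b d : E) : c a b (-d) = - c a b d := by
  have := h.smul3 (-1) a b d
  simpa using this

lemma zero1 (h : AlgHyp N J c) (b d : E) : c 0 b d = 0 := by
  have := h.smul1 0 (0 : E) b d
  simpa using this

lemma zero2 (h : AlgHyp N J c) (a d : E) : c a 0 d = 0 := by
  have := h.smul2 0 a (0 : E) d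
  simpa using this

lemma zero3 (h : AlgHyp N J c) (a b : E) : c a b 0 = 0 := by
  have := h.smul3 0 a b (0 : E)
  simpa using this

lemma kk_neg (h : AlgHyp N J c) {w : E} (hw : w ≠ 0) : kk J c (-w) = - kk J c w := by
  unfold kk
  rw [h.J_neg hw, inner_neg_neg, h.neg1, h.neg2, h.neg3, neg_neg, neg_div]

lemma exists_zero (h : AlgHyp N J c) (hd : 2 ≤ Module.finrank ℝ E) :
    ∃ w : E, ‖w‖ = 1 ∧ kk J c w = 0 := by
  have hnt : Nontrivial E := Module.nontrivial_of_finrank_pos (R := ℝ) (by omega)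
  have hrk : 1 < Module.rank ℝ E := by
    rw [← Module.finrank_eq_rank ℝ E]
    exact_mod_cast hd
  have hconn := isConnected_sphere hrk (0 : E) (zero_le_one)
  obtain ⟨w0, hw0⟩ := exists_ne (0 : E)
  set w1 : E := ‖w0‖⁻¹ • w0 with hw1
  have hw1n : ‖w1‖ = 1 := by
    rw [hw1, norm_smul, norm_inv, norm_norm, inv_mul_cancel₀ (norm_ne_zero_iff.mpr hw0)]
  have hw1ne : w1 ≠ 0 := by
    intro h0; rw [h0, norm_zero] at hw1n; exact zero_ne_one hw1n
  have hs : ContinuousOn (kk J c) (sphere (0 : E) 1) := by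
    refine h.kk_contOn.mono ?_
    intro y hy
    have : ‖y‖ = 1 := by simpa using hy
    intro h0
    have h0' : y = 0 := by simpa using h0
    rw [h0', norm_zero] at this
    exact zero_ne_one this
  have m1 : w1 ∈ sphere (0 : E) 1 := by simpa using hw1n
  have m2 : -w1 ∈ sphere (0 : E) 1 := by simpa using hw1n
  have key : (0 : ℝ) ∈ kk J c '' sphere (0 : E) 1 := by
    rcases le_total (kk J c w1) 0 with hle | hle
    · refine hconn.isPreconnected.intermediate_value m1 m2 hs ⟨hle, ?_⟩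
      rw [h.kk_neg hw1ne]; linarith
    · refine hconn.isPreconnected.intermediate_value m2 m1 hs ⟨?_, hle⟩
      rw [h.kk_neg hw1ne]; linarith
  obtain ⟨w, hw, hkw⟩ := key
  exact ⟨w, by simpa using hw, hkw⟩

lemma kk_normalize (h : AlgHyp N J c) {w : E} (hw : w ≠ 0) (hk : kk J c w = 0) :
    kk J c (‖J w‖⁻¹ • J w) = 0 := by
  have hJ := h.J_ne_zero hw
  have hσ : 0 < ‖J w‖ := norm_pos_iff.mpr hJ
  set w' : E := ‖J w‖⁻¹ • J w with hw'
  have hw'0 : w' ≠ 0 := smul_ne_zero (inv_ne_zero hσ.ne') hJ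
  have h1 := h.eig' hw'0 w
  have h2 : c (J w') w' w = 0 := by
    have h3 := h.eig' hw (J w')
    rw [hk, zero_mul] at h3
    rw [hw', h.smul2, ← hw', h.sym12 (J w') (J w) w, h.sym23 (J w) (J w') w, h3, mul_zero]
  have h4 : 0 < inner ℝ w' w := by
    rw [hw', inner_smul_left, h.inner_J_self hw]
    simp only [conj_trivial]
    exact mul_pos (inv_pos.mpr hσ) (h.pos w hw)
  rw [h2] at h1
  have := mul_eq_zero.mp h1.symm
  rcases this with h5 | h5
  · exact h5
  · exact absurd h5 h4.ne'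

lemma exists_theta (h : AlgHyp N J c) (hd : 2 ≤ Module.finrank ℝ E) :
    ∃ θ : E, ‖θ‖ = 1 ∧ kk J c θ = 0 ∧ ∃ σ : ℝ, 0 < σ ∧ J θ = σ • θ := by
  have hs : ContinuousOn (kk J c) (sphere (0 : E) 1) := by
    refine h.kk_contOn.mono ?_
    intro y hy
    have : ‖y‖ = 1 := by simpa using hy
    intro h0
    have h0' : y = 0 := by simpa using h0
    rw [h0', norm_zero] at this
    exact zero_ne_one this
  have hZc : IsCompact (sphere (0 : E) 1 ∩ kk J c ⁻¹' {0}) :=
    (isCompact_sphere (0 : E) 1).of_isClosed_subset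
      (hs.preimage_isClosed_of_isClosed isClosed_sphere isClosed_singleton) Set.inter_subset_left
  obtain ⟨w0, hw0, hk0⟩ := h.exists_zero hd
  have hne : (sphere (0 : E) 1 ∩ kk J c ⁻¹' {0}).Nonempty := ⟨w0, by simpa using hw0, hk0⟩
  obtain ⟨θ, hθ, hmax⟩ := hZc.exists_isMaxOn hne h.cont.continuousOn
  have hθ1 : ‖θ‖ = 1 := by simpa using hθ.1
  have hθk : kk J c θ = 0 := hθ.2
  have hθ0 : θ ≠ 0 := by
    intro h0; rw [h0, norm_zero] at hθ1; exact zero_ne_one hθ1
  have hJ := h.J_ne_zero hθ0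
  have hσ : 0 < ‖J θ‖ := norm_pos_iff.mpr hJ
  set θ' : E := ‖J θ‖⁻¹ • J θ with hθ'
  have hθ'1 : ‖θ'‖ = 1 := by
    rw [hθ', norm_smul, norm_inv, norm_norm, inv_mul_cancel₀ hσ.ne']
  have hθ'k : kk J c θ' = 0 := h.kk_normalize hθ0 hθk
  have hle : N θ' ≤ N θ := hmax ⟨by simpa using hθ'1, hθ'k⟩
  have h1 : inner ℝ (J θ) θ' ≤ N θ' := h.inner_J_le hθ0 θ'
  have h2 : inner ℝ (J θ) θ' = ‖J θ‖ := by
    rw [hθ', inner_smul_right, real_inner_self_eq_norm_sq]
    field_simp
  have h3 : inner ℝ (J θ) θ = N θ := h.inner_J_self hθ0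
  have h4 : inner ℝ (J θ) θ ≤ ‖J θ‖ * ‖θ‖ := real_inner_le_norm _ _
  have h5 : inner ℝ (J θ) θ = ‖J θ‖ * ‖θ‖ := by
    rw [hθ1, mul_one] at h4 ⊢
    linarith
  have h6 := inner_eq_norm_mul_iff_real.mp h5
  rw [hθ1, one_smul] at h6
  exact ⟨θ, hθ1, hθk, ‖J θ‖, hσ, h6⟩

/-- Riesz representation for the partially applied form. -/
lemma riesz (h : AlgHyp N J c) (a b : E) : ∃ v : E, ∀ y, inner ℝ v y = c a b y := by
  let ℓ : E →ₗ[ℝ] ℝ :=
    { toFun := c a b
      map_add' := fun x y => h.add3 a b x y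
      map_smul' := fun t x => by simpa using h.smul3 t a b x }
  refine ⟨(InnerProductSpace.toDual ℝ E).symm (LinearMap.toContinuousLinearMap ℓ), fun y => ?_⟩
  rw [InnerProductSpace.toDual_symm_apply]
  rfl

/-- monotonicity of the gradient. -/
lemma monotone_J (h : AlgHyp N J c) {w w' : E} (hw : w ≠ 0) (hw' : w' ≠ 0) :
    0 ≤ inner ℝ (J w - J w') (w - w') := by
  have h1 := h.inner_J_le hw w'
  have h2 := h.inner_J_le hw' w
  have h3 := h.inner_J_self hw
  have h4 := h.inner_J_self hw'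
  rw [inner_sub_left, inner_sub_right, inner_sub_right]
  linarith

lemma theta_vanish (h : AlgHyp N J c) {θ : E} (hθ : ‖θ‖ = 1) (hk : kk J c θ = 0) {σ : ℝ}
    (hσ : 0 < σ) (hJ : J θ = σ • θ) (a b : E) : c θ a b = 0 := by
  have hθ0 : θ ≠ 0 := by
    intro h0; rw [h0, norm_zero] at hθ; exact zero_ne_one hθ
  have hθθ : inner ℝ θ θ = (1 : ℝ) := by
    rw [real_inner_self_eq_norm_sq, hθ]; norm_num
  have h00 : ∀ ζ, c θ θ ζ = 0 := by
    intro ζ
    have := h.eig' hθ0 ζ
    rw [hk, zero_mul, hJ, h.smul1] at this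
    exact (mul_eq_zero.mp this).resolve_left hσ.ne'
  have hperp : ∀ ζ, inner ℝ θ ζ = (0 : ℝ) → ∀ y, c θ ζ y = 0 := by
    intro ζ hζ y
    obtain ⟨v, hv⟩ := h.riesz θ ζ
    have hvθ : inner ℝ v θ = (0 : ℝ) := by
      rw [hv, h.sym23, h00]
    have hw : ∀ t : ℝ, θ + t • v ≠ 0 := by
      intro t h0
      have := congrArg (fun y => inner ℝ y θ) h0
      simp only [inner_add_left, inner_smul_left, inner_zero_left, hvθ, hθθ] at this
      simp at this
    have hineq : ∀ t : ℝ, 0 < t → σ * inner ℝ v v ≤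
        kk J c (θ + t • v) * inner ℝ v ζ - c (J (θ + t • v) - σ • θ) v ζ := by
      intro t ht
      set w := θ + t • v with hwdef
      set δ := J w - σ • θ with hδ
      have hJw : J w = σ • θ + δ := by rw [hδ]; abel
      have e1 := h.eig' (hw t) ζ
      rw [← hwdef, hJw, hwdef] at e1
      have e2 : c (σ • θ + δ) (θ + t • v) ζ =
          σ * c θ θ ζ + σ * t * c θ v ζ + c δ θ ζ + t * c δ v ζ := by
        rw [h.add1, h.add2, h.add2, h.smul1, h.smul1, h.smul2, h.smul2]
        ring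
      have e3 : c θ v ζ = inner ℝ v v := by rw [hv, h.sym23]
      have e4 : c δ θ ζ = inner ℝ v δ := by
        rw [hv, h.sym12, h.sym23]
      have e5 : inner ℝ (θ + t • v) ζ = t * inner ℝ v ζ := by
        rw [inner_add_left, hζ, inner_smul_left]; simp
      rw [e2, h00, e3, e4, e5, ← hwdef] at e1
      have e6 : 0 ≤ t * inner ℝ v δ := by
        have := h.monotone_J (hw t) hθ0
        rw [← hwdef, hJ, ← hδ] at this
        have e7 : w - θ = t • v := by rw [hwdef]; abel
        rw [e7, inner_smul_right, real_inner_comm] at this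
        exact this
      have e8 : 0 ≤ inner ℝ v δ := by
        exact nonneg_of_mul_nonneg_right e6 ht
      have e9 : t * (σ * inner ℝ v v) ≤ t * (kk J c w * inner ℝ v ζ - c δ v ζ) := by
        nlinarith
      exact le_of_mul_le_mul_left e9 ht
    have hlim : Tendsto (fun t : ℝ => kk J c (θ + t • v) * inner ℝ v ζ
        - c (J (θ + t • v) - σ • θ) v ζ) (𝓝[>] 0) (𝓝 (kk J c θ * inner ℝ v ζ
        - c (J θ - σ • θ) v ζ)) := by
      have hline : Tendsto (fun t : ℝ => θ + t • v) (𝓝[>] 0) (𝓝 θ) := by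
        have : Continuous (fun t : ℝ => θ + t • v) := by fun_prop
        have h2 := this.tendsto 0
        simp only [zero_smul, add_zero] at h2
        exact h2.mono_left nhdsWithin_le_nhds
      have h1 := (h.kk_contAt hθ0).tendsto.comp hline
      have h2 := (h.Jcont_at hθ0).tendsto.comp hline
      have h3 : Tendsto (fun t : ℝ => c (J (θ + t • v) - σ • θ) v ζ) (𝓝[>] 0)
          (𝓝 (c (J θ - σ • θ) v ζ)) := by
        have : Continuous (fun y : E => c y v ζ) := by
          exact h.ccont.comp (by fun_prop : Continuous (fun y : E => (y, v, ζ)))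
        exact (this.tendsto _).comp (h2.sub tendsto_const_nhds)
      exact (h1.mul_const _).sub h3
    have hval : kk J c θ * inner ℝ v ζ - c (J θ - σ • θ) v ζ = 0 := by
      rw [hk, hJ, sub_self, h.zero1]; simp
    rw [hval] at hlim
    have hle : σ * inner ℝ v v ≤ 0 := by
      refine ge_of_tendsto hlim ?_
      filter_upwards [self_mem_nhdsWithin] with t ht
      exact hineq t ht
    have hv0 : inner ℝ v v ≤ (0 : ℝ) := by
      by_contra hcon
      push Not at hcon
      have := mul_pos hσ hcon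
      linarith
    have hv00 : v = 0 := by
      have h2 : inner ℝ v v = (0 : ℝ) := le_antisymm hv0 real_inner_self_nonneg
      exact inner_self_eq_zero.mp h2
    rw [← hv, hv00, inner_zero_left]
  have hdecomp : a = (inner ℝ θ a) • θ + (a - (inner ℝ θ a) • θ) := by abel
  have hperpa : inner ℝ θ (a - (inner ℝ θ a) • θ) = (0 : ℝ) := by
    rw [inner_sub_right, inner_smul_right, hθθ]; ring
  rw [hdecomp, h.add2, h.smul2, h00, hperp _ hperpa b]
  ring

/-! ### Second step: the maximiser of the cubic form -/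

lemma add_expand (h : AlgHyp N J c) (p v : E) (s : ℝ) :
    c (p + s • v) (p + s • v) (p + s • v) =
      c p p p + 3 * s * c p p v + 3 * s ^ 2 * c p v v + s ^ 3 * c v v v := by
  simp only [h.add1, h.add2, h.add3, h.smul1, h.smul2, h.smul3]
  rw [h.sym23 p v p, h.sym13 v v p, h.sym13 v p p, h.sym12 v p v]
  ring

lemma polar (h : AlgHyp N J c) (hG : ∀ w, c w w w = 0) (a b d : E) : c a b d = 0 := by
  have e := hG (a + b + d)
  have e1 := hG (a + b)
  have e2 := hG (a + d)
  have e3 := hG (b + d)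
  have e4 := hG a
  have e5 := hG b
  have e6 := hG d
  simp only [h.add1, h.add2, h.add3] at e e1 e2 e3
  simp only [h.sym12 b a, h.sym12 d a, h.sym12 d b, h.sym23 a b a, h.sym23 a d a, h.sym23 a d b,
    h.sym23 b d b] at e e1 e2 e3 ⊢
  linarith [h.sym13 b b a, h.sym13 d d a, h.sym13 d d b, h.sym13 b d a, h.sym23 a d b]

/-- Maximiser of the cubic form on the unit sphere. -/
lemma exists_max (h : AlgHyp N J c) (hc : ∃ a b d, c a b d ≠ 0) :
    ∃ (p : E) (μ : ℝ), ‖p‖ = 1 ∧ 0 < μ ∧ c p p p = μ ∧ ∀ y, c y y y ≤ μ * ‖y‖ ^ 3 := by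
  have hG : ∃ w, c w w w ≠ 0 := by
    by_contra hcon
    push Not at hcon
    obtain ⟨a, b, d, habd⟩ := hc
    exact habd (h.polar hcon a b d)
  obtain ⟨w, hw⟩ := hG
  have hw0 : w ≠ 0 := by
    intro h0; rw [h0, h.zero1] at hw; exact hw rfl
  have hcont : Continuous (fun y : E => c y y y) :=
    h.ccont.comp (by fun_prop : Continuous (fun y : E => (y, y, y)))
  have hscale : ∀ (s : ℝ) (y : E), c (s • y) (s • y) (s • y) = s ^ 3 * c y y y := by
    intro s y
    rw [h.smul1, h.smul2, h.smul3]; ring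
  have hne : (sphere (0 : E) 1).Nonempty := by
    refine ⟨‖w‖⁻¹ • w, ?_⟩
    simp [norm_smul, norm_ne_zero_iff.mpr hw0]
  obtain ⟨p, hp, hmax⟩ := (isCompact_sphere (0 : E) 1).exists_isMaxOn hne hcont.continuousOn
  have hp1 : ‖p‖ = 1 := by simpa using hp
  have hbound : ∀ y, c y y y ≤ c p p p * ‖y‖ ^ 3 := by
    intro y
    by_cases hy : y = 0
    · rw [hy, h.zero1]; simp
    · have hny : 0 < ‖y‖ := norm_pos_iff.mpr hy
      have hm : ‖y‖⁻¹ • y ∈ sphere (0 : E) 1 := by
        simp [norm_smul, norm_ne_zero_iff.mpr hy]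
      have h1 : c (‖y‖⁻¹ • y) (‖y‖⁻¹ • y) (‖y‖⁻¹ • y) ≤ c p p p := hmax hm
      rw [hscale] at h1
      have h2 : 0 < ‖y‖ ^ 3 := by positivity
      have h3 : c y y y = ‖y‖ ^ 3 * ((‖y‖⁻¹) ^ 3 * c y y y) := by
        field_simp
      rw [h3, mul_comm (c p p p)]
      exact mul_le_mul_of_nonneg_left h1 h2.le
  have hμ : 0 < c p p p := by
    have hnw : ‖w‖⁻¹ • w ∈ sphere (0 : E) 1 := by
      simp [norm_smul, norm_ne_zero_iff.mpr hw0]
    have hnw' : -(‖w‖⁻¹ • w) ∈ sphere (0 : E) 1 := by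
      simp [norm_smul, norm_ne_zero_iff.mpr hw0]
    have h1 := hmax hnw
    have h2 := hmax hnw'
    simp only [Set.mem_ofPred_eq] at h1 h2
    rw [hscale] at h1
    rw [h.neg1, h.neg2, h.neg3, neg_neg, hscale] at h2
    have h3 : (‖w‖⁻¹) ^ 3 * c w w w ≠ 0 := mul_ne_zero (by positivity) hw
    rcases lt_or_gt_of_ne h3 with h4 | h4
    · linarith
    · linarith
  exact ⟨p, c p p p, hp1, hμ, rfl, hbound⟩

/-- First and second order information at the maximiser. -/
lemma max_second (h : AlgHyp N J c) {p : E} {μ : ℝ} (hp : ‖p‖ = 1) (hμ : 0 < μ) (hcp : c p p p = μ)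
    (hb : ∀ y, c y y y ≤ μ * ‖y‖ ^ 3) {v : E} (hv : inner ℝ p v = (0 : ℝ)) :
    c p p v = 0 ∧ 3 * c p v v ≤ 2 * μ * ‖v‖ ^ 2 := by
  have key : ∀ s : ℝ, (s * ‖v‖) ^ 2 ≤ 1 →
      3 * s * c p p v + 3 * s ^ 2 * c p v v + s ^ 3 * c v v v ≤ 2 * μ * (s ^ 2 * ‖v‖ ^ 2) := by
    intro s hs
    have h1 := hb (p + s • v)
    rw [h.add_expand, hcp] at h1
    have h2 : ‖p + s • v‖ ^ 2 = 1 + (s * ‖v‖) ^ 2 := by
      rw [@norm_add_sq_real, hp, inner_smul_right, hv, norm_smul, Real.norm_eq_abs, mul_pow, sq_abs]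
      ring
    set x : ℝ := (s * ‖v‖) ^ 2 with hx
    have hx0 : 0 ≤ x := by positivity
    have h3 : ‖p + s • v‖ ^ 3 ≤ 1 + 2 * x := by
      have h4 : (‖p + s • v‖ ^ 3) ^ 2 ≤ (1 + 2 * x) ^ 2 := by
        have : (‖p + s • v‖ ^ 3) ^ 2 = (‖p + s • v‖ ^ 2) ^ 3 := by ring
        rw [this, h2]
        nlinarith [mul_nonneg hx0 hx0, mul_nonneg hx0 (sub_nonneg.mpr hs), mul_nonneg (mul_nonneg hx0 hx0) (sub_nonneg.mpr hs)]
      exact (abs_le_of_sq_le_sq' h4 (by positivity)).2
    have h5 : μ * ‖p + s • v‖ ^ 3 ≤ μ * (1 + 2 * x) := mul_le_mul_of_nonneg_left h3 hμ.le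
    have h6 : x = s ^ 2 * ‖v‖ ^ 2 := by rw [hx]; ring
    rw [← h6]
    linarith
  set A := c p p v with hA
  set B := c p v v with hB
  set C := c v v v with hC
  set M := ‖v‖ with hM
  have hsmall : ∀ᶠ s : ℝ in 𝓝 0, (s * M) ^ 2 ≤ 1 := by
    have hc : Continuous (fun s : ℝ => (s * M) ^ 2) := by fun_prop
    have h1 := hc.tendsto 0
    simp only [zero_mul, ne_eq, OfNat.ofNat_ne_zero, not_false_eq_true, zero_pow] at h1
    exact h1.eventually (ge_mem_nhds (by norm_num))
  have hright : ∀ᶠ s : ℝ in 𝓝[>] 0, (s * M) ^ 2 ≤ 1 := hsmall.filter_mono nhdsWithin_le_nhds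
  have hleft : ∀ᶠ s : ℝ in 𝓝[<] 0, (s * M) ^ 2 ≤ 1 := hsmall.filter_mono nhdsWithin_le_nhds
  have hcont1 : Continuous (fun s : ℝ => 3 * A + 3 * s * B + s ^ 2 * C - 2 * μ * (s * M ^ 2)) := by
    fun_prop
  have hA1 : 3 * A ≤ 0 := by
    have hlim := (hcont1.tendsto 0).mono_left (nhdsWithin_le_nhds (s := Set.Ioi (0 : ℝ)))
    have hv0 : 3 * A + 3 * 0 * B + 0 ^ 2 * C - 2 * μ * (0 * M ^ 2) = 3 * A := by ring
    rw [hv0] at hlim
    refine le_of_tendsto hlim ?_
    filter_upwards [self_mem_nhdsWithin, hright] with s hs hs2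
    have hs' : (0 : ℝ) < s := hs
    have h1 := key s hs2
    have : s * (3 * A + 3 * s * B + s ^ 2 * C - 2 * μ * (s * M ^ 2)) ≤ 0 := by nlinarith
    exact nonpos_of_mul_nonpos_right this hs'
  have hA2 : 0 ≤ 3 * A := by
    have hlim := (hcont1.tendsto 0).mono_left (nhdsWithin_le_nhds (s := Set.Iio (0 : ℝ)))
    have hv0 : 3 * A + 3 * 0 * B + 0 ^ 2 * C - 2 * μ * (0 * M ^ 2) = 3 * A := by ring
    rw [hv0] at hlim
    refine ge_of_tendsto hlim ?_
    filter_upwards [self_mem_nhdsWithin, hleft] with s hs hs2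
    have hs' : s < (0 : ℝ) := hs
    have h1 := key s hs2
    have : (-s) * (-(3 * A + 3 * s * B + s ^ 2 * C - 2 * μ * (s * M ^ 2))) ≤ 0 := by nlinarith
    have h2 := nonpos_of_mul_nonpos_right this (by linarith : 0 < -s)
    linarith
  have hA0 : A = 0 := by linarith
  refine ⟨hA0, ?_⟩
  have hcont2 : Continuous (fun s : ℝ => 3 * B + s * C) := by fun_prop
  have hlim := (hcont2.tendsto 0).mono_left (nhdsWithin_le_nhds (s := Set.Ioi (0 : ℝ)))
  have hv0 : 3 * B + 0 * C = 3 * B := by ring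
  rw [hv0] at hlim
  refine le_of_tendsto hlim ?_
  filter_upwards [self_mem_nhdsWithin, hright] with s hs hs2
  have hs' : (0 : ℝ) < s := hs
  have h1 := key s hs2
  rw [hA0] at h1
  have : s ^ 2 * (3 * B + s * C) ≤ s ^ 2 * (2 * μ * M ^ 2) := by nlinarith
  exact le_of_mul_le_mul_left this (by positivity)

/-- every direction is attained as a gradient direction. -/
lemma exists_grad (h : AlgHyp N J c) {p : E} (hp : ‖p‖ = 1) :
    ∃ (w : E) (l : ℝ), w ≠ 0 ∧ 0 < l ∧ J w = l • p ∧ 0 < inner ℝ p w := by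
  have hpne : p ≠ 0 := by
    intro h0; rw [h0, norm_zero] at hp; exact zero_ne_one hp
  have hNpos : ∀ y ∈ sphere (0 : E) 1, N y ≠ 0 := by
    intro y hy
    have hy1 : ‖y‖ = 1 := by simpa using hy
    have : y ≠ 0 := by
      intro h0; rw [h0, norm_zero] at hy1; exact zero_ne_one hy1
    exact (h.pos y this).ne'
  have hR : ContinuousOn (fun y : E => inner ℝ p y / N y) (sphere (0 : E) 1) :=
    ContinuousOn.div (by fun_prop) h.cont.continuousOn hNpos
  obtain ⟨w, hw, hmax⟩ := (isCompact_sphere (0 : E) 1).exists_isMaxOn ⟨p, by simpa using hp⟩ hR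
  have hw1 : ‖w‖ = 1 := by simpa using hw
  have hw0 : w ≠ 0 := by
    intro h0; rw [h0, norm_zero] at hw1; exact zero_ne_one hw1
  set m : ℝ := inner ℝ p w / N w with hm
  have hNw := h.pos w hw0
  have hm0 : 0 < m := by
    have h1 : inner ℝ p p / N p ≤ m := hmax (by simpa using hp)
    have h2 : 0 < inner ℝ p p / N p := by
      rw [real_inner_self_eq_norm_sq, hp]
      exact div_pos (by norm_num) (h.pos p hpne)
    linarith
  have hle : ∀ y, inner ℝ p y ≤ m * N y := by
    intro y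
    by_cases hy : y = 0
    · rw [hy, inner_zero_right, h.N_zero]; simp
    · have hny : 0 < ‖y‖ := norm_pos_iff.mpr hy
      have hm2 : ‖y‖⁻¹ • y ∈ sphere (0 : E) 1 := by
        simp [norm_smul, norm_ne_zero_iff.mpr hy]
      have h1 : inner ℝ p (‖y‖⁻¹ • y) / N (‖y‖⁻¹ • y) ≤ m := hmax hm2
      rw [h.smul, inner_smul_right, abs_of_pos (inv_pos.mpr hny)] at h1
      have hNy := h.pos y hy
      rw [div_le_iff₀ (by positivity)] at h1
      have h2 : ‖y‖ * ((‖y‖)⁻¹ * inner ℝ p y) ≤ ‖y‖ * (m * (‖y‖⁻¹ * N y)) :=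
        mul_le_mul_of_nonneg_left h1 hny.le
      have e1 : ‖y‖ * ((‖y‖)⁻¹ * inner ℝ p y) = inner ℝ p y := by field_simp
      have e2 : ‖y‖ * (m * (‖y‖⁻¹ * N y)) = m * N y := by field_simp
      linarith
  have heq : inner ℝ p w = m * N w := by
    rw [hm]; field_simp
  have hgrad : p = m • J w := by
    refine ext_inner_right ℝ fun y => ?_
    have h1 := h.hasDerivAt_line hw0 y
    have h2 : HasDerivAt (fun t : ℝ => inner ℝ p (w + t • y) - m * N (w + t • y))
        (inner ℝ p y - m * inner ℝ (J w) y) 0 := by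
      have h3 : HasDerivAt (fun t : ℝ => inner ℝ p (w + t • y)) (inner ℝ p y) 0 := by
        have h4 : (fun t : ℝ => inner ℝ p (w + t • y)) = fun t : ℝ => inner ℝ p w + t * inner ℝ p y := by
          funext t; rw [inner_add_right, inner_smul_right]
        rw [h4]
        simpa using ((hasDerivAt_id (0 : ℝ)).mul_const (inner ℝ p y)).const_add (inner ℝ p w)
      exact h3.sub (h1.const_mul m)
    have h5 : IsLocalMax (fun t : ℝ => inner ℝ p (w + t • y) - m * N (w + t • y)) 0 := by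
      refine Filter.Eventually.of_forall fun t => ?_
      have := hle (w + t • y)
      simp only [zero_smul, add_zero]
      rw [heq]
      linarith
    have h6 := h5.hasDerivAt_eq_zero h2
    rw [inner_smul_left]
    simp only [conj_trivial]
    linarith
  have hl : J w = m⁻¹ • p := by
    rw [hgrad, smul_smul, inv_mul_cancel₀ hm0.ne', one_smul]
  exact ⟨w, m⁻¹, hw0, inv_pos.mpr hm0, hl, by rw [heq]; positivity⟩

/-- **Algebraic lemma.** -/
theorem main (h : AlgHyp N J c) (hd : 2 ≤ Module.finrank ℝ E) (a b d : E) : c a b d = 0 := by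
  by_contra hcon
  obtain ⟨p, μ, hp, hμ, hcp, hb⟩ := h.exists_max ⟨a, b, d, hcon⟩
  have hp0 : p ≠ 0 := by
    intro h0; rw [h0, norm_zero] at hp; exact zero_ne_one hp
  have hpp : inner ℝ p p = (1 : ℝ) := by
    rw [real_inner_self_eq_norm_sq, hp]; norm_num
  have hsec := @max_second _ _ _ _ _ _ _ h p μ hp hμ hcp hb
  have hlin : ∀ y, c p p y = μ * inner ℝ p y := by
    intro y
    have h1 : inner ℝ p (y - (inner ℝ p y) • p) = (0 : ℝ) := by
      rw [inner_sub_right, inner_smul_right, hpp]; ring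
    have h2 := (hsec h1).1
    have h3 : y = (inner ℝ p y) • p + (y - (inner ℝ p y) • p) := by abel
    rw [h3, h.add3, h.smul3, h2, hcp, inner_add_right, inner_smul_right, hpp, h1]
    ring
  obtain ⟨w, l, hw0, hl, hJw, hβ⟩ := h.exists_grad hp
  have hk : kk J c w = l * μ := by
    have h1 := h.eig' hw0 p
    rw [hJw, h.smul1, h.sym23 p w p, hlin, real_inner_comm p w] at h1
    have : (l * μ - kk J c w) * inner ℝ p w = 0 := by linarith
    rcases mul_eq_zero.mp this with h2 | h2
    · linarith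
    · exact absurd h2 hβ.ne'
  set β : ℝ := inner ℝ p w with hβdef
  set v : E := w - β • p with hv
  have hpv : inner ℝ p v = (0 : ℝ) := by
    rw [hv, inner_sub_right, inner_smul_right, hpp, ← hβdef]; ring
  obtain ⟨hA, hB⟩ := hsec hpv
  have hvv : c p v v = μ * ‖v‖ ^ 2 := by
    have h1 := h.eig' hw0 v
    rw [hJw, h.smul1, hk] at h1
    have hw : w = β • p + v := by rw [hv]; abel
    have h2 : c p w v = c p v v := by
      rw [hw, h.add2, h.smul2, hA]; ring
    have h3 : inner ℝ w v = ‖v‖ ^ 2 := by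
      rw [hw, inner_add_left, inner_smul_left, hpv]
      simp
    rw [h2, h3] at h1
    have : l * (c p v v - μ * ‖v‖ ^ 2) = 0 := by linarith
    rcases mul_eq_zero.mp this with h4 | h4
    · exact absurd h4 hl.ne'
    · linarith
  have hv0 : v = 0 := by
    have h1 : μ * ‖v‖ ^ 2 ≤ 0 := by linarith
    have h2 : ‖v‖ ^ 2 ≤ 0 := by
      by_contra h3
      push Not at h3
      have := mul_pos hμ h3
      linarith
    have h3 : ‖v‖ = 0 := by
      have := sq_nonneg ‖v‖
      have h4 : ‖v‖ ^ 2 = 0 := le_antisymm h2 this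
      exact pow_eq_zero_iff (two_ne_zero) |>.mp h4
    exact norm_eq_zero.mp h3
  have hw : w = β • p := by
    have : w - β • p = 0 := hv0
    exact sub_eq_zero.mp this
  have hJp : J p = l • p := by
    rw [← hJw, hw, h.J_smul hp0 hβ]
  have hkp : kk J c p = l * μ := by
    unfold kk
    rw [hJp, h.smul1, hcp, hpp]; ring
  obtain ⟨θ, hθ, hkθ, σ, hσ, hJθ⟩ := h.exists_theta hd
  have hθv := h.theta_vanish hθ hkθ hσ hJθ
  have hθθ : inner ℝ θ θ = (1 : ℝ) := by
    rw [real_inner_self_eq_norm_sq, hθ]; norm_num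
  have hpθ : inner ℝ p θ = (0 : ℝ) := by
    have h1 := hlin θ
    rw [h.sym13, hθv] at h1
    exact (mul_eq_zero.mp h1.symm).resolve_left hμ.ne'
  have hwne : ∀ t : ℝ, p + t • θ ≠ 0 := by
    intro t h0
    have := congrArg (fun y => inner ℝ p y) h0
    simp only [inner_add_right, inner_smul_right, hpθ, hpp, inner_zero_right] at this
    simp at this
  have hk0 : ∀ t : ℝ, 0 < t → kk J c (p + t • θ) = 0 := by
    intro t ht
    have h1 := h.eig' (hwne t) θ
    rw [h.sym13, hθv] at h1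
    have h2 : inner ℝ (p + t • θ) θ = t := by
      rw [inner_add_left, inner_smul_left, hpθ, hθθ]; simp
    rw [h2] at h1
    exact (mul_eq_zero.mp h1.symm).resolve_right ht.ne'
  have hline : Tendsto (fun t : ℝ => p + t • θ) (𝓝[>] 0) (𝓝 p) := by
    have : Continuous (fun t : ℝ => p + t • θ) := by fun_prop
    have h2 := this.tendsto 0
    simp only [zero_smul, add_zero] at h2
    exact h2.mono_left nhdsWithin_le_nhds
  have hlim := (h.kk_contAt hp0).tendsto.comp hline
  have hzero : kk J c p = 0 := by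
    have h3 : Tendsto (fun t : ℝ => (kk J c ∘ fun t : ℝ => p + t • θ) t) (𝓝[>] 0) (𝓝 0) := by
      refine tendsto_const_nhds.congr' ?_
      filter_upwards [self_mem_nhdsWithin] with t ht
      exact (hk0 t ht).symm
    exact tendsto_nhds_unique hlim h3
  rw [hkp] at hzero
  exact (mul_pos hl hμ).ne' hzero

end AlgHyp

end Vale.Agent.Lib.P084_helper82
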