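import Mathlib

/-!
Second order jets of curves at `0`, and their calculus.
-/

namespace Vale.Agent.Lib.P084_helper82

open Filter Topology

variable {V W U : Type*} [NormedAddCommGroup V] [NormedSpace ℝ V] [NormedAddCommGroup W]
  [NormedSpace ℝ W] [NormedAddCommGroup U] [NormedSpace ℝ U]

/-- `γ` has value `a`, first derivative `b` and second derivative `c` at `0`. -/
def Jet2 (γ : ℝ → V) (a b c : V) : Prop :=
  γ 0 = a ∧ ∃ γ' : ℝ → V, (∀ᶠ t in 𝓝 (0 : ℝ), HasDerivAt γ (γ' t) t) ∧ γ' 0 = b ∧ HasDerivAt γ' c 0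

namespace Jet2

variable {γ δ : ℝ → V} {a b c a' b' c' : V}

lemma hasDerivAt (h : Jet2 γ a b c) : HasDerivAt γ b 0 := by
  obtain ⟨_, γ', h1, h2, _⟩ := h
  have := h1.self_of_nhds
  rwa [h2] at this

lemma continuousAt (h : Jet2 γ a b c) : ContinuousAt γ 0 := h.hasDerivAt.continuousAt

lemma tendsto (h : Jet2 γ a b c) : Tendsto γ (𝓝 0) (𝓝 a) := by
  have := h.continuousAt.tendsto
  rwa [h.1] at this

lemma const (a : V) : Jet2 (fun _ : ℝ => a) a 0 0 :=
  ⟨rfl, fun _ => 0, Eventually.of_forall fun _ => hasDerivAt_const _ _, rfl, hasDerivAt_const _ _⟩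

lemma line (z u : V) : Jet2 (fun t : ℝ => z + t • u) z u 0 := by
  refine ⟨by simp, fun _ => u, Eventually.of_forall fun t => ?_, rfl, hasDerivAt_const _ _⟩
  simpa using ((hasDerivAt_id t).smul_const u).const_add z

lemma add (h : Jet2 γ a b c) (h' : Jet2 δ a' b' c') :
    Jet2 (fun t => γ t + δ t) (a + a') (b + b') (c + c') := by
  obtain ⟨h0, g, h1, h2, h3⟩ := h
  obtain ⟨h0', g', h1', h2', h3'⟩ := h'
  refine ⟨by simp [h0, h0'], fun t => g t + g' t, ?_, by simp [h2, h2'], h3.add h3'⟩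
  filter_upwards [h1, h1'] with t ht ht'
  exact ht.add ht'

lemma sub (h : Jet2 γ a b c) (h' : Jet2 δ a' b' c') :
    Jet2 (fun t => γ t - δ t) (a - a') (b - b') (c - c') := by
  obtain ⟨h0, g, h1, h2, h3⟩ := h
  obtain ⟨h0', g', h1', h2', h3'⟩ := h'
  refine ⟨by simp [h0, h0'], fun t => g t - g' t, ?_, by simp [h2, h2'], h3.sub h3'⟩
  filter_upwards [h1, h1'] with t ht ht'
  exact ht.sub ht'

/-- product of a scalar jet and a vector jet. -/
lemma smul {r : ℝ → ℝ} {r0 r1 r2 : ℝ} (hr : Jet2 r r0 r1 r2) (h : Jet2 γ a b c) :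
    Jet2 (fun t => r t • γ t) (r0 • a) (r0 • b + r1 • a) (r0 • c + (2 * r1) • b + r2 • a) := by
  have hd := h.hasDerivAt
  have hrd := hr.hasDerivAt
  obtain ⟨h0, g, h1, h2, h3⟩ := h
  obtain ⟨h0', g', h1', h2', h3'⟩ := hr
  refine ⟨by simp [h0, h0'], fun t => r t • g t + g' t • γ t, ?_, by simp [h2, h2', h0, h0'], ?_⟩
  · filter_upwards [h1, h1'] with t ht ht'
    exact ht'.smul ht
  · have e1 : HasDerivAt (fun t => r t • g t) (r 0 • c + r1 • g 0) 0 := by
      have := hrd.smul h3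
      exact this
    have e2 : HasDerivAt (fun t => g' t • γ t) (g' 0 • b + r2 • γ 0) 0 := by
      have := h3'.smul hd
      exact this
    refine (e1.fun_add e2).congr_deriv ?_
    rw [h0', h2, h2', h0, two_mul, add_smul]
    abel

/-- multiplication by a fixed scalar. -/
lemma const_smul (s : ℝ) (h : Jet2 γ a b c) :
    Jet2 (fun t => s • γ t) (s • a) (s • b) (s • c) := by
  have := (Jet2.const s).smul h
  simpa using this

/-- image under a continuous linear map. -/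
lemma clm (L : V →L[ℝ] W) (h : Jet2 γ a b c) : Jet2 (fun t => L (γ t)) (L a) (L b) (L c) := by
  obtain ⟨h0, g, h1, h2, h3⟩ := h
  refine ⟨by simp [h0], fun t => L (g t), ?_, by simp [h2], L.hasFDerivAt.comp_hasDerivAt 0 h3⟩
  filter_upwards [h1] with t ht
  exact L.hasFDerivAt.comp_hasDerivAt t ht

/-- composition with a `C²` map. -/
lemma comp {Φ : V → W} (hΦ : ContDiffAt ℝ 2 Φ a) (h : Jet2 γ a b c) :
    Jet2 (fun t => Φ (γ t)) (Φ a) (fderiv ℝ Φ a b)
      (fderiv ℝ (fderiv ℝ Φ) a b b + fderiv ℝ Φ a c) := by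
  have htend := h.tendsto
  have hcont := h.continuousAt
  obtain ⟨h0, g, h1, h2, h3⟩ := h
  have hev : ∀ᶠ y in 𝓝 a, HasFDerivAt Φ (fderiv ℝ Φ y) y := by
    have := hΦ.eventually (by simp)
    filter_upwards [this] with y hy
    exact (hy.differentiableAt (by simp)).hasFDerivAt
  have hev' : ∀ᶠ t in 𝓝 (0 : ℝ), HasFDerivAt Φ (fderiv ℝ Φ (γ t)) (γ t) := htend.eventually hev
  have hd2 : HasFDerivAt (fderiv ℝ Φ) (fderiv ℝ (fderiv ℝ Φ) a) a := by
    have h4 : ContDiffAt ℝ 1 (fderiv ℝ Φ) a := hΦ.fderiv_right (m := 1) (by norm_num)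
    exact (h4.differentiableAt (by simp)).hasFDerivAt
  refine ⟨by simp [h0], fun t => fderiv ℝ Φ (γ t) (g t), ?_, by simp [h0, h2], ?_⟩
  · filter_upwards [h1, hev'] with t ht ht'
    exact ht'.comp_hasDerivAt t ht
  · have h5 : HasDerivAt γ b 0 := by
      have := h1.self_of_nhds
      rwa [h2] at this
    have h6 : HasDerivAt (fun t => fderiv ℝ Φ (γ t)) (fderiv ℝ (fderiv ℝ Φ) a b) 0 := by
      have h7 : HasFDerivAt (fderiv ℝ Φ) (fderiv ℝ (fderiv ℝ Φ) a) (γ 0) := by rwa [h0]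
      exact h7.comp_hasDerivAt 0 h5
    have h8 := h6.clm_apply h3
    convert h8 using 1
    simp [h2, h0]

/-- uniqueness of the jet. -/
lemma unique (h : Jet2 γ a b c) (h' : Jet2 δ a' b' c') (he : γ =ᶠ[𝓝 0] δ) :
    a = a' ∧ b = b' ∧ c = c' := by
  have e0 : a = a' := by
    rw [← h.1, ← h'.1]
    exact he.self_of_nhds
  refine ⟨e0, ?_, ?_⟩
  · exact h.hasDerivAt.unique (h'.hasDerivAt.congr_of_eventuallyEq he)
  · obtain ⟨h0, g, h1, h2, h3⟩ := h
    obtain ⟨h0', g', h1', h2', h3'⟩ := h'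
    have hg : g =ᶠ[𝓝 0] g' := by
      filter_upwards [h1, h1', he.eventually_nhds] with t ht ht' hte
      exact ht.unique (ht'.congr_of_eventuallyEq hte)
    exact h3.unique (h3'.congr_of_eventuallyEq hg)

/-- the square of the norm of a jet starting at the origin (inner product case). -/
lemma norm_sq_of_zero {E : Type*} [NormedAddCommGroup E] [InnerProductSpace ℝ E] {κ : ℝ → E}
    {b c : E} (h : Jet2 κ 0 b c) : Jet2 (fun t => ‖κ t‖ ^ 2) 0 0 (2 * ‖b‖ ^ 2) := by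
  have hd := h.hasDerivAt
  obtain ⟨h0, g, h1, h2, h3⟩ := h
  refine ⟨by simp [h0], fun t => 2 * inner ℝ (κ t) (g t), ?_, by simp [h0], ?_⟩
  · filter_upwards [h1] with t ht
    exact ht.norm_sq
  · have := (hd.inner ℝ h3).const_mul (2 : ℝ)
    refine this.congr_deriv ?_
    rw [h0, h2, inner_zero_left, zero_add, real_inner_self_eq_norm_sq]

/-- Taylor expansion of a jet. -/
lemma expansion (h : Jet2 γ a b c) :
    (fun t : ℝ => γ t - a - t • b - (t ^ 2 / 2) • c) =o[𝓝 0] fun t : ℝ => t ^ 2 := by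
  obtain ⟨h0, g, h1, h2, h3⟩ := h
  have hR : ∀ᶠ t in 𝓝 (0 : ℝ), HasDerivAt (fun t : ℝ => γ t - a - t • b - (t ^ 2 / 2) • c)
      (g t - b - t • c) t := by
    filter_upwards [h1] with t ht
    have e1 : HasDerivAt (fun t : ℝ => t • b) b t := by
      simpa using (hasDerivAt_id t).smul_const b
    have e2 : HasDerivAt (fun t : ℝ => (t ^ 2 / 2) • c) (t • c) t := by
      have e3 : HasDerivAt (fun t : ℝ => t ^ 2 / 2) t t := by
        have := (hasDerivAt_pow 2 t).div_const 2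
        simpa using this
      exact e3.smul_const c
    exact ((ht.sub_const a).sub e1).sub e2
  have hsmall : (fun t : ℝ => g t - b - t • c) =o[𝓝 0] fun t : ℝ => t := by
    have := hasDerivAt_iff_isLittleO_nhds_zero.mp h3
    simp only [zero_add, h2] at this
    exact this
  rw [Asymptotics.isLittleO_iff]
  intro ε hε
  have h4 := Asymptotics.isLittleO_iff.mp hsmall hε
  obtain ⟨δ, hδ, hball⟩ := Metric.eventually_nhds_iff_ball.mp (hR.and h4)
  filter_upwards [Metric.ball_mem_nhds (0 : ℝ) hδ] with t ht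
  have hconv : Convex ℝ (Metric.closedBall (0 : ℝ) |t|) := convex_closedBall _ _
  have hsub : Metric.closedBall (0 : ℝ) |t| ⊆ Metric.ball (0 : ℝ) δ := by
    intro s hs
    simp only [Metric.mem_closedBall, Real.dist_eq, sub_zero, Metric.mem_ball] at hs ht ⊢
    exact lt_of_le_of_lt hs ht
  have hderiv : ∀ s ∈ Metric.closedBall (0 : ℝ) |t|,
      HasDerivWithinAt (fun t : ℝ => γ t - a - t • b - (t ^ 2 / 2) • c) (g s - b - s • c)
        (Metric.closedBall (0 : ℝ) |t|) s := fun s hs => (hball s (hsub hs)).1.hasDerivWithinAt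
  have hbd : ∀ s ∈ Metric.closedBall (0 : ℝ) |t|, ‖g s - b - s • c‖ ≤ ε * |t| := by
    intro s hs
    have h5 := (hball s (hsub hs)).2
    simp only [Metric.mem_closedBall, Real.dist_eq, sub_zero] at hs
    rw [Real.norm_eq_abs] at h5
    exact h5.trans (mul_le_mul_of_nonneg_left hs hε.le)
  have hm0 : (0 : ℝ) ∈ Metric.closedBall (0 : ℝ) |t| := by simp
  have hmt : t ∈ Metric.closedBall (0 : ℝ) |t| := by simp
  have h6 := hconv.norm_image_sub_le_of_norm_hasDerivWithin_le hderiv hbd hm0 hmt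
  simp only [zero_smul, h0, sub_self, sub_zero, ne_eq, OfNat.ofNat_ne_zero, not_false_eq_true,
    zero_pow, zero_div] at h6
  rw [norm_pow, Real.norm_eq_abs]
  calc _ ≤ ε * |t| * ‖t‖ := h6
    _ = ε * |t| ^ 2 := by rw [Real.norm_eq_abs]; ring

end Jet2

/-- The rescaled curve `t ↦ t⁻¹ • H t` is differentiable at `0` when `H` starts at the origin. -/
lemma rescale_hasDerivAt {H : ℝ → V} {e s : V} (h : Jet2 H 0 e s) :
    HasDerivAt (fun t : ℝ => if t = 0 then e else t⁻¹ • H t) ((1 / 2 : ℝ) • s) 0 := by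
  rw [hasDerivAt_iff_isLittleO_nhds_zero]
  have h1 := h.expansion
  rw [Asymptotics.isLittleO_iff] at h1 ⊢
  intro ε hε
  filter_upwards [h1 hε] with t ht
  by_cases h0 : t = 0
  · simp [h0]
  · simp only [zero_add, h0, if_false, if_true]
    have e1 : t⁻¹ • H t - e - t • (1 / 2 : ℝ) • s = t⁻¹ • (H t - 0 - t • e - (t ^ 2 / 2) • s) := by
      simp only [smul_sub, smul_smul, sub_zero]
      rw [inv_mul_cancel₀ h0, one_smul]
      have : t⁻¹ * (t ^ 2 / 2) = t * (1 / 2) := by field_simp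
      rw [this]
    rw [e1, norm_smul, norm_inv]
    have hn : 0 < ‖t‖ := norm_pos_iff.mpr h0
    rw [inv_mul_le_iff₀ hn]
    rw [norm_pow] at ht
    calc _ ≤ ε * ‖t‖ ^ 2 := ht
      _ = ‖t‖ * (ε * ‖t‖) := by ring

/-- **Lemma T.** -/
lemma jet_norm_eq {H1 : ℝ → V} {H2 : ℝ → W} {e1 s1 : V} {e2 s2 : W}
    {n1 : V →L[ℝ] ℝ} {n2 : W →L[ℝ] ℝ} (hn1 : HasFDerivAt (fun y : V => ‖y‖) n1 e1)
    (hn2 : HasFDerivAt (fun y : W => ‖y‖) n2 e2) (j1 : Jet2 H1 0 e1 s1) (j2 : Jet2 H2 0 e2 s2)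
    (he : ∀ᶠ t in 𝓝[>] (0 : ℝ), ‖H1 t‖ = ‖H2 t‖) : ‖e1‖ = ‖e2‖ ∧ n1 s1 = n2 s2 := by
  have h1 := rescale_hasDerivAt j1
  have h2 := rescale_hasDerivAt j2
  have hn1' : HasFDerivAt (fun y : V => ‖y‖) n1 ((fun t : ℝ => if t = 0 then e1 else t⁻¹ • H1 t) 0) := by
    simpa using hn1
  have hn2' : HasFDerivAt (fun y : W => ‖y‖) n2 ((fun t : ℝ => if t = 0 then e2 else t⁻¹ • H2 t) 0) := by
    simpa using hn2
  have k1 := hn1'.comp_hasDerivAt (0 : ℝ) h1
  have k2 := hn2'.comp_hasDerivAt (0 : ℝ) h2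
  have hEq : ∀ᶠ t in 𝓝[>] (0 : ℝ), ((fun y : V => ‖y‖) ∘ fun t : ℝ => if t = 0 then e1 else t⁻¹ • H1 t) t
      = ((fun y : W => ‖y‖) ∘ fun t : ℝ => if t = 0 then e2 else t⁻¹ • H2 t) t := by
    filter_upwards [he, self_mem_nhdsWithin] with t ht ht'
    have ht0 : t ≠ 0 := (ne_of_gt ht')
    simp only [Function.comp_apply, ht0, if_false, norm_smul, ht]
  have hval : ‖e1‖ = ‖e2‖ := by
    have l1 := k1.continuousAt.tendsto.mono_left (nhdsWithin_le_nhds (s := Set.Ioi (0 : ℝ)))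
    have l2 := k2.continuousAt.tendsto.mono_left (nhdsWithin_le_nhds (s := Set.Ioi (0 : ℝ)))
    have l3 := l1.congr' hEq
    have := tendsto_nhds_unique l3 l2
    simpa using this
  refine ⟨hval, ?_⟩
  have k1w := k1.hasDerivWithinAt (s := Set.Ioi (0 : ℝ))
  have k2w := k2.hasDerivWithinAt (s := Set.Ioi (0 : ℝ))
  have hval0 : ((fun y : V => ‖y‖) ∘ fun t : ℝ => if t = 0 then e1 else t⁻¹ • H1 t) 0
      = ((fun y : W => ‖y‖) ∘ fun t : ℝ => if t = 0 then e2 else t⁻¹ • H2 t) 0 := by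
    simpa using hval
  have k1w' := k1w.congr_of_eventuallyEq (hEq.mono fun t ht => ht.symm) hval0.symm
  have huniq := (uniqueDiffWithinAt_Ioi (0 : ℝ)).eq_deriv _ k1w' k2w
  simp only [map_smul, smul_eq_mul] at huniq
  linarith

/-- second order necessary condition at a local maximum. -/
lemma jet_nonpos {p : ℝ → ℝ} {p1 p2 : ℝ} (hj : Jet2 p 0 p1 p2)
    (hle : ∀ᶠ t in 𝓝 (0 : ℝ), p t ≤ 0) : p1 = 0 ∧ p2 ≤ 0 := by
  have hd := hj.hasDerivAt
  have hmax : IsLocalMax p 0 := by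
    have h0 := hj.1
    filter_upwards [hle] with t ht
    rw [h0]; exact ht
  have h1 : p1 = 0 := hmax.hasDerivAt_eq_zero hd
  refine ⟨h1, ?_⟩
  by_contra hcon
  push Not at hcon
  have h2 := hj.expansion
  have h3 := Asymptotics.isLittleO_iff.mp h2 (c := p2 / 4) (by positivity)
  have h4 : ∀ᶠ t in 𝓝[>] (0 : ℝ), False := by
    filter_upwards [self_mem_nhdsWithin, hle.filter_mono nhdsWithin_le_nhds,
      h3.filter_mono nhdsWithin_le_nhds] with t ht ht2 ht3
    have ht' : (0 : ℝ) < t := ht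
    rw [h1] at ht3
    simp only [sub_zero, smul_eq_mul, mul_zero, Real.norm_eq_abs, abs_pow] at ht3
    have h5 := (abs_le.mp ht3).1
    have h6 : 0 < t ^ 2 := by positivity
    rw [sq_abs] at h5
    nlinarith
  obtain ⟨t, ht⟩ := h4.exists
  exact ht

end Vale.Agent.Lib.P084_helper82
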