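import Mathlib
import Vale.Agent.Lib.P084_helper82.Jets
import Vale.Agent.Lib.P084_helper82.Radial

/-!
Second order analysis of a sphere isometry between spaces with `C²` norms.
-/

namespace Vale.Agent.Lib.P084_helper82

open Filter Topology

section General

variable {V : Type*} [NormedAddCommGroup V]

/-- the norm as a function. -/
abbrev nrm : V → ℝ := fun y => ‖y‖

variable [NormedSpace ℝ V]

/-- the derivative of the norm. -/
noncomputable abbrev nu (z : V) : V →L[ℝ] ℝ := fderiv ℝ nrm z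

/-- the Hessian of the norm. -/
noncomputable abbrev hs (z : V) : V →L[ℝ] V →L[ℝ] ℝ := fderiv ℝ (fderiv ℝ nrm) z

lemma Jet2.congr {γ : ℝ → V} {a b c a' b' c' : V} (h : Jet2 γ a b c) (ha : a = a') (hb : b = b')
    (hc : c = c') : Jet2 γ a' b' c' := by
  subst ha hb hc
  exact h

lemma jet_norm_line (hN : ∀ z : V, z ≠ 0 → ContDiffAt ℝ 2 (nrm : V → ℝ) z) {z : V} (hz : z ≠ 0)
    (u : V) : Jet2 (fun t : ℝ => ‖z + t • u‖) ‖z‖ (nu z u) (hs z u u) := by
  have := (Jet2.line z u).comp (hN z hz)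
  simpa using this

/-- The key jet of the radial combination. -/
lemma jet_combo (hN : ∀ z : V, z ≠ 0 → ContDiffAt ℝ 2 (nrm : V → ℝ) z) {z : V} (hz : z ≠ 0)
    {γ : ℝ → V} {P R : V} (hγ : Jet2 γ z P R) {ρ : ℝ → ℝ} {ρ1 ρ2 : ℝ} (hρ : Jet2 ρ ‖z‖ ρ1 ρ2) :
    ∃ d, Jet2 (fun t : ℝ => ‖ρ t • z + ‖z‖ • γ t‖) (2 * ‖z‖ * ‖z‖) d
      ((‖z‖ / 2) * hs z P P + ρ2 * ‖z‖ + ‖z‖ * nu z R) := by
  have hr : 0 < ‖z‖ := norm_pos_iff.mpr hz
  set r := ‖z‖ with hrdef
  have j1 := (hρ.smul (Jet2.const z)).add (Jet2.const_smul r hγ)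
  have ea : r • z + r • z = (2 * r) • z := by rw [two_mul, add_smul]
  have ha : (2 * r) • z ≠ 0 := smul_ne_zero (by positivity) hz
  have j2 := j1.congr ea (rfl) (rfl)
  have j3 := j2.comp (hN _ ha)
  have hsymm := Hom1.snd_symm hN hz
  have hself := Hom1.snd_self_left (hom1_norm (V := V)) hN hz
  have hνz : nu z z = r := by
    have := Hom1.fderiv_self (hom1_norm (V := V)) hN hz
    exact this
  refine ⟨_, j3.congr ?_ rfl ?_⟩
  · show ‖(2 * r) • z‖ = 2 * r * r
    rw [norm_smul, Real.norm_eq_abs, abs_of_pos (by positivity), ← hrdef]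
  · have e1 : fderiv ℝ (fderiv ℝ nrm) ((2 * r) • z) = (2 * r)⁻¹ • hs z :=
      Hom1.snd_smul (hom1_norm (V := V)) hN hz (by positivity)
    have e2 : fderiv ℝ nrm ((2 * r) • z) = nu z :=
      Hom1.fderiv_smul (hom1_norm (V := V)) hN hz (by positivity)
    rw [e1, e2]
    simp only [smul_zero, add_zero, zero_add, _root_.smul_apply, map_add, map_smul, smul_eq_mul,
      hself]
    have e5 : hs z P z = 0 := by rw [hsymm, hself]; simp
    rw [e5, hνz]
    simp only [mul_zero, zero_add]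
    field_simp
    ring

end General

section Main

variable {X Y : Type*} [NormedAddCommGroup X] [NormedSpace ℝ X] [NormedAddCommGroup Y]
  [NormedSpace ℝ Y]

/-- Hypotheses of the second order analysis. -/
structure Setup (F : X → Y) (G : Y → X) : Prop where
  radF : RadIso F
  radG : RadIso G
  gf : ∀ z, G (F z) = z
  fg : ∀ y, F (G y) = y
  nX : ∀ z : X, z ≠ 0 → ContDiffAt ℝ 2 (nrm : X → ℝ) z
  nY : ∀ y : Y, y ≠ 0 → ContDiffAt ℝ 2 (nrm : Y → ℝ) y
  cF : ∀ z : X, z ≠ 0 → ContDiffAt ℝ 2 F z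
  cG : ∀ y : Y, y ≠ 0 → ContDiffAt ℝ 2 G y

variable {F : X → Y} {G : Y → X}

namespace Setup

lemma symm (S : Setup F G) : Setup G F where
  radF := S.radG
  radG := S.radF
  gf := S.fg
  fg := S.gf
  nX := S.nY
  nY := S.nX
  cF := S.cG
  cG := S.cF

lemma jet_F_line (S : Setup F G) {z : X} (hz : z ≠ 0) (u : X) :
    Jet2 (fun t : ℝ => F (z + t • u)) (F z) (fderiv ℝ F z u) (fderiv ℝ (fderiv ℝ F) z u u) := by
  have := (Jet2.line z u).comp (S.cF z hz)
  simpa using this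

/-- first and second derivative of `‖F z‖ = ‖z‖`. -/
lemma C12 (S : Setup F G) {z : X} (hz : z ≠ 0) (u : X) :
    nu (F z) (fderiv ℝ F z u) = nu z u ∧
    hs (F z) (fderiv ℝ F z u) (fderiv ℝ F z u) + nu (F z) (fderiv ℝ (fderiv ℝ F) z u u)
      = hs z u u := by
  have hFz := S.radF.ne_zero hz
  have j1 := (S.jet_F_line hz u).comp (S.nY _ hFz)
  have j2 := jet_norm_line S.nX hz u
  have heq : (fun t : ℝ => nrm (F (z + t • u))) =ᶠ[𝓝 0] fun t : ℝ => ‖z + t • u‖ :=
    Eventually.of_forall fun t => S.radF.norm_eq _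
  obtain ⟨_, h2, h3⟩ := j1.unique j2 heq
  exact ⟨h2, h3⟩

/-- The two fundamental second order identities on the diagonal. -/
lemma second_diag (S : Setup F G) {z : X} (hz : z ≠ 0) (u : X) :
    nu (F z) (fderiv ℝ (fderiv ℝ F) z u u) = 0 ∧
    hs z u u = hs (F z) (fderiv ℝ F z u) (fderiv ℝ F z u) := by
  have hFz := S.radF.ne_zero hz
  have hr : 0 < ‖z‖ := norm_pos_iff.mpr hz
  have hn : ‖F z‖ = ‖z‖ := S.radF.norm_eq z
  have jρ := jet_norm_line S.nX hz u
  have jρ' : Jet2 (fun t : ℝ => ‖z + t • u‖) ‖F z‖ (nu z u) (hs z u u) := by rw [hn]; exact jρ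
  obtain ⟨d1, j1⟩ := jet_combo S.nX hz (Jet2.line z u) jρ
  obtain ⟨d2, j2⟩ := jet_combo S.nY hFz (S.jet_F_line hz u) jρ'
  have heq : (fun t : ℝ => ‖‖z + t • u‖ • z + ‖z‖ • (z + t • u)‖) =ᶠ[𝓝 0]
      fun t : ℝ => ‖‖z + t • u‖ • F z + ‖F z‖ • F (z + t • u)‖ := by
    refine Eventually.of_forall fun t => ?_
    have := S.radF.iso_add z (z + t • u)
    rw [hn]
    exact this.symm
  obtain ⟨_, _, h3⟩ := j1.unique j2 heq
  rw [hn] at h3
  simp only [map_zero, mul_zero, add_zero] at h3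
  have hC := (S.C12 hz u).2
  set a := hs z u u
  set b := hs (F z) (fderiv ℝ F z u) (fderiv ℝ F z u)
  set c := nu (F z) (fderiv ℝ (fderiv ℝ F) z u u)
  have h4 : ‖z‖ * ((1 / 2) * a - (1 / 2) * b - c) = 0 := by
    linear_combination h3
  have h5 : (1 / 2) * a - (1 / 2) * b - c = 0 := by
    rcases mul_eq_zero.mp h4 with h | h
    · exact absurd h hr.ne'
    · exact h
  constructor <;> linarith

/-- symmetry of the second derivative of `F`. -/
lemma Q_symm (S : Setup F G) {z : X} (hz : z ≠ 0) (u v : X) :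
    fderiv ℝ (fderiv ℝ F) z u v = fderiv ℝ (fderiv ℝ F) z v u := Hom1.snd_symm S.cF hz u v

lemma hs_symm_X (S : Setup F G) {z : X} (hz : z ≠ 0) (u v : X) : hs z u v = hs z v u :=
  Hom1.snd_symm S.nX hz u v

lemma hs_symm_Y (S : Setup F G) {z : Y} (hz : z ≠ 0) (u v : Y) : hs z u v = hs z v u :=
  Hom1.snd_symm S.nY hz u v

/-- Polarised forms of the second order identities. -/
lemma nu_Q (S : Setup F G) {z : X} (hz : z ≠ 0) (u v : X) :
    nu (F z) (fderiv ℝ (fderiv ℝ F) z u v) = 0 := by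
  have h1 := (S.second_diag hz (u + v)).1
  have h2 := (S.second_diag hz u).1
  have h3 := (S.second_diag hz v).1
  simp only [map_add, _root_.add_apply] at h1
  rw [S.Q_symm hz v u] at h1
  linarith

lemma hs_B (S : Setup F G) {z : X} (hz : z ≠ 0) (u v : X) :
    hs z u v = hs (F z) (fderiv ℝ F z u) (fderiv ℝ F z v) := by
  have hFz := S.radF.ne_zero hz
  have h1 := (S.second_diag hz (u + v)).2
  have h2 := (S.second_diag hz u).2
  have h3 := (S.second_diag hz v).2
  simp only [map_add, _root_.add_apply] at h1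
  rw [S.hs_symm_X hz v u, S.hs_symm_Y hFz (fderiv ℝ F z v) (fderiv ℝ F z u)] at h1
  linarith

lemma C1 (S : Setup F G) {z : X} (hz : z ≠ 0) (u : X) :
    nu (F z) (fderiv ℝ F z u) = nu z u := (S.C12 hz u).1

/-- the derivative of the inverse map is a left inverse. -/
lemma B_left (S : Setup F G) {z : X} (hz : z ≠ 0) (u : X) :
    fderiv ℝ G (F z) (fderiv ℝ F z u) = u := by
  have hFz := S.radF.ne_zero hz
  have h1 : HasFDerivAt G (fderiv ℝ G (F z)) (F z) :=
    ((S.cG _ hFz).differentiableAt (by simp)).hasFDerivAt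
  have h2 : HasFDerivAt F (fderiv ℝ F z) z := ((S.cF _ hz).differentiableAt (by simp)).hasFDerivAt
  have h3 := h1.comp z h2
  have h4 : G ∘ F = id := by
    funext y; exact S.gf y
  rw [h4] at h3
  have h5 := h3.unique (hasFDerivAt_id z)
  exact congrArg (fun L : X →L[ℝ] X => L u) h5

/-- the derivative of the inverse map is a right inverse. -/
lemma B_right (S : Setup F G) {z : X} (hz : z ≠ 0) (v : Y) :
    fderiv ℝ F z (fderiv ℝ G (F z) v) = v := by
  have hFz := S.radF.ne_zero hz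
  have := S.symm.B_left hFz v
  rwa [S.gf z] at this

lemma B_ne_zero (S : Setup F G) {z : X} (hz : z ≠ 0) {u : X} (hu : u ≠ 0) :
    fderiv ℝ F z u ≠ 0 := by
  intro h0
  have := S.B_left hz u
  rw [h0, map_zero] at this
  exact hu this.symm

end Setup

end Main

/-! ### Total symmetry -/

section CompZero

variable {E P R S' : Type*} [NormedAddCommGroup E] [NormedSpace ℝ E] [NormedAddCommGroup P]
  [NormedSpace ℝ P] [NormedAddCommGroup R] [NormedSpace ℝ R] [NormedAddCommGroup S']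
  [NormedSpace ℝ S']

/-- A product rule where the differentiable factor vanishes at the point and the other factor is
merely continuous. -/
lemma hasFDerivAt_comp_of_zero {A : E → R →L[ℝ] S'} {L : E → P →L[ℝ] R}
    {A' : E →L[ℝ] R →L[ℝ] S'} {z : E} (hA : HasFDerivAt A A' z) (hA0 : A z = 0)
    (hL : ContinuousAt L z) :
    HasFDerivAt (fun y => (A y).comp (L y))
      (((ContinuousLinearMap.compL ℝ P R S').flip (L z)).comp A') z := by
  rw [hasFDerivAt_iff_isLittleO, Asymptotics.isLittleO_iff]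
  intro ε hε
  have h1 := hasFDerivAt_iff_isLittleO.mp hA
  rw [Asymptotics.isLittleO_iff] at h1
  set M := ‖L z‖ + 1 with hM
  have hMpos : 0 < M := by positivity
  set M' := ‖A'‖ + 1 with hM'
  have hM'pos : 0 < M' := by positivity
  have h2 := h1 (c := ε / (2 * M)) (by positivity)
  have h3 : ∀ᶠ y in 𝓝 z, ‖L y - L z‖ < min 1 (ε / (2 * M')) := by
    have := hL.tendsto
    rw [Metric.tendsto_nhds] at this
    filter_upwards [this _ (lt_min one_pos (by positivity : 0 < ε / (2 * M')))] with y hy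
    rwa [dist_eq_norm] at hy
  filter_upwards [h2, h3] with y hy1 hy2
  have hy3 : ‖L y - L z‖ < 1 := lt_of_lt_of_le hy2 (min_le_left _ _)
  have hy4 : ‖L y - L z‖ < ε / (2 * M') := lt_of_lt_of_le hy2 (min_le_right _ _)
  have hy5 : ‖L y‖ ≤ M := by
    have : ‖L y‖ ≤ ‖L y - L z‖ + ‖L z‖ := by
      have := norm_add_le (L y - L z) (L z)
      simpa using this
    rw [hM]; linarith
  have e : (A y).comp (L y) - (A z).comp (L z)
      - (((ContinuousLinearMap.compL ℝ P R S').flip (L z)).comp A') (y - z)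
      = (A y - A z - A' (y - z)).comp (L y) + (A' (y - z)).comp (L y - L z) := by
    ext p
    simp only [hA0]
    simp
  rw [e]
  have e1 : ‖(A y - A z - A' (y - z)).comp (L y)‖ ≤ (ε / (2 * M)) * ‖y - z‖ * M := by
    refine (ContinuousLinearMap.opNorm_comp_le _ _).trans ?_
    exact mul_le_mul hy1 hy5 (norm_nonneg _) (by positivity)
  have e2 : ‖(A' (y - z)).comp (L y - L z)‖ ≤ (M' * ‖y - z‖) * (ε / (2 * M')) := by
    refine (ContinuousLinearMap.opNorm_comp_le _ _).trans ?_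
    refine mul_le_mul ?_ hy4.le (norm_nonneg _) (by positivity)
    refine (ContinuousLinearMap.le_opNorm _ _).trans ?_
    rw [hM']
    nlinarith [norm_nonneg (y - z)]
  calc _ ≤ ‖(A y - A z - A' (y - z)).comp (L y)‖ + ‖(A' (y - z)).comp (L y - L z)‖ :=
        norm_add_le _ _
    _ ≤ (ε / (2 * M)) * ‖y - z‖ * M + (M' * ‖y - z‖) * (ε / (2 * M')) := add_le_add e1 e2
    _ = ε * ‖y - z‖ := by
      field_simp
      ring

end CompZero

section Main2

variable {X Y : Type*} [NormedAddCommGroup X] [NormedSpace ℝ X] [NormedAddCommGroup Y]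
  [NormedSpace ℝ Y]

variable {F : X → Y} {G : Y → X}

namespace Setup

/-- Total symmetry of `hs (F z) (B w) (Q u v)`. -/
lemma third_symm (S : Setup F G) {z : X} (hz : z ≠ 0) (w u v : X) :
    hs (F z) (fderiv ℝ F z w) (fderiv ℝ (fderiv ℝ F) z u v) =
      hs (F z) (fderiv ℝ F z u) (fderiv ℝ (fderiv ℝ F) z w v) := by
  have hFz := S.radF.ne_zero hz
  set n0 : Y →L[ℝ] ℝ := nu (F z) with hn0
  let Lf : X → X →L[ℝ] Y := fun y =>
    (ContinuousLinearMap.apply ℝ Y v).comp (fderiv ℝ (fderiv ℝ F) y)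
  let f : X → ℝ := fun y => n0 (fderiv ℝ F y v)
  let f' : X → X →L[ℝ] ℝ := fun y => n0.comp (Lf y)
  have hf : ∀ᶠ y in 𝓝 z, HasFDerivAt f (f' y) y := by
    filter_upwards [eventually_ne_zero hz] with y hy
    have h1 : HasFDerivAt (fun y => fderiv ℝ F y v) (Lf y) y :=
      (ContinuousLinearMap.apply ℝ Y v).hasFDerivAt.comp y (Hom1.hasFD2 S.cF hy)
    exact n0.hasFDerivAt.comp y h1
  let A : X → Y →L[ℝ] ℝ := fun y => n0 - nu (F y)
  let A' : X →L[ℝ] Y →L[ℝ] ℝ := -(hs (F z)).comp (fderiv ℝ F z)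
  have hA : HasFDerivAt A A' z := by
    have h1 : HasFDerivAt (fun y => nu (F y)) ((hs (F z)).comp (fderiv ℝ F z)) z :=
      (Hom1.hasFD2 S.nY hFz).comp z (Hom1.hasFD S.cF hz)
    have h2 := h1.const_sub n0
    exact h2
  have hA0 : A z = 0 := by
    show n0 - nu (F z) = 0
    rw [hn0, sub_self]
  have hL : ContinuousAt Lf z := continuousAt_const.clm_comp (Hom1.snd_continuousAt S.cF hz)
  have hfA : f' =ᶠ[𝓝 z] fun y => (A y).comp (Lf y) := by
    filter_upwards [eventually_ne_zero hz] with y hy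
    ext u
    have h1 : nu (F y) (fderiv ℝ (fderiv ℝ F) y u v) = 0 := S.nu_Q hy u v
    show n0 (fderiv ℝ (fderiv ℝ F) y u v) = n0 (fderiv ℝ (fderiv ℝ F) y u v) - nu (F y) (fderiv ℝ (fderiv ℝ F) y u v)
    rw [h1, sub_zero]
  have hf' := (hasFDerivAt_comp_of_zero hA hA0 hL).congr_of_eventuallyEq hfA
  have hsym := second_derivative_symmetric_of_eventually hf hf' w u
  have e : ∀ a b : X, (((ContinuousLinearMap.compL ℝ X Y ℝ).flip (Lf z)).comp A') a b =
      - hs (F z) (fderiv ℝ F z a) (fderiv ℝ (fderiv ℝ F) z b v) := by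
    intro a b
    rfl
  rw [e, e] at hsym
  linarith

/-- The first order term of the difference quotient. -/
lemma key_first (S : Setup F G) {x : X} (hx : ‖x‖ = 1) {w ζ : X} (hw : nu x w = 0)
    (hζ : nu x ζ = 0) (hw0 : w ≠ 0) :
    ‖w‖ = ‖fderiv ℝ F x w‖ ∧
    nu w (-(hs x w ζ) • x) =
      nu (fderiv ℝ F x w) (-(hs x w ζ) • F x + fderiv ℝ (fderiv ℝ F) x w ζ) := by
  have hx0 : x ≠ 0 := by
    intro h0; rw [h0, norm_zero] at hx; exact zero_ne_one hx
  set a1 : X := (1 / 2 : ℝ) • (ζ + w) with ha1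
  set a2 : X := (1 / 2 : ℝ) • (ζ - w) with ha2
  have hν1 : nu x a1 = 0 := by
    rw [ha1, map_smul, map_add, hw, hζ]; simp
  have hν2 : nu x a2 = 0 := by
    rw [ha2, map_smul, map_sub, hw, hζ]; simp
  have hdiff : a1 - a2 = w := by
    rw [ha1, ha2]; module
  have jρ1 := jet_norm_line S.nX hx0 a1
  have jρ2 := jet_norm_line S.nX hx0 a2
  rw [hν1, hx] at jρ1
  rw [hν2, hx] at jρ2
  have jL1 := Jet2.line x a1
  have jL2 := Jet2.line x a2
  have jF1 := S.jet_F_line hx0 a1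
  have jF2 := S.jet_F_line hx0 a2
  have hsd : hs x a2 a2 - hs x a1 a1 = - hs x w ζ := by
    have hsy := S.hs_symm_X hx0 ζ w
    rw [ha1, ha2]
    simp only [map_smul, map_add, map_sub, _root_.smul_apply, _root_.add_apply, _root_.sub_apply,
      smul_eq_mul]
    rw [hsy]
    ring
  have hQd : fderiv ℝ (fderiv ℝ F) x a1 a1 - fderiv ℝ (fderiv ℝ F) x a2 a2
      = fderiv ℝ (fderiv ℝ F) x w ζ := by
    have hsy := S.Q_symm hx0 ζ w
    rw [ha1, ha2]
    simp only [map_smul, map_add, map_sub, _root_.smul_apply, _root_.add_apply, _root_.sub_apply]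
    rw [hsy]
    module
  have j1 := (jρ2.smul jL1).sub (jρ1.smul jL2)
  have j2 := (jρ2.smul jF1).sub (jρ1.smul jF2)
  have j1' : Jet2 (fun t : ℝ => ‖x + t • a2‖ • (x + t • a1) - ‖x + t • a1‖ • (x + t • a2)) 0 w
      (-(hs x w ζ) • x) := by
    refine j1.congr (by simp) ?_ ?_
    · simp only [one_smul, zero_smul, add_zero]
      exact hdiff
    · simp only [smul_zero, mul_zero, zero_smul, zero_add]
      rw [← sub_smul, hsd]
  have hBd : fderiv ℝ F x a1 - fderiv ℝ F x a2 = fderiv ℝ F x w := by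
    rw [← map_sub, hdiff]
  have j2' : Jet2 (fun t : ℝ => ‖x + t • a2‖ • F (x + t • a1) - ‖x + t • a1‖ • F (x + t • a2)) 0
      (fderiv ℝ F x w) (-(hs x w ζ) • F x + fderiv ℝ (fderiv ℝ F) x w ζ) := by
    refine j2.congr (by simp) ?_ ?_
    · simp only [one_smul, zero_smul, add_zero]
      exact hBd
    · simp only [one_smul, mul_zero, zero_smul, add_zero]
      rw [← hQd, ← hsd]
      module
  have hn1 : HasFDerivAt (fun y : X => ‖y‖) (nu w) w := Hom1.hasFD S.nX hw0
  have hn2 : HasFDerivAt (fun y : Y => ‖y‖) (nu (fderiv ℝ F x w)) (fderiv ℝ F x w) :=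
    Hom1.hasFD S.nY (S.B_ne_zero hx0 hw0)
  refine jet_norm_eq hn1 hn2 j1' j2' (Eventually.of_forall fun t => ?_)
  exact (S.radF.iso (x + t • a1) (x + t • a2)).symm

/-- `B` is norm preserving on the tangent space. -/
lemma norm_B (S : Setup F G) {x : X} (hx : ‖x‖ = 1) {w : X} (hw : nu x w = 0) :
    ‖fderiv ℝ F x w‖ = ‖w‖ := by
  by_cases hw0 : w = 0
  · simp [hw0]
  · exact (S.key_first hx hw (map_zero _) hw0).1.symm

/-- The derivative of the norm is transported by `B`. -/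
lemma nu_B (S : Setup F G) {x : X} (hx : ‖x‖ = 1) {w b : X} (hw : nu x w = 0) (hb : nu x b = 0)
    (hw0 : w ≠ 0) : nu (fderiv ℝ F x w) (fderiv ℝ F x b) = nu w b := by
  have hx0 : x ≠ 0 := by
    intro h0; rw [h0, norm_zero] at hx; exact zero_ne_one hx
  have h1 : HasDerivAt (fun t : ℝ => ‖w + t • b‖) (nu w b) 0 := by
    have e1 : HasDerivAt (fun s : ℝ => w + s • b) b 0 := by
      simpa using ((hasDerivAt_id (0 : ℝ)).smul_const b).const_add w
    have e2 : HasFDerivAt (fun y : X => ‖y‖) (nu w) (w + (0 : ℝ) • b) := by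
      simpa using Hom1.hasFD S.nX hw0
    exact e2.comp_hasDerivAt (0 : ℝ) e1
  have h2 : HasDerivAt (fun t : ℝ => ‖fderiv ℝ F x w + t • fderiv ℝ F x b‖)
      (nu (fderiv ℝ F x w) (fderiv ℝ F x b)) 0 := by
    have e1 : HasDerivAt (fun s : ℝ => fderiv ℝ F x w + s • fderiv ℝ F x b) (fderiv ℝ F x b) 0 := by
      simpa using ((hasDerivAt_id (0 : ℝ)).smul_const (fderiv ℝ F x b)).const_add (fderiv ℝ F x w)
    have e2 : HasFDerivAt (fun y : Y => ‖y‖) (nu (fderiv ℝ F x w))
        (fderiv ℝ F x w + (0 : ℝ) • fderiv ℝ F x b) := by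
      simpa using Hom1.hasFD S.nY (S.B_ne_zero hx0 hw0)
    exact e2.comp_hasDerivAt (0 : ℝ) e1
  have h3 : (fun t : ℝ => ‖fderiv ℝ F x w + t • fderiv ℝ F x b‖) = fun t : ℝ => ‖w + t • b‖ := by
    funext t
    have e1 : nu x (w + t • b) = 0 := by
      rw [map_add, map_smul, hw, hb]; simp
    have e2 := S.norm_B hx e1
    rw [map_add, map_smul] at e2
    exact e2
  rw [h3] at h2
  exact h2.unique h1

/-- The quadratic identity `(i)`. -/
lemma key_kappa (S : Setup F G) {x : X} (hx : ‖x‖ = 1) {w ζ : X} (hw : nu x w = 0)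
    (hζ : nu x ζ = 0) (hw0 : w ≠ 0) :
    nu (fderiv ℝ F x w) (fderiv ℝ (fderiv ℝ F) x w ζ) =
      (nu (fderiv ℝ F x w) (F x) - nu w x) * hs x w ζ := by
  have h := (S.key_first hx hw hζ hw0).2
  rw [map_add, map_smul, map_smul, smul_eq_mul, smul_eq_mul] at h
  linarith

end Setup

end Main2

end Vale.Agent.Lib.P084_helper82
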