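import Mathlib
import Vale.Agent.Lib.P084_helper82.Alg
import Vale.Agent.Lib.P084_helper82.Second

/-!
At a point of positive curvature the second derivative of the radial extension vanishes.
-/

namespace Vale.Agent.Lib.P084_helper82

open Filter Topology Module

/-- A positive definite symmetric bilinear form is the pull back of a Euclidean inner product. -/
lemma exists_euclid {T : Type*} [AddCommGroup T] [Module ℝ T] [FiniteDimensional ℝ T]
    (b : T →ₗ[ℝ] T →ₗ[ℝ] ℝ) (hsymm : ∀ x y, b x y = b y x) (hpos : ∀ x, x ≠ 0 → 0 < b x x) :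
    ∃ ι : EuclideanSpace ℝ (Fin (finrank ℝ T)) ≃ₗ[ℝ] T, ∀ x y, b (ι x) (ι y) = inner ℝ x y := by
  have hb : LinearMap.IsSymm b := ⟨fun x y => by simpa using hsymm x y⟩
  obtain ⟨v, hv⟩ := LinearMap.BilinForm.exists_orthogonal_basis hb
  have hv0 : ∀ i, 0 < b (v i) (v i) := fun i => hpos _ (v.ne_zero i)
  let w : Fin (finrank ℝ T) → ℝ := fun i => (Real.sqrt (b (v i) (v i)))⁻¹
  have hw : ∀ i, IsUnit (w i) := fun i =>
    isUnit_iff_ne_zero.mpr (inv_ne_zero (Real.sqrt_pos.mpr (hv0 i)).ne')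
  let v' := v.isUnitSMul hw
  let e := (EuclideanSpace.basisFun (Fin (finrank ℝ T)) ℝ).toBasis
  let ι : EuclideanSpace ℝ (Fin (finrank ℝ T)) ≃ₗ[ℝ] T := e.equiv v' (Equiv.refl _)
  refine ⟨ι, ?_⟩
  have hkey : (b.compl₁₂ (ι : _ →ₗ[ℝ] T) (ι : _ →ₗ[ℝ] T)) =
      innerₗ (EuclideanSpace ℝ (Fin (finrank ℝ T))) := by
    refine LinearMap.ext_basis e e fun i j => ?_
    have h1 : ι (e i) = w i • v i := by
      simp [ι, v', Basis.equiv_apply, Basis.isUnitSMul_apply]
    have h2 : ι (e j) = w j • v j := by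
      simp [ι, v', Basis.equiv_apply, Basis.isUnitSMul_apply]
    simp only [LinearMap.compl₁₂_apply, LinearEquiv.coe_coe, h1, h2, map_smul, LinearMap.smul_apply,
      smul_eq_mul, innerₗ_apply_apply]
    have h3 : inner ℝ (e i) (e j) = if i = j then (1 : ℝ) else 0 := by
      have := (orthonormal_iff_ite.mp (EuclideanSpace.basisFun (Fin (finrank ℝ T)) ℝ).orthonormal) i j
      simpa [e] using this
    rw [h3]
    by_cases hij : i = j
    · subst hij
      have h4 := hv0 i
      have h5 : Real.sqrt (b (v i) (v i)) * Real.sqrt (b (v i) (v i)) = b (v i) (v i) :=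
        Real.mul_self_sqrt h4.le
      have h6 := (Real.sqrt_pos.mpr h4).ne'
      simp only [w, if_true]
      field_simp
      nlinarith [h5]
    · have := hv hij
      simp only [Function.onFun] at this
      rw [if_neg hij, this]
      simp
  intro x y
  have := congrArg (fun B => B x y) hkey
  simpa using this

section Main

variable {X Y : Type*} [NormedAddCommGroup X] [NormedSpace ℝ X] [NormedAddCommGroup Y]
  [NormedSpace ℝ Y] {F : X → Y} {G : Y → X}

namespace Setup

theorem Q_zero_of_pos [FiniteDimensional ℝ X] (S : Setup F G) {x : X} (hx : ‖x‖ = 1)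
    (hdim : 3 ≤ finrank ℝ X) (hpos : ∀ u, nu x u = 0 → u ≠ 0 → 0 < hs x u u) :
    fderiv ℝ (fderiv ℝ F) x = 0 := by
  have hx0 : x ≠ 0 := by
    intro h0; rw [h0, norm_zero] at hx; exact zero_ne_one hx
  have hFx : F x ≠ 0 := S.radF.ne_zero hx0
  have hνx : nu x x = 1 := by
    have := Hom1.fderiv_self (hom1_norm (V := X)) S.nX hx0
    rw [hx] at this
    exact this
  let T : Submodule ℝ X := LinearMap.ker ((nu x : X →L[ℝ] ℝ) : X →ₗ[ℝ] ℝ)
  have hT : ∀ u : X, u ∈ T ↔ nu x u = 0 := fun u => by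
    simp [T, LinearMap.mem_ker]
  have hνne : ((nu x : X →L[ℝ] ℝ) : X →ₗ[ℝ] ℝ) ≠ 0 := by
    intro h0
    have := congrArg (fun L : X →ₗ[ℝ] ℝ => L x) h0
    simp only [ContinuousLinearMap.coe_coe, LinearMap.zero_apply] at this
    rw [hνx] at this
    exact one_ne_zero this
  have hfin : finrank ℝ T + 1 = finrank ℝ X :=
    Module.Dual.finrank_ker_add_one_of_ne_zero hνne
  have hfinT : 2 ≤ finrank ℝ T := by omega
  let b : T →ₗ[ℝ] T →ₗ[ℝ] ℝ := LinearMap.mk₂ ℝ (fun a c : T => hs x (a : X) (c : X))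
    (fun a a' c => by simp) (fun t a c => by simp) (fun a c c' => by simp) (fun t a c => by simp)
  have hbsymm : ∀ a c, b a c = b c a := fun a c => S.hs_symm_X hx0 _ _
  have hbpos : ∀ a, a ≠ 0 → 0 < b a a := by
    intro a ha
    refine hpos _ ((hT _).mp a.2) ?_
    simpa using ha
  obtain ⟨ι, hι⟩ := exists_euclid b hbsymm hbpos
  let E := EuclideanSpace ℝ (Fin (finrank ℝ T))
  let i' : E →L[ℝ] X := LinearMap.toContinuousLinearMap (T.subtype ∘ₗ (ι : E →ₗ[ℝ] T))
  have hi'apply : ∀ a, i' a = ((ι a : T) : X) := fun a => rfl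
  have hi'ν : ∀ a, nu x (i' a) = 0 := fun a => (hT _).mp (ι a).2
  have hi'hs : ∀ a c, hs x (i' a) (i' c) = inner ℝ a c := fun a c => hι a c
  have hi'inj : ∀ a, i' a = 0 → a = 0 := by
    intro a ha
    have h1 : ι a = 0 := Subtype.ext ha
    exact (LinearEquiv.map_eq_zero_iff ι).mp h1
  have hi'surj : ∀ u : X, nu x u = 0 → ∃ a, i' a = u := by
    intro u hu
    refine ⟨ι.symm ⟨u, (hT u).mpr hu⟩, ?_⟩
    simp [hi'apply]
  let B : X →L[ℝ] Y := fderiv ℝ F x
  let Q : X →L[ℝ] X →L[ℝ] Y := fderiv ℝ (fderiv ℝ F) x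
  let N : E → ℝ := fun a => ‖i' a‖
  let J : E → E := fun a => (InnerProductSpace.toDual ℝ E).symm ((nu (i' a)).comp i')
  let c : E → E → E → ℝ := fun a e d => hs (F x) (B (i' a)) (Q (i' e) (i' d))
  -- the inverse of `B` on the range of `Q`
  have hΓ : ∀ e d : E, ∃ γ : E, B (i' γ) = Q (i' e) (i' d) := by
    intro e d
    have h1 : nu x (fderiv ℝ G (F x) (Q (i' e) (i' d))) = 0 := by
      have h2 := S.C1 hx0 (fderiv ℝ G (F x) (Q (i' e) (i' d)))
      rw [S.B_right hx0] at h2
      rw [← h2]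
      exact S.nu_Q hx0 _ _
    obtain ⟨γ, hγ⟩ := hi'surj _ h1
    refine ⟨γ, ?_⟩
    rw [hγ]
    exact S.B_right hx0 _
  have hcinner : ∀ a e d γ : E, B (i' γ) = Q (i' e) (i' d) → c a e d = inner ℝ a γ := by
    intro a e d γ hγ
    show hs (F x) (B (i' a)) (Q (i' e) (i' d)) = _
    rw [← hγ, ← hi'hs]
    exact (S.hs_B hx0 _ _).symm
  have hA : AlgHyp N J c := by
    refine
      { add_le := fun a e => ?_
        smul := fun t a => ?_
        pos := fun a ha => ?_
        cont := by fun_prop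
        grad := fun w hw => ?_
        Jcont := ?_
        add1 := fun a a' e d => ?_
        smul1 := fun t a e d => ?_
        sym12 := fun a e d => ?_
        sym23 := fun a e d => ?_
        ccont := by fun_prop
        eig := fun w hw => ?_ }
    · show ‖i' (a + e)‖ ≤ ‖i' a‖ + ‖i' e‖
      rw [map_add]; exact norm_add_le _ _
    · show ‖i' (t • a)‖ = |t| * ‖i' a‖
      rw [map_smul, norm_smul, Real.norm_eq_abs]
    · exact norm_pos_iff.mpr fun h0 => ha (hi'inj a h0)
    · have hw' : i' w ≠ 0 := fun h0 => hw (hi'inj w h0)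
      rw [hasGradientAt_iff_hasFDerivAt]
      simp only [J, LinearIsometryEquiv.apply_symm_apply]
      exact (Hom1.hasFD S.nX hw').comp w i'.hasFDerivAt
    · intro w hw
      have hw0 : w ≠ 0 := by simpa using hw
      have hw' : i' w ≠ 0 := fun h0 => hw0 (hi'inj w h0)
      have h1 : ContinuousAt (fun a => (nu (i' a)).comp i') w := by
        have h2 : ContinuousAt (fun a => nu (i' a)) w :=
          ContinuousAt.comp (f := i') (g := fun y => nu y)
            (Hom1.fderiv_continuousAt S.nX hw') i'.continuous.continuousAt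
        exact h2.clm_comp continuousAt_const
      exact ((InnerProductSpace.toDual ℝ E).symm.continuous.continuousAt.comp h1).continuousWithinAt
    · show hs (F x) (B (i' (a + a'))) _ = hs (F x) (B (i' a)) _ + hs (F x) (B (i' a')) _
      simp
    · show hs (F x) (B (i' (t • a))) _ = t * hs (F x) (B (i' a)) _
      simp
    · exact S.third_symm hx0 _ _ _
    · show hs (F x) (B (i' a)) (Q (i' e) (i' d)) = hs (F x) (B (i' a)) (Q (i' d) (i' e))
      rw [S.Q_symm hx0 (i' e) (i' d)]
    · have hw' : i' w ≠ 0 := fun h0 => hw (hi'inj w h0)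
      refine ⟨nu (B (i' w)) (F x) - nu (i' w) x, fun ζ => ?_⟩
      obtain ⟨γ, hγ⟩ := hΓ w ζ
      rw [hcinner _ _ _ γ hγ]
      have h1 : inner ℝ (J w) γ = nu (i' w) (i' γ) := by
        simp [J, InnerProductSpace.toDual_symm_apply]
      rw [h1, ← S.nu_B hx (hi'ν w) (hi'ν γ) hw']
      show nu (B (i' w)) (B (i' γ)) = _
      rw [hγ]
      have h2 := S.key_kappa hx (hi'ν w) (hi'ν ζ) hw'
      show nu (B (i' w)) (Q (i' w) (i' ζ)) = _
      have h3 : hs x (i' w) (i' ζ) = inner ℝ w ζ := hi'hs w ζ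
      rw [← h3]
      exact h2
  have hfinE : 2 ≤ finrank ℝ E := by
    simpa [E] using hfinT
  have hczero := hA.main hfinE
  -- the second derivative vanishes on the tangent space
  have hQT : ∀ e d : E, Q (i' e) (i' d) = 0 := by
    intro e d
    obtain ⟨γ, hγ⟩ := hΓ e d
    have h1 := hcinner γ e d γ hγ
    rw [hczero] at h1
    have h2 : γ = 0 := inner_self_eq_zero.mp h1.symm
    rw [← hγ, h2]
    simp
  have hQ0l : ∀ v, Q x v = 0 := by
    intro v
    have := Hom1.snd_self_left S.radF.hom S.cF hx0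
    show fderiv ℝ (fderiv ℝ F) x x v = 0
    rw [this]
    simp
  have hdec : ∀ u : X, ∃ a : E, u = nu x u • x + i' a := by
    intro u
    have h1 : nu x (u - nu x u • x) = 0 := by
      rw [map_sub, map_smul, hνx]; simp
    obtain ⟨a, ha⟩ := hi'surj _ h1
    exact ⟨a, by rw [ha]; abel⟩
  have hfinal : ∀ u v, Q u v = 0 := by
    intro u v
    obtain ⟨a, ha⟩ := hdec u
    obtain ⟨d, hd⟩ := hdec v
    rw [ha, map_add, map_smul, _root_.add_apply, _root_.smul_apply, hQ0l, smul_zero, zero_add]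
    rw [hd, map_add, map_smul]
    have h1 : Q (i' a) x = 0 := by
      rw [S.Q_symm hx0]
      exact hQ0l _
    rw [h1, smul_zero, zero_add]
    exact hQT a d
  ext u v
  exact hfinal u v

end Setup

end Main

end Vale.Agent.Lib.P084_helper82
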