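import Mathlib
import Vale.Agent.Lib.P084_helper82.Second

/-!
For a strictly convex `C²` norm on a finite dimensional space, the points of positive curvature are
dense in the unit sphere (farthest points from a far away centre).
-/

namespace Vale.Agent.Lib.P084_helper82

open Filter Topology Module Metric

variable {X : Type*} [NormedAddCommGroup X] [NormedSpace ℝ X]

lemma nu_le (hN : ∀ z : X, z ≠ 0 → ContDiffAt ℝ 2 (nrm : X → ℝ) z) {x : X} (hx : x ≠ 0) (y : X) :
    nu x y ≤ ‖y‖ := by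
  have h1 : ‖nu x‖ ≤ 1 := by
    have := norm_fderiv_le_of_lipschitz ℝ (f := (nrm : X → ℝ)) (x₀ := x) lipschitzWith_one_norm
    simpa using this
  calc nu x y ≤ ‖nu x y‖ := Real.le_norm_self _
    _ ≤ ‖nu x‖ * ‖y‖ := ContinuousLinearMap.le_opNorm _ _
    _ ≤ 1 * ‖y‖ := by gcongr
    _ = ‖y‖ := one_mul _

/-- strictly convex: the norming functional attains `1` only at the base point. -/
lemma nu_lt_one [StrictConvexSpace ℝ X] (hN : ∀ z : X, z ≠ 0 → ContDiffAt ℝ 2 (nrm : X → ℝ) z)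
    {x : X} (hx : ‖x‖ = 1) {y : X} (hy : ‖y‖ ≤ 1) (hne : y ≠ x) : nu x y < 1 := by
  have hx0 : x ≠ 0 := by
    intro h0; rw [h0, norm_zero] at hx; exact zero_ne_one hx
  have hνx : nu x x = 1 := by
    have := Hom1.fderiv_self (hom1_norm (V := X)) hN hx0
    rw [hx] at this
    exact this
  by_contra hcon
  push Not at hcon
  have h1 := nu_le hN hx0 y
  have hy1 : ‖y‖ = 1 := le_antisymm hy (by linarith)
  have h2 := nu_le hN hx0 (x + y)
  rw [map_add, hνx] at h2
  have h3 : ‖x + y‖ = ‖x‖ + ‖y‖ := by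
    apply le_antisymm (norm_add_le _ _)
    rw [hx, hy1]
    linarith
  have h4 : SameRay ℝ x y := sameRay_iff_norm_add.mpr h3
  have h5 := h4.norm_smul_eq
  rw [hx, hy1, one_smul, one_smul] at h5
  exact hne h5

/-- a uniform gap away from the base point. -/
lemma exists_gap [FiniteDimensional ℝ X] [StrictConvexSpace ℝ X]
    (hN : ∀ z : X, z ≠ 0 → ContDiffAt ℝ 2 (nrm : X → ℝ) z) {x : X} (hx : ‖x‖ = 1) {ε : ℝ}
    (hε : 0 < ε) : ∃ η : ℝ, 0 < η ∧ ∀ y : X, ‖y‖ ≤ 1 → ε ≤ ‖y - x‖ → nu x y ≤ 1 - η := by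
  have : ProperSpace X := FiniteDimensional.proper_real X
  let K : Set X := closedBall (0 : X) 1 ∩ (ball x ε)ᶜ
  have hK : IsCompact K := (isCompact_closedBall _ _).inter_right isOpen_ball.isClosed_compl
  by_cases hne : K.Nonempty
  · have hcont : ContinuousOn (fun y => nu x y) K := by fun_prop
    obtain ⟨y0, hy0, hmax⟩ := hK.exists_isMaxOn hne hcont
    have hy0' : ‖y0‖ ≤ 1 := by simpa using hy0.1
    have hy0x : y0 ≠ x := by
      intro h0
      have : x ∈ (ball x ε)ᶜ := h0 ▸ hy0.2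
      exact this (mem_ball_self hε)
    have hlt := nu_lt_one hN hx hy0' hy0x
    refine ⟨1 - nu x y0, by linarith, fun y hy hd => ?_⟩
    have hmem : y ∈ K := by
      refine ⟨by simpa using hy, ?_⟩
      simp only [Set.mem_compl_iff, mem_ball, not_lt, dist_eq_norm]
      exact hd
    have := hmax hmem
    simp only [Set.mem_ofPred_eq] at this
    linarith
  · refine ⟨1, one_pos, fun y hy hd => ?_⟩
    exfalso
    apply hne
    refine ⟨y, by simpa using hy, ?_⟩
    simp only [Set.mem_compl_iff, mem_ball, not_lt, dist_eq_norm]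
    exact hd

/-- Density of the points of positive curvature. -/
theorem exists_pos_curv [FiniteDimensional ℝ X] [StrictConvexSpace ℝ X]
    (hN : ∀ z : X, z ≠ 0 → ContDiffAt ℝ 2 (nrm : X → ℝ) z) {x0 : X} (hx0 : ‖x0‖ = 1) {ε : ℝ}
    (hε : 0 < ε) :
    ∃ y : X, ‖y‖ = 1 ∧ ‖y - x0‖ < ε ∧ ∀ u, nu y u = 0 → u ≠ 0 → 0 < hs y u u := by
  have : ProperSpace X := FiniteDimensional.proper_real X
  have hx00 : x0 ≠ 0 := by
    intro h0; rw [h0, norm_zero] at hx0; exact zero_ne_one hx0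
  let e : X ≃L[ℝ] EuclideanSpace ℝ (Fin (finrank ℝ X)) := toEuclidean
  set n0 := nu x0 with hn0
  have hn0x : n0 x0 = 1 := by
    have := Hom1.fderiv_self (hom1_norm (V := X)) hN hx00
    rw [hx0] at this
    exact this
  obtain ⟨η, hη, hgap⟩ := exists_gap hN hx0 hε
  set C := ‖(e : X →L[ℝ] EuclideanSpace ℝ (Fin (finrank ℝ X)))‖ with hC
  have hC0 : 0 ≤ C := norm_nonneg _
  set s : ℝ := (4 * C ^ 2 + 1) / (2 * η) with hsdef
  have hspos : 0 < s := by positivity
  let g : X → ℝ := fun y => ‖e y - e x0‖ ^ 2 + 2 * s * (n0 y - 1)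
  have hg : Continuous g := by fun_prop
  obtain ⟨y, hy, hmax⟩ := (isCompact_closedBall (0 : X) 1).exists_isMaxOn
    ⟨x0, by simpa using hx0.le⟩ hg.continuousOn
  have hy1 : ‖y‖ ≤ 1 := by simpa using hy
  -- the maximum inequality in linear form
  let Λ : X →L[ℝ] ℝ := (2 : ℝ) • (innerSL ℝ (e y - e x0)).comp
      (e : X →L[ℝ] EuclideanSpace ℝ (Fin (finrank ℝ X))) + (2 * s) • n0
  have hΛ : ∀ k : X, ‖k + y‖ ≤ 1 → Λ k + ‖e k‖ ^ 2 ≤ 0 := by
    intro k hk
    have h1 : g (k + y) ≤ g y := hmax (by simpa using hk)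
    simp only [g, map_add] at h1
    have e1 : e k + e y - e x0 = (e y - e x0) + e k := by abel
    rw [e1, @norm_add_sq_real] at h1
    simp only [Λ, _root_.add_apply, _root_.smul_apply, ContinuousLinearMap.comp_apply,
      innerSL_apply_apply, smul_eq_mul, ContinuousLinearEquiv.coe_coe]
    nlinarith
  -- the maximiser is close to the base point
  have hclose : ‖y - x0‖ < ε := by
    by_contra hcon
    push Not at hcon
    have h1 := hgap y hy1 hcon
    have h2 : g x0 ≤ g y := hmax (by simpa using hx0.le)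
    have h3 : g x0 = 0 := by simp [g, hn0x]
    rw [h3] at h2
    have h4 : ‖e y - e x0‖ ≤ C * ‖y - x0‖ := by
      rw [← map_sub]
      exact (e : X →L[ℝ] EuclideanSpace ℝ (Fin (finrank ℝ X))).le_opNorm _
    have h5 : ‖y - x0‖ ≤ 2 := by
      have := norm_sub_le y x0
      rw [hx0] at this
      linarith
    have h6 : ‖e y - e x0‖ ≤ C * 2 := h4.trans (by gcongr)
    have h7 : ‖e y - e x0‖ ^ 2 ≤ (C * 2) ^ 2 := by gcongr
    have h8 : 2 * s * η = 4 * C ^ 2 + 1 := by
      rw [hsdef]; field_simp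
    have h9 : 2 * s * (n0 y - 1) ≤ 2 * s * (-η) := by
      apply mul_le_mul_of_nonneg_left _ (by positivity)
      linarith
    simp only [g] at h2
    nlinarith
  -- the maximiser is on the sphere
  have hyn : ‖y‖ = 1 := by
    by_contra hcon
    have hlt : ‖y‖ < 1 := lt_of_le_of_ne hy1 hcon
    set t : ℝ := (1 - ‖y‖) / 2 with ht
    have htp : 0 < t := by
      rw [ht]; linarith
    have h1 := hΛ (t • x0) (by
      refine (norm_add_le _ _).trans ?_
      rw [norm_smul, hx0, Real.norm_eq_abs, abs_of_pos htp, ht]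
      linarith)
    have h2 := hΛ (-(t • x0)) (by
      refine (norm_add_le _ _).trans ?_
      rw [norm_neg, norm_smul, hx0, Real.norm_eq_abs, abs_of_pos htp, ht]
      linarith)
    rw [map_neg, map_neg, norm_neg] at h2
    have h3 : ‖e (t • x0)‖ ^ 2 ≤ 0 := by linarith
    have h4 : ‖e (t • x0)‖ = 0 := by
      have := sq_nonneg ‖e (t • x0)‖
      exact pow_eq_zero_iff (two_ne_zero) |>.mp (le_antisymm h3 this)
    have h5 : t • x0 = 0 := by simpa using h4
    rcases smul_eq_zero.mp h5 with h6 | h6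
    · exact htp.ne' h6
    · exact hx00 h6
  refine ⟨y, hyn, hclose, fun u hu hu0 => ?_⟩
  have hy0 : y ≠ 0 := by
    intro h0; rw [h0, norm_zero] at hyn; exact zero_ne_one hyn
  -- positivity of `Λ y`
  have hΛy : 0 < Λ y := by
    have h1 := hΛ ((-(1 / 2) : ℝ) • y) (by
      have e1 : (-(1 / 2) : ℝ) • y + y = (1 / 2 : ℝ) • y := by module
      rw [e1, norm_smul, hyn]
      norm_num)
    rw [map_smul, map_smul, norm_smul, mul_pow] at h1
    have h2 : 0 < ‖e y‖ := by
      simp only [norm_pos_iff]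
      simpa using hy0
    simp only [Real.norm_eq_abs, sq_abs, smul_eq_mul] at h1
    nlinarith [pow_pos h2 2]
  -- the curve on the sphere
  set h := hs y u u with hh
  have jρ := jet_norm_line hN hy0 u
  rw [hu, hyn] at jρ
  have jinv := jρ.comp (Φ := fun r : ℝ => r⁻¹) (contDiffAt_inv ℝ one_ne_zero)
  have jinv' : Jet2 (fun t : ℝ => (‖y + t • u‖)⁻¹) 1 0 (-h) := by
    refine jinv.congr (by simp) (by simp) ?_
    have : fderiv ℝ (fun r : ℝ => r⁻¹) 1 h = -h := by
      have h1 : HasDerivAt (fun r : ℝ => r⁻¹) (-((1 : ℝ) ^ 2)⁻¹) 1 := hasDerivAt_inv one_ne_zero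
      rw [h1.hasFDerivAt.fderiv]
      simp
    rw [this]
    simp
  have jy := jinv'.smul (Jet2.line y u)
  have jκ : Jet2 (fun t : ℝ => (‖y + t • u‖)⁻¹ • (y + t • u) - y) 0 u (-(h • y)) := by
    have := jy.sub (Jet2.const y)
    refine this.congr (by simp) (by simp) (by simp)
  have jΛ := jκ.clm Λ
  have je := jκ.clm (e : X →L[ℝ] EuclideanSpace ℝ (Fin (finrank ℝ X)))
  have je' : Jet2 (fun t : ℝ => e ((‖y + t • u‖)⁻¹ • (y + t • u) - y)) 0 (e u) (e (-(h • y))) := by
    refine je.congr (by simp) rfl rfl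
  have jq := je'.norm_sq_of_zero
  have jp := jΛ.add jq
  have hle : ∀ᶠ t : ℝ in 𝓝 0, Λ ((‖y + t • u‖)⁻¹ • (y + t • u) - y)
      + ‖e ((‖y + t • u‖)⁻¹ • (y + t • u) - y)‖ ^ 2 ≤ 0 := by
    refine Eventually.of_forall fun t => hΛ _ ?_
    have hne : y + t • u ≠ 0 := by
      intro h0
      have h1 := congrArg (fun L => nu y L) h0
      simp only [map_add, map_smul, hu, map_zero] at h1
      have h2 : nu y y = ‖y‖ := Hom1.fderiv_self (hom1_norm (V := X)) hN hy0
      rw [h2, hyn] at h1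
      simp at h1
    have e1 : (‖y + t • u‖)⁻¹ • (y + t • u) - y + y = (‖y + t • u‖)⁻¹ • (y + t • u) := by abel
    rw [e1]
    exact (unit_of_ne hne).le
  have jp' : Jet2 (fun t : ℝ => Λ ((‖y + t • u‖)⁻¹ • (y + t • u) - y)
      + ‖e ((‖y + t • u‖)⁻¹ • (y + t • u) - y)‖ ^ 2) 0 (Λ u + 0)
      (Λ (-(h • y)) + 2 * ‖e u‖ ^ 2) := by
    refine jp.congr (by simp) rfl rfl
  have hfin := (jet_nonpos jp' hle).2
  rw [map_neg, map_smul, smul_eq_mul] at hfin
  have heu : 0 < ‖e u‖ := by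
    simp only [norm_pos_iff]
    simpa using hu0
  have h2 : 0 < h * Λ y := by nlinarith [pow_pos heu 2]
  exact (pos_iff_pos_of_mul_pos h2).mpr hΛy

end Vale.Agent.Lib.P084_helper82
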