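import Mathlib
import Vale.Agent.Lib.P084_helper82.Curv
import Vale.Agent.Lib.P084_helper82.Density
import Vale.Agent.Lib.P084_helper82.Chart

/-!
Conclusion: the radial extension is linear.
-/

namespace Vale.Agent.Lib.P084_helper82

open Filter Topology Module

variable {X Y : Type*} [NormedAddCommGroup X] [NormedSpace ℝ X] [NormedAddCommGroup Y]
  [NormedSpace ℝ Y] {F : X → Y} {G : Y → X}

namespace Setup

/-- The second derivative of the radial extension vanishes at every point of the unit sphere. -/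
theorem Q_zero_unit [FiniteDimensional ℝ X] [StrictConvexSpace ℝ X] (S : Setup F G)
    (hdim : 3 ≤ finrank ℝ X) {x : X} (hx : ‖x‖ = 1) : fderiv ℝ (fderiv ℝ F) x = 0 := by
  have hx0 : x ≠ 0 := by
    intro h0; rw [h0, norm_zero] at hx; exact zero_ne_one hx
  by_contra hcon
  have hc := Hom1.snd_continuousAt S.cF hx0
  have hev := hc.eventually_ne hcon
  obtain ⟨ε, hε, hball⟩ := Metric.eventually_nhds_iff.mp hev
  obtain ⟨y, hy1, hy2, hy3⟩ := exists_pos_curv S.nX hx hε
  refine hball (y := y) (by rwa [dist_eq_norm]) ?_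
  exact S.Q_zero_of_pos hy1 hdim hy3

/-- The second derivative of the radial extension vanishes off the origin. -/
theorem Q_zero [FiniteDimensional ℝ X] [StrictConvexSpace ℝ X] (S : Setup F G)
    (hdim : 3 ≤ finrank ℝ X) {z : X} (hz : z ≠ 0) : fderiv ℝ (fderiv ℝ F) z = 0 := by
  have hn : 0 < ‖z‖ := norm_pos_iff.mpr hz
  have hu := unit_of_ne hz
  have hu0 : ‖z‖⁻¹ • z ≠ 0 := smul_ne_zero (inv_ne_zero hn.ne') hz
  have e : z = ‖z‖ • (‖z‖⁻¹ • z) := by
    rw [smul_smul, mul_inv_cancel₀ hn.ne', one_smul]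
  have h1 := Hom1.snd_smul S.radF.hom S.cF hu0 hn
  rw [← e, S.Q_zero_unit hdim hu, smul_zero] at h1
  exact h1

/-- The radial extension is a linear isometry. -/
theorem exists_linear [FiniteDimensional ℝ X] [StrictConvexSpace ℝ X] (S : Setup F G)
    (hdim : 3 ≤ finrank ℝ X) : ∃ T : X ≃ₗᵢ[ℝ] Y, ∀ z, F z = T z := by
  have hrk : 1 < Module.rank ℝ X := by
    rw [← Module.finrank_eq_rank ℝ X]
    have : 1 < finrank ℝ X := by omega
    exact_mod_cast this
  have hconn := isConnected_compl_singleton_of_one_lt_rank hrk (0 : X)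
  have hopen : IsOpen ({0}ᶜ : Set X) := isOpen_compl_singleton
  have hd : DifferentiableOn ℝ (fderiv ℝ F) {0}ᶜ := by
    intro z hz
    have hz0 : z ≠ 0 := by simpa using hz
    exact (Hom1.hasFD2 S.cF hz0).differentiableAt.differentiableWithinAt
  have hzero : Set.EqOn (fderiv ℝ (fderiv ℝ F)) 0 {0}ᶜ := by
    intro z hz
    have hz0 : z ≠ 0 := by simpa using hz
    simpa using S.Q_zero hdim hz0
  have hconst : ∀ z1 z2 : X, z1 ≠ 0 → z2 ≠ 0 → fderiv ℝ F z1 = fderiv ℝ F z2 := by
    intro z1 z2 h1 h2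
    exact hopen.is_const_of_fderiv_eq_zero hconn.isPreconnected hd hzero (by simpa using h1)
      (by simpa using h2)
  have hnt : Nontrivial X := Module.nontrivial_of_finrank_pos (R := ℝ) (by omega)
  obtain ⟨z0, hz0⟩ := exists_ne (0 : X)
  set L := fderiv ℝ F z0 with hL
  have hFL : ∀ z, F z = L z := by
    intro z
    by_cases hz : z = 0
    · rw [hz, S.radF.map_zero, map_zero]
    · have h1 := Hom1.fderiv_self S.radF.hom S.cF hz
      rw [hconst z z0 hz hz0] at h1
      exact h1.symm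
  let Li : X →ₗᵢ[ℝ] Y := ⟨(L : X →ₗ[ℝ] Y), fun z => by
    show ‖L z‖ = ‖z‖
    rw [← hFL, S.radF.norm_eq]⟩
  have hsurj : Function.Surjective Li := by
    intro y
    refine ⟨G y, ?_⟩
    show L (G y) = y
    rw [← hFL, S.fg]
  refine ⟨LinearIsometryEquiv.ofSurjective Li hsurj, fun z => ?_⟩
  show F z = L z
  exact hFL z

end Setup

/-- Main theorem, both norms being `C²`. -/
theorem exists_linear_of_smooth [FiniteDimensional ℝ X] [FiniteDimensional ℝ Y]
    [StrictConvexSpace ℝ X]
    (hX : ∀ z : X, z ≠ 0 → ContDiffAt ℝ 2 (fun y : X => ‖y‖) z)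
    (hY : ∀ z : Y, z ≠ 0 → ContDiffAt ℝ 2 (fun y : Y => ‖y‖) z)
    (hdim : 3 ≤ finrank ℝ X) {f : X → Y} {g : Y → X} (h : SphIso f g) :
    ∃ T : X ≃ₗᵢ[ℝ] Y, ∀ x, ‖x‖ = 1 → f x = T x := by
  have hoddf : ∀ x, ‖x‖ = 1 → f (-x) = - f x := fun x hx => h.odd_f hx
  have hoddg : ∀ y, ‖y‖ = 1 → g (-y) = - g y := fun y hy => h.odd_g hy
  have rF : RadIso (radial f) := radIso_of h hoddf
  have rG : RadIso (radial g) := radIso_of h.symm hoddg
  have gf : ∀ z, radial g (radial f z) = z := radial_left_inverse h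
  have fg : ∀ y, radial f (radial g y) = y := radial_left_inverse h.symm
  have S : Setup (radial f) (radial g) :=
    { radF := rF
      radG := rG
      gf := gf
      fg := fg
      nX := hX
      nY := hY
      cF := fun z hz => contDiffAt_of_radIso (by norm_num) hX hY rF rG fg hz
      cG := fun y hy => contDiffAt_of_radIso (by norm_num) hY hX rG rF gf hy }
  obtain ⟨T, hT⟩ := S.exists_linear hdim
  refine ⟨T, fun x hx => ?_⟩
  rw [← radial_unit f hx, hT]

end Vale.Agent.Lib.P084_helper82
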