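import Mathlib
import Vale.Agent.Lib.P084_helper82.Second

/-!
The target of a sphere isometry from a strictly convex smooth space: strict convexity and
differentiability of its norm.
-/

namespace Vale.Agent.Lib.P084_helper82

open Filter Topology Module Metric

section General

variable {V : Type*} [NormedAddCommGroup V] [NormedSpace ℝ V]

/-- Quantitative strict convexity in finite dimension. -/
lemma exists_uniform_convex [FiniteDimensional ℝ V] [StrictConvexSpace ℝ V] {ε : ℝ} (hε : 0 < ε) :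
    ∃ δ : ℝ, 0 < δ ∧ ∀ a b : V, ‖a‖ ≤ 1 → ‖b‖ ≤ 1 → ε ≤ ‖a - b‖ → ‖a + b‖ ≤ 2 - δ := by
  have : ProperSpace V := FiniteDimensional.proper_real V
  let K : Set (V × V) := (closedBall (0 : V) 1 ×ˢ closedBall (0 : V) 1) ∩ {p | ε ≤ ‖p.1 - p.2‖}
  have hK : IsCompact K := by
    refine ((isCompact_closedBall _ _).prod (isCompact_closedBall _ _)).inter_right ?_
    exact isClosed_le continuous_const (by fun_prop)
  by_cases hne : K.Nonempty
  · obtain ⟨p0, hp0, hmax⟩ := hK.exists_isMaxOn hne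
      (f := fun p : V × V => ‖p.1 + p.2‖) (by fun_prop)
    have h1 : ‖p0.1‖ ≤ 1 := by simpa using hp0.1.1
    have h2 : ‖p0.2‖ ≤ 1 := by simpa using hp0.1.2
    have h3 : ε ≤ ‖p0.1 - p0.2‖ := hp0.2
    have hlt : ‖p0.1 + p0.2‖ < 2 := by
      by_contra hcon
      push Not at hcon
      have h4 := norm_add_le p0.1 p0.2
      have h5 : ‖p0.1‖ = 1 := by linarith
      have h6 : ‖p0.2‖ = 1 := by linarith
      have h7 : SameRay ℝ p0.1 p0.2 := sameRay_iff_norm_add.mpr (by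
        apply le_antisymm h4
        rw [h5, h6]
        linarith)
      have h8 := h7.norm_smul_eq
      rw [h5, h6, one_smul, one_smul] at h8
      rw [h8, sub_self, norm_zero] at h3
      linarith
    refine ⟨2 - ‖p0.1 + p0.2‖, by linarith, fun a b ha hb hab => ?_⟩
    have hmem : (a, b) ∈ K := ⟨⟨by simpa using ha, by simpa using hb⟩, hab⟩
    have := hmax hmem
    simp only [Set.mem_ofPred_eq] at this
    linarith
  · refine ⟨1, one_pos, fun a b ha hb hab => ?_⟩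
    exfalso
    exact hne ⟨(a, b), ⟨by simpa using ha, by simpa using hb⟩, hab⟩

/-- A continuous derivative: the norm is `C¹` as soon as it is differentiable off the origin. -/
lemma nu_apply_le {p : V} (hd : DifferentiableAt ℝ (nrm : V → ℝ) p) {t : ℝ} (ht : 0 < t) (v : V) :
    nu p v ≤ t⁻¹ * (‖p + t • v‖ - ‖p‖) := by
  have h1 : nu p (p + t • v) ≤ ‖p + t • v‖ := by
    have h2 : ‖nu p‖ ≤ 1 := by
      have := norm_fderiv_le_of_lipschitz ℝ (f := (nrm : V → ℝ)) (x₀ := p) lipschitzWith_one_norm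
      simpa using this
    calc nu p (p + t • v) ≤ ‖nu p (p + t • v)‖ := Real.le_norm_self _
      _ ≤ ‖nu p‖ * ‖p + t • v‖ := ContinuousLinearMap.le_opNorm _ _
      _ ≤ 1 * ‖p + t • v‖ := by gcongr
      _ = ‖p + t • v‖ := one_mul _
  rw [map_add, map_smul, smul_eq_mul] at h1
  have h3 : nu p p = ‖p‖ := hd.fderiv_norm_self
  rw [h3] at h1
  rw [le_inv_mul_iff₀ ht]
  linarith

lemma nu_apply_upper (hd : ∀ z : V, z ≠ 0 → DifferentiableAt ℝ (nrm : V → ℝ) z) {p : V}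
    (hp : p ≠ 0) (v : V) {a : ℝ} (ha : nu p v < a) : ∀ᶠ p' in 𝓝 p, nu p' v < a := by
  have h1 : HasDerivAt (fun t : ℝ => ‖p + t • v‖) (nu p v) 0 := by
    have e1 : HasDerivAt (fun s : ℝ => p + s • v) v 0 := by
      simpa using ((hasDerivAt_id (0 : ℝ)).smul_const v).const_add p
    have e2 : HasFDerivAt (fun y : V => ‖y‖) (nu p) (p + (0 : ℝ) • v) := by
      simpa using (hd p hp).hasFDerivAt
    exact e2.comp_hasDerivAt (0 : ℝ) e1
  have h2 := h1.tendsto_slope_zero_right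
  have h3 : ∀ᶠ t : ℝ in 𝓝[>] 0, t⁻¹ • (‖p + (0 + t) • v‖ - ‖p + (0 : ℝ) • v‖) < a :=
    h2.eventually (gt_mem_nhds ha)
  obtain ⟨t, ht1, ht2⟩ := (h3.and self_mem_nhdsWithin).exists
  have ht2' : (0 : ℝ) < t := ht2
  simp only [zero_add, zero_smul, add_zero, smul_eq_mul] at ht1
  have hcont : Continuous (fun p' : V => t⁻¹ * (‖p' + t • v‖ - ‖p'‖)) := by fun_prop
  have h4 : ∀ᶠ p' in 𝓝 p, t⁻¹ * (‖p' + t • v‖ - ‖p'‖) < a :=
    hcont.continuousAt.eventually (gt_mem_nhds ht1)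
  filter_upwards [h4, eventually_ne_zero hp] with p' hp1 hp2
  exact lt_of_le_of_lt (nu_apply_le (hd p' hp2) ht2' v) hp1

/-- If the norm is differentiable off the origin in finite dimension, it is `C¹` there. -/
lemma norm_contDiffAt_one [FiniteDimensional ℝ V]
    (hd : ∀ z : V, z ≠ 0 → DifferentiableAt ℝ (nrm : V → ℝ) z) {p : V} (hp : p ≠ 0) :
    ContDiffAt ℝ 1 (nrm : V → ℝ) p := by
  rw [contDiffAt_one_iff]
  refine ⟨fderiv ℝ nrm, {0}ᶜ, isOpen_compl_singleton.mem_nhds hp, ?_, ?_⟩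
  · rw [continuousOn_clm_apply]
    intro v p1 hp1
    have hp1' : p1 ≠ 0 := by simpa using hp1
    apply ContinuousAt.continuousWithinAt
    refine tendsto_order.2 ⟨fun a ha => ?_, fun a ha => ?_⟩
    · have h1 : nu p1 (-v) < -a := by
        rw [map_neg]; linarith
      filter_upwards [nu_apply_upper hd hp1' (-v) h1] with p' hp'
      rw [map_neg] at hp'
      linarith
    · exact nu_apply_upper hd hp1' v ha
  · intro y hy
    have hy' : y ≠ 0 := by simpa using hy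
    exact (hd y hy').hasFDerivAt

end General

section Main

variable {X Y : Type*} [NormedAddCommGroup X] [NormedSpace ℝ X] [NormedAddCommGroup Y]
  [NormedSpace ℝ Y] {F : X → Y} {G : Y → X}

/-- The target of a sphere isometry is strictly convex. -/
lemma strictConvex_target [StrictConvexSpace ℝ X] (hG : RadIso G) (hfg : ∀ y, F (G y) = y) :
    StrictConvexSpace ℝ Y := by
  refine StrictConvexSpace.of_pairwise_sphere_norm_ne_two fun a ha b hb hab hnorm => ?_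
  have ha1 : ‖a‖ = 1 := by simpa using ha
  have hb1 : ‖b‖ = 1 := by simpa using hb
  have h1 := hG.iso_add a b
  rw [ha1, hb1, one_smul, one_smul, one_smul, one_smul, hnorm] at h1
  have hGa : ‖G a‖ = 1 := by rw [hG.norm_eq, ha1]
  have hGb : ‖G b‖ = 1 := by rw [hG.norm_eq, hb1]
  have h2 : SameRay ℝ (G a) (G b) := sameRay_iff_norm_add.mpr (by rw [h1, hGa, hGb]; norm_num)
  have h3 := h2.norm_smul_eq
  rw [hGa, hGb, one_smul, one_smul] at h3
  apply hab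
  have := congrArg F h3
  rw [hfg, hfg] at this
  exact this.symm

/-- Reflection in a differentiability point of the sphere, to first order. -/
lemma reflect_point (hN : ∀ z : X, z ≠ 0 → DifferentiableAt ℝ (nrm : X → ℝ) z) {x : X}
    (hx1 : ‖x‖ = 1) {ε1 : ℝ} (hε1p : 0 < ε1) :
    ∃ δ1 : ℝ, 0 < δ1 ∧ ∀ z : X, ‖z‖ = 1 → ‖z - x‖ < δ1 → ‖z - x‖ < 1 / 2 →
      ∃ z' : X, ‖z'‖ = 1 ∧ ‖x - z'‖ ≤ ‖z - x‖ + 2 * (ε1 * ‖z - x‖) ∧
        ‖z - x‖ * 2 - 2 * (ε1 * ‖z - x‖) ≤ ‖z - z'‖ := by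
  have hx0 : x ≠ 0 := by
    intro h0; rw [h0, norm_zero] at hx1; exact zero_ne_one hx1
  have hd := (hN x hx0).hasFDerivAt
  rw [hasFDerivAt_iff_isLittleO_nhds_zero, Asymptotics.isLittleO_iff] at hd
  obtain ⟨δ1, hδ1, hball⟩ := Metric.eventually_nhds_iff.mp (hd hε1p)
  refine ⟨δ1, hδ1, fun z hz1 hz2 hz3 => ?_⟩
  set p := z - x with hp
  set d := ‖p‖ with hpd
  have e1 := hball (y := p) (by simpa [dist_eq_norm] using hz2)
  have e2 := hball (y := -p) (by simpa [dist_eq_norm] using hz2)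
  simp only [Real.norm_eq_abs, norm_neg, map_neg] at e1 e2
  have hxp : x + p = z := by rw [hp]; abel
  have hx1' : nrm x = 1 := hx1
  have hxm : nrm (x + -p) = ‖x - p‖ := by rw [sub_eq_add_neg]
  have hz1' : nrm (x + p) = 1 := by rw [hxp]; exact hz1
  rw [hxm, hx1'] at e2
  rw [hz1', hx1'] at e1
  set m := ‖x - p‖ with hm
  have e1' := abs_le.mp e1
  have e2' := abs_le.mp e2
  have hm1 : |m - 1| ≤ 2 * (ε1 * d) := by
    rw [abs_le]
    constructor <;> linarith [e1'.1, e1'.2, e2'.1, e2'.2]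
  have hmpos : 0 < m := by
    have h1 : 1 - d ≤ m := by
      have h2 := norm_sub_norm_le x p
      rw [hx1] at h2
      exact h2
    linarith
  have hxp0 : x - p ≠ 0 := by
    intro h0
    rw [hm, h0, norm_zero] at hmpos
    exact lt_irrefl _ hmpos
  refine ⟨m⁻¹ • (x - p), unit_of_ne hxp0, ?_, ?_⟩
  all_goals
    have hclose : ‖m⁻¹ • (x - p) - (x - p)‖ ≤ 2 * (ε1 * d) := by
      have e3 : m⁻¹ • (x - p) - (x - p) = (m⁻¹ - 1) • (x - p) := by
        rw [sub_smul, one_smul]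
      rw [e3, norm_smul, ← hm, Real.norm_eq_abs]
      have e4 : |m⁻¹ - 1| * m = |1 - m| := by
        have e5 : m⁻¹ - 1 = (1 - m) * m⁻¹ := by field_simp
        rw [e5, abs_mul, abs_of_pos (inv_pos.mpr hmpos), mul_assoc, inv_mul_cancel₀ hmpos.ne',
          mul_one]
      rw [e4, abs_sub_comm]
      exact hm1
  · have e3 : x - m⁻¹ • (x - p) = p - (m⁻¹ • (x - p) - (x - p)) := by abel
    rw [e3]
    refine (norm_sub_le _ _).trans ?_
    linarith
  · have e4 : z - m⁻¹ • (x - p) = (2 : ℝ) • p - (m⁻¹ • (x - p) - (x - p)) := by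
      rw [two_smul, hp]; abel
    rw [e4]
    have e5 := norm_sub_norm_le ((2 : ℝ) • p) (m⁻¹ • (x - p) - (x - p))
    rw [norm_smul] at e5
    simp only [Real.norm_eq_abs, abs_two] at e5
    linarith

/-- Almost midpoints in a uniformly convex norm. -/
lemma close_of_almost_midpoint {δU ε ε1 d : ℝ} {A B : Y}
    (hU : ∀ a b : Y, ‖a‖ ≤ 1 → ‖b‖ ≤ 1 → ε / 2 ≤ ‖a - b‖ → ‖a + b‖ ≤ 2 - δU) (hε : 0 < ε)
    (hδU : 0 < δU) (hε1p : 0 < ε1) (hε1a : ε1 ≤ 1 / 2) (hε1b : ε1 ≤ δU / 7) (hdpos : 0 < d)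
    (hAn : ‖A‖ = d) (hBn : ‖B‖ ≤ d + 2 * (ε1 * d)) (hABn : d * 2 - 2 * (ε1 * d) ≤ ‖A + B‖) :
    ‖A - B‖ < ε * d := by
  by_contra hcon
  push Not at hcon
  have hMpos : 0 < d * (1 + 2 * ε1) := by positivity
  have hMinv : 0 < (d * (1 + 2 * ε1))⁻¹ := inv_pos.mpr hMpos
  have hM2 : d * (1 + 2 * ε1) ≤ 2 * d := by nlinarith
  have h1 : ‖(d * (1 + 2 * ε1))⁻¹ • A‖ ≤ 1 := by
    rw [norm_smul, Real.norm_eq_abs, abs_of_pos hMinv, hAn, inv_mul_le_iff₀ hMpos, mul_one]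
    nlinarith
  have h2 : ‖(d * (1 + 2 * ε1))⁻¹ • B‖ ≤ 1 := by
    rw [norm_smul, Real.norm_eq_abs, abs_of_pos hMinv, inv_mul_le_iff₀ hMpos, mul_one]
    linarith
  have h3 : ε / 2 ≤ ‖(d * (1 + 2 * ε1))⁻¹ • A - (d * (1 + 2 * ε1))⁻¹ • B‖ := by
    rw [← smul_sub, norm_smul, Real.norm_eq_abs, abs_of_pos hMinv, le_inv_mul_iff₀ hMpos]
    have : d * (1 + 2 * ε1) * (ε / 2) ≤ 2 * d * (ε / 2) := by gcongr
    linarith
  have h4 := hU _ _ h1 h2 h3
  rw [← smul_add, norm_smul, Real.norm_eq_abs, abs_of_pos hMinv, inv_mul_le_iff₀ hMpos] at h4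
  have h5 : d * (1 + 2 * ε1) * (2 - δU) < d * 2 - 2 * (ε1 * d) := by
    have h6 : d * (1 + 2 * ε1) * (2 - δU) = d * ((1 + 2 * ε1) * (2 - δU)) := by ring
    have h7 : d * 2 - 2 * (ε1 * d) = d * (2 - 2 * ε1) := by ring
    rw [h6, h7]
    apply mul_lt_mul_of_pos_left _ hdpos
    nlinarith
  linarith

/-- The key tangency estimate for a norming functional of the target. -/
lemma norming_tangent [FiniteDimensional ℝ Y] [StrictConvexSpace ℝ Y]
    (hN : ∀ z : X, z ≠ 0 → DifferentiableAt ℝ (nrm : X → ℝ) z) (hF : RadIso F) (hG : RadIso G)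
    (hfg : ∀ y, F (G y) = y) {a : Y} (ha : ‖a‖ = 1) {φ : Y →L[ℝ] ℝ} (hφ1 : ‖φ‖ ≤ 1)
    (hφa : φ a = 1) {ε : ℝ} (hε : 0 < ε) :
    ∃ δ : ℝ, 0 < δ ∧ ∀ y : Y, ‖y‖ = 1 → ‖y - a‖ < δ → 1 - ε * ‖y - a‖ ≤ φ y := by
  have hφle : ∀ w : Y, φ w ≤ ‖w‖ := by
    intro w
    calc φ w ≤ ‖φ w‖ := Real.le_norm_self _
      _ ≤ ‖φ‖ * ‖w‖ := ContinuousLinearMap.le_opNorm _ _
      _ ≤ 1 * ‖w‖ := by gcongr
      _ = ‖w‖ := one_mul _
  have hx1 : ‖G a‖ = 1 := by rw [hG.norm_eq, ha]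
  have hFx : F (G a) = a := hfg a
  have hiso : ∀ u v : X, ‖u‖ = 1 → ‖v‖ = 1 → ‖F u - F v‖ = ‖u - v‖ := by
    intro u v hu hv
    have := hF.iso u v
    rwa [hu, hv, one_smul, one_smul, one_smul, one_smul] at this
  obtain ⟨δU, hδU, hU⟩ := exists_uniform_convex (V := Y) (ε := ε / 2) (by positivity)
  have hε1p : 0 < min (1 / 2) (δU / 7) := lt_min (by norm_num) (by positivity)
  have hε1a : min (1 / 2) (δU / 7) ≤ 1 / 2 := min_le_left _ _
  have hε1b : min (1 / 2) (δU / 7) ≤ δU / 7 := min_le_right _ _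
  generalize min (1 / 2) (δU / 7) = ε1 at hε1p hε1a hε1b
  obtain ⟨δ1, hδ1, hrefl⟩ := reflect_point hN hx1 hε1p
  refine ⟨min δ1 (1 / 2), lt_min hδ1 (by norm_num), fun y hy hya => ?_⟩
  have hya1 : ‖y - a‖ < δ1 := lt_of_lt_of_le hya (min_le_left _ _)
  have hya2 : ‖y - a‖ < 1 / 2 := lt_of_lt_of_le hya (min_le_right _ _)
  by_cases hd0 : ‖y - a‖ = 0
  · have : y = a := by
      have := norm_eq_zero.mp hd0
      exact sub_eq_zero.mp this
    rw [this, hφa]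
    simp
  have hdpos : 0 < ‖y - a‖ := lt_of_le_of_ne (norm_nonneg _) (Ne.symm hd0)
  have hz1 : ‖G y‖ = 1 := by rw [hG.norm_eq, hy]
  have hFz : F (G y) = y := hfg y
  have hzx : ‖G y - G a‖ = ‖y - a‖ := by
    rw [← hiso _ _ hz1 hx1, hFz, hFx]
  obtain ⟨z', hz'1, hz'2, hz'3⟩ := hrefl (G y) hz1 (by rwa [hzx]) (by rwa [hzx])
  rw [hzx] at hz'2 hz'3
  have hy'1 : ‖F z'‖ = 1 := by rw [hF.norm_eq, hz'1]
  have hBn : ‖a - F z'‖ ≤ ‖y - a‖ + 2 * (ε1 * ‖y - a‖) := by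
    nth_rewrite 1 [← hFx]
    rw [hiso _ _ hx1 hz'1]
    exact hz'2
  have hABn : ‖y - a‖ * 2 - 2 * (ε1 * ‖y - a‖) ≤ ‖(y - a) + (a - F z')‖ := by
    have e3 : (y - a) + (a - F z') = y - F z' := by abel
    have e4 : ‖y - F z'‖ = ‖G y - z'‖ := by
      have := hiso _ _ hz1 hz'1
      rwa [hFz] at this
    rw [e3, e4]
    exact hz'3
  have hAB := close_of_almost_midpoint hU hε hδU hε1p hε1a hε1b hdpos rfl hBn hABn
  have hfin : φ (a - F z') - φ (y - a) ≤ ε * ‖y - a‖ := by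
    have h1 : φ ((a - F z') - (y - a)) ≤ ‖(a - F z') - (y - a)‖ := hφle _
    rw [map_sub, norm_sub_rev] at h1
    linarith
  rw [map_sub, map_sub, hφa] at hfin
  have hle : φ (F z') ≤ 1 := by
    have := hφle (F z')
    rwa [hy'1] at this
  linarith

/-- Every norming functional of the target is the derivative of the norm. -/
lemma hasFDerivAt_of_norming [FiniteDimensional ℝ Y] [StrictConvexSpace ℝ Y]
    (hN : ∀ z : X, z ≠ 0 → DifferentiableAt ℝ (nrm : X → ℝ) z) (hF : RadIso F) (hG : RadIso G)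
    (hfg : ∀ y, F (G y) = y) {a : Y} (ha : ‖a‖ = 1) {φ : Y →L[ℝ] ℝ} (hφ1 : ‖φ‖ ≤ 1)
    (hφa : φ a = 1) : HasFDerivAt (nrm : Y → ℝ) φ a := by
  have hφle : ∀ w : Y, φ w ≤ ‖w‖ := by
    intro w
    calc φ w ≤ ‖φ w‖ := Real.le_norm_self _
      _ ≤ ‖φ‖ * ‖w‖ := ContinuousLinearMap.le_opNorm _ _
      _ ≤ 1 * ‖w‖ := by gcongr
      _ = ‖w‖ := one_mul _
  rw [hasFDerivAt_iff_isLittleO_nhds_zero, Asymptotics.isLittleO_iff]
  intro ε hε
  obtain ⟨δ, hδ, hkey⟩ := norming_tangent hN hF hG hfg ha hφ1 hφa (ε := ε / 8) (by positivity)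
  have hsmall : ∀ᶠ v : Y in 𝓝 0, ‖v‖ < min (1 / 2) (δ / 4) := by
    have : Tendsto (fun v : Y => ‖v‖) (𝓝 0) (𝓝 0) := by
      simpa using (continuous_norm (E := Y)).tendsto 0
    exact this.eventually (gt_mem_nhds (lt_min (by norm_num) (by positivity)))
  filter_upwards [hsmall] with v hv
  have hv1 : ‖v‖ < 1 / 2 := lt_of_lt_of_le hv (min_le_left _ _)
  have hv2 : ‖v‖ < δ / 4 := lt_of_lt_of_le hv (min_le_right _ _)
  set q := a + v with hq
  have hqn : |‖q‖ - 1| ≤ ‖v‖ := by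
    have := abs_norm_sub_norm_le q a
    rw [ha] at this
    have e : q - a = v := by rw [hq]; abel
    rwa [e] at this
  have hqabs := abs_le.mp hqn
  have hq0 : q ≠ 0 := by
    intro h0
    rw [h0, norm_zero] at hqabs
    linarith [hqabs.1]
  have hqpos : 0 < ‖q‖ := norm_pos_iff.mpr hq0
  have hlow : 1 + φ v ≤ ‖q‖ := by
    have := hφle q
    rw [hq, map_add, hφa] at this
    exact this
  set y := ‖q‖⁻¹ • q with hy
  have hy1 : ‖y‖ = 1 := unit_of_ne hq0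
  have hya : ‖y - a‖ ≤ 4 * ‖v‖ := by
    have e1 : y - a = ‖q‖⁻¹ • (q - ‖q‖ • a) := by
      rw [hy, smul_sub, smul_smul, inv_mul_cancel₀ hqpos.ne', one_smul]
    have e2 : q - ‖q‖ • a = v + (1 - ‖q‖) • a := by
      rw [hq, sub_smul, one_smul]; abel
    rw [e1, e2, norm_smul, Real.norm_eq_abs, abs_of_pos (inv_pos.mpr hqpos), inv_mul_le_iff₀ hqpos]
    have e3 : ‖v + (1 - ‖q‖) • a‖ ≤ ‖v‖ + |‖q‖ - 1| := by
      refine (norm_add_le _ _).trans ?_
      rw [norm_smul, ha, mul_one, Real.norm_eq_abs, abs_sub_comm]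
    have e4 : ‖v‖ + |‖q‖ - 1| ≤ 2 * ‖v‖ := by linarith
    have e5 : (1 / 2 : ℝ) ≤ ‖q‖ := by linarith [hqabs.1]
    nlinarith [norm_nonneg v]
  have hkey2 := hkey y hy1 (lt_of_le_of_lt hya (by linarith))
  have hφq : φ q = ‖q‖ * φ y := by
    rw [hy, map_smul, smul_eq_mul, ← mul_assoc, mul_inv_cancel₀ hqpos.ne', one_mul]
  have hφqv : φ q = 1 + φ v := by
    rw [hq, map_add, hφa]
  have hup : ‖q‖ ≤ 1 + φ v + ε * ‖v‖ := by
    have h1 : ‖q‖ * (1 - ε / 8 * ‖y - a‖) ≤ ‖q‖ * φ y := mul_le_mul_of_nonneg_left hkey2 hqpos.le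
    rw [← hφq, hφqv] at h1
    have h2 : ‖q‖ ≤ 2 := by linarith [hqabs.2]
    have h3 : ‖q‖ * (ε / 8 * ‖y - a‖) ≤ 2 * (ε / 8 * (4 * ‖v‖)) := by
      apply mul_le_mul h2 _ (by positivity) (by norm_num)
      gcongr
    nlinarith
  simp only [Real.norm_eq_abs]
  have hna : nrm a = 1 := ha
  have hn : nrm (a + v) = ‖q‖ := rfl
  rw [hna, hn, abs_le]
  constructor <;> linarith

/-- The norm of the target is differentiable off the origin. -/
lemma differentiable_target [FiniteDimensional ℝ Y] [StrictConvexSpace ℝ Y]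
    (hN : ∀ z : X, z ≠ 0 → DifferentiableAt ℝ (nrm : X → ℝ) z) (hF : RadIso F) (hG : RadIso G)
    (hfg : ∀ y, F (G y) = y) {p : Y} (hp : p ≠ 0) : DifferentiableAt ℝ (nrm : Y → ℝ) p := by
  have hu := unit_of_ne hp
  have hn : ‖p‖ ≠ 0 := norm_ne_zero_iff.mpr hp
  obtain ⟨φ, hφ1, hφa⟩ := exists_dual_vector'' ℝ (‖p‖⁻¹ • p)
  rw [hu] at hφa
  have h1 : HasFDerivAt (nrm : Y → ℝ) φ (‖p‖⁻¹ • p) :=
    hasFDerivAt_of_norming hN hF hG hfg hu hφ1 (by simpa using hφa)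
  have h2 := (differentiableAt_norm_smul (x := p) (inv_ne_zero hn)).mpr
  exact h2 h1.differentiableAt |> fun h => h

end Main

end Vale.Agent.Lib.P084_helper82
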