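import Mathlib
import Vale.Agent.Lib.P084_helper82.YReg1
import Vale.Agent.Lib.P084_helper82.Chart

/-!
The norm of the target is `C²`.
-/

namespace Vale.Agent.Lib.P084_helper82

open Filter Topology Module Metric

variable {X Y : Type*} [NormedAddCommGroup X] [NormedSpace ℝ X] [NormedAddCommGroup Y]
  [NormedSpace ℝ Y] {F : X → Y} {G : Y → X}

/-- Hypotheses at first order. -/
structure Setup1 (F : X → Y) (G : Y → X) : Prop where
  radF : RadIso F
  radG : RadIso G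
  gf : ∀ z, G (F z) = z
  fg : ∀ y, F (G y) = y
  nX : ∀ z : X, z ≠ 0 → ContDiffAt ℝ 2 (nrm : X → ℝ) z
  nY : ∀ y : Y, y ≠ 0 → ContDiffAt ℝ 1 (nrm : Y → ℝ) y
  cF : ∀ z : X, z ≠ 0 → ContDiffAt ℝ 1 F z
  cG : ∀ y : Y, y ≠ 0 → ContDiffAt ℝ 1 G y

namespace Setup1

variable (S : Setup1 F G)

include S

lemma hasFD_F {z : X} (hz : z ≠ 0) : HasFDerivAt F (fderiv ℝ F z) z :=
  ((S.cF z hz).differentiableAt (by simp)).hasFDerivAt

lemma hasFD_G {y : Y} (hy : y ≠ 0) : HasFDerivAt G (fderiv ℝ G y) y :=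
  ((S.cG y hy).differentiableAt (by simp)).hasFDerivAt

lemma hasFD_nX {z : X} (hz : z ≠ 0) : HasFDerivAt (nrm : X → ℝ) (nu z) z :=
  ((S.nX z hz).differentiableAt (by simp)).hasFDerivAt

lemma hasFD_nY {y : Y} (hy : y ≠ 0) : HasFDerivAt (nrm : Y → ℝ) (nu y) y :=
  ((S.nY y hy).differentiableAt (by simp)).hasFDerivAt

lemma B_left {z : X} (hz : z ≠ 0) (u : X) : fderiv ℝ G (F z) (fderiv ℝ F z u) = u := by
  have hFz := S.radF.ne_zero hz
  have h3 := (S.hasFD_G hFz).comp z (S.hasFD_F hz)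
  have h4 : G ∘ F = id := by
    funext y; exact S.gf y
  rw [h4] at h3
  have h5 := h3.unique (hasFDerivAt_id z)
  exact congrArg (fun L : X →L[ℝ] X => L u) h5

lemma B_right {z : X} (hz : z ≠ 0) (v : Y) : fderiv ℝ F z (fderiv ℝ G (F z) v) = v := by
  have hFz := S.radF.ne_zero hz
  have hGFz : G (F z) = z := S.gf z
  have h1 := S.hasFD_F hz
  rw [← hGFz] at h1
  have h3 := h1.comp (F z) (S.hasFD_G hFz)
  have h4 : F ∘ G = id := by
    funext y; exact S.fg y
  rw [h4] at h3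
  have h5 := h3.unique (hasFDerivAt_id (F z))
  have h6 := congrArg (fun L : Y →L[ℝ] Y => L v) h5
  simp only [ContinuousLinearMap.comp_apply, ContinuousLinearMap.id_apply, hGFz] at h6
  exact h6

lemma B_self {z : X} (hz : z ≠ 0) : fderiv ℝ F z z = F z := by
  have h1 := S.hasFD_F hz
  have h2 : HasDerivAt (fun s : ℝ => s • z) z 1 := by
    simpa using (hasDerivAt_id (1 : ℝ)).smul_const z
  have h1' : HasFDerivAt F (fderiv ℝ F z) ((1 : ℝ) • z) := by simpa using h1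
  have h3 := h1'.comp_hasDerivAt (1 : ℝ) h2
  have h4 : HasDerivAt (fun s : ℝ => s • F z) (F z) 1 := by
    simpa using (hasDerivAt_id (1 : ℝ)).smul_const (F z)
  have h5 : (F ∘ fun s : ℝ => s • z) =ᶠ[𝓝 1] fun s : ℝ => s • F z := by
    filter_upwards [lt_mem_nhds (zero_lt_one : (0 : ℝ) < 1)] with s hs
    exact S.radF.hom s z hs
  exact h3.unique (h4.congr_of_eventuallyEq h5)

lemma C1 {z : X} (hz : z ≠ 0) (u : X) : nu (F z) (fderiv ℝ F z u) = nu z u := by
  have hFz := S.radF.ne_zero hz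
  have h1 := (S.hasFD_nY hFz).comp z (S.hasFD_F hz)
  have h2 : (nrm : Y → ℝ) ∘ F = nrm := by
    funext y
    exact S.radF.norm_eq y
  rw [h2] at h1
  have h3 := h1.unique (S.hasFD_nX hz)
  exact congrArg (fun L : X →L[ℝ] ℝ => L u) h3

/-- The identity obtained by differentiating the isometry identity in a tangent direction. -/
lemma identity_diff {z v u : X} (hz : ‖z‖ = 1) (hu : nu z u = 0) (hv : v ≠ 0)
    (hΞ : ‖v‖ • F z + F v ≠ 0) :
    nu (‖v‖ • F z + F v) (fderiv ℝ F z u) = nu (‖v‖ • z + v) u := by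
  have hz0 : z ≠ 0 := by
    intro h0; rw [h0, norm_zero] at hz; exact zero_ne_one hz
  have hvn : 0 < ‖v‖ := norm_pos_iff.mpr hv
  have hnorm : ‖‖v‖ • F z + F v‖ = ‖‖v‖ • z + v‖ := by
    have := S.radF.iso_add z v
    rwa [hz, one_smul, one_smul] at this
  have hξ : ‖v‖ • z + v ≠ 0 := by
    intro h0
    rw [h0, norm_zero] at hnorm
    exact hΞ (norm_eq_zero.mp hnorm)
  have hline : HasDerivAt (fun t : ℝ => z + t • u) u 0 := by
    simpa using ((hasDerivAt_id (0 : ℝ)).smul_const u).const_add z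
  have hρ : HasDerivAt (fun t : ℝ => ‖z + t • u‖) 0 0 := by
    have h1 : HasFDerivAt (nrm : X → ℝ) (nu z) (z + (0 : ℝ) • u) := by
      simpa using S.hasFD_nX hz0
    have h2 := h1.comp_hasDerivAt (0 : ℝ) hline
    rw [hu] at h2
    exact h2
  have hFl : HasDerivAt (fun t : ℝ => F (z + t • u)) (fderiv ℝ F z u) 0 := by
    have h1 : HasFDerivAt F (fderiv ℝ F z) (z + (0 : ℝ) • u) := by
      simpa using S.hasFD_F hz0
    exact h1.comp_hasDerivAt (0 : ℝ) hline
  have ha : HasDerivAt (fun t : ℝ => ‖v‖ • F (z + t • u) + ‖z + t • u‖ • F v)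
      (‖v‖ • fderiv ℝ F z u) 0 := by
    have h1 := (hFl.const_smul ‖v‖).fun_add (hρ.smul_const (F v))
    simpa using h1
  have hb : HasDerivAt (fun t : ℝ => ‖v‖ • (z + t • u) + ‖z + t • u‖ • v) (‖v‖ • u) 0 := by
    have h1 := (hline.const_smul ‖v‖).fun_add (hρ.smul_const v)
    simpa using h1
  have e1 : HasFDerivAt (nrm : Y → ℝ) (nu (‖v‖ • F z + F v))
      ((fun t : ℝ => ‖v‖ • F (z + t • u) + ‖z + t • u‖ • F v) 0) := by
    have h1 := S.hasFD_nY hΞ
    simpa [hz] using h1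
  have e2 : HasFDerivAt (nrm : X → ℝ) (nu (‖v‖ • z + v))
      ((fun t : ℝ => ‖v‖ • (z + t • u) + ‖z + t • u‖ • v) 0) := by
    have h1 := S.hasFD_nX hξ
    simpa [hz] using h1
  have h1 := e1.comp_hasDerivAt (0 : ℝ) ha
  have h2 := e2.comp_hasDerivAt (0 : ℝ) hb
  have h3 : ((nrm : Y → ℝ) ∘ fun t : ℝ => ‖v‖ • F (z + t • u) + ‖z + t • u‖ • F v) =
      ((nrm : X → ℝ) ∘ fun t : ℝ => ‖v‖ • (z + t • u) + ‖z + t • u‖ • v) := by
    funext t
    exact S.radF.iso_add (z + t • u) v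
  rw [h3] at h1
  have h4 := h1.unique h2
  rw [map_smul, map_smul, smul_eq_mul, smul_eq_mul] at h4
  exact mul_left_cancel₀ hvn.ne' h4

/-- The norm of the target is `C²` at a point of the form `2 • F z`, `z` a unit vector. -/
theorem norm_C2_at [FiniteDimensional ℝ X] [FiniteDimensional ℝ Y] {z : X} (hz : ‖z‖ = 1) :
    ContDiffAt ℝ 2 (nrm : Y → ℝ) (‖z‖ • F z + F z) := by
  have : CompleteSpace X := FiniteDimensional.complete ℝ X
  have hz0 : z ≠ 0 := by
    intro h0; rw [h0, norm_zero] at hz; exact zero_ne_one hz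
  have hFz : F z ≠ 0 := S.radF.ne_zero hz0
  have hνz : nu z z = 1 := by
    have := ((S.nX z hz0).differentiableAt (by simp)).fderiv_norm_self
    rw [hz] at this
    exact this
  have hFn : ‖F z‖ = 1 := by rw [S.radF.norm_eq, hz]
  have hl : nu (F z) (F z) = 1 := by
    have := ((S.nY _ hFz).differentiableAt (by simp)).fderiv_norm_self
    rw [hFn] at this
    exact this
  set B := fderiv ℝ F z with hB
  set B' := fderiv ℝ G (F z) with hB'
  have hBl : ∀ u, B' (B u) = u := S.B_left hz0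
  have hBr : ∀ y, B (B' y) = y := S.B_right hz0
  have hBz : B z = F z := S.B_self hz0
  have hB'F : B' (F z) = z := by
    rw [← hBz]; exact hBl z
  -- the derivative of the chart
  let Ξ : X → Y := fun v => ‖v‖ • F z + F v
  let ξ : X → X := fun v => ‖v‖ • z + v
  let Ξ' : X →L[ℝ] Y := (nu z).smulRight (F z) + B
  let Ξi : Y →L[ℝ] X := B' - (((1 / 2 : ℝ) • (nu z).comp B').smulRight z)
  have hleft : Function.LeftInverse Ξi Ξ' := by
    intro u
    have e1 : Ξ' u = nu z u • F z + B u := rfl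
    have e2 : ∀ y, Ξi y = B' y - ((1 / 2 : ℝ) * nu z (B' y)) • z := fun y => by
      simp [Ξi]
    rw [e2, e1, map_add, map_smul, hB'F, hBl, map_add, map_smul, hνz]
    simp only [smul_eq_mul, mul_one]
    module
  have hright : Function.RightInverse Ξi Ξ' := by
    intro y
    have e1 : ∀ u, Ξ' u = nu z u • F z + B u := fun u => rfl
    have e2 : ∀ y, Ξi y = B' y - ((1 / 2 : ℝ) * nu z (B' y)) • z := fun y => by
      simp [Ξi]
    rw [e2, e1, map_sub, map_sub, map_smul, map_smul, hνz, hBz, hBr]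
    simp only [smul_eq_mul, mul_one]
    module
  let eΞ : X ≃L[ℝ] Y := ContinuousLinearEquiv.equivOfInverse Ξ' Ξi hleft hright
  have hΞc : ContDiffAt ℝ 1 Ξ z :=
    (((S.nX z hz0).of_le (by norm_num)).smul contDiffAt_const).add (S.cF z hz0)
  have hΞd : HasFDerivAt Ξ (eΞ : X →L[ℝ] Y) z := by
    have h1 : HasFDerivAt Ξ Ξ' z := ((S.hasFD_nX hz0).smul_const (F z)).add (S.hasFD_F hz0)
    exact h1
  have hn1 : (1 : WithTop ℕ∞) ≠ 0 := one_ne_zero
  let Inv : Y → X := hΞc.localInverse hΞd hn1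
  have hInv : ContDiffAt ℝ 1 Inv (Ξ z) := hΞc.to_localInverse hΞd hn1
  have hInvz : Inv (Ξ z) = z := hΞc.localInverse_apply_image hΞd hn1
  have hright' : ∀ᶠ p in 𝓝 (Ξ z), Ξ (Inv p) = p :=
    (hΞc.hasStrictFDerivAt' hΞd hn1).eventually_right_inverse
  -- the formula for the derivative of the norm
  set l : Y →L[ℝ] ℝ := nu (F z) with hldef
  let π : Y →L[ℝ] X := B'.comp (ContinuousLinearMap.id ℝ Y - l.smulRight (F z))
  have hπ : ∀ y, y = B (π y) + l y • F z := by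
    intro y
    have : π y = B' (y - l y • F z) := rfl
    rw [this, hBr]
    abel
  have hνπ : ∀ y, nu z (π y) = 0 := by
    intro y
    have h1 := S.C1 hz0 (π y)
    rw [← h1, ← hB, ← hldef]
    have : π y = B' (y - l y • F z) := rfl
    rw [this, hBr, map_sub, map_smul, hl]
    simp
  let η : Y → X := fun p => ξ (Inv p)
  have hξc : ContDiffAt ℝ 1 ξ z :=
    (((S.nX z hz0).of_le (by norm_num)).smul contDiffAt_const).add contDiffAt_id
  have hη : ContDiffAt ℝ 1 η (Ξ z) := by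
    show ContDiffAt ℝ 1 (ξ ∘ Inv) (Ξ z)
    refine ContDiffAt.comp (Ξ z) ?_ hInv
    rw [hInvz]
    exact hξc
  have hηz : η (Ξ z) = ‖z‖ • z + z := by
    show ξ (Inv (Ξ z)) = _
    rw [hInvz]
  have hηne : η (Ξ z) ≠ 0 := by
    rw [hηz, hz, one_smul]
    intro h0
    have : (2 : ℝ) • z = 0 := by rw [two_smul]; exact h0
    exact hz0 ((smul_eq_zero.mp this).resolve_left (by norm_num))
  have hν1 : ContDiffAt ℝ 1 (fun p => nu (η p)) (Ξ z) := by
    have h1 : ContDiffAt ℝ 1 (fderiv ℝ (nrm : X → ℝ)) (η (Ξ z)) :=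
      (S.nX _ hηne).fderiv_right (m := 1) (by norm_num)
    exact ContDiffAt.comp (Ξ z) h1 hη
  let r : Y → Y →L[ℝ] ℝ := fun p => (nu (η p)).comp π
  have hr : ContDiffAt ℝ 1 r (Ξ z) := hν1.clm_comp contDiffAt_const
  have hΞz : Ξ z = ‖z‖ • F z + F z := rfl
  have hΞz2 : Ξ z = (2 : ℝ) • F z := by
    rw [hΞz, hz, one_smul, two_smul]
  have hΞne : Ξ z ≠ 0 := by
    rw [hΞz2]
    exact smul_ne_zero (by norm_num) hFz
  have hlΞ : l (Ξ z) = 2 := by
    rw [hΞz2, map_smul, hl]; simp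
  have hrp : ContDiffAt ℝ 1 (fun p => r p p) (Ξ z) := hr.clm_apply contDiffAt_id
  have hlc : ContDiffAt ℝ 1 (fun p => l p) (Ξ z) := l.contDiff.contDiffAt
  have hm : ContDiffAt ℝ 1 (fun p => (‖p‖ - r p p) / l p) (Ξ z) :=
    ((S.nY _ hΞne).sub hrp).div hlc (by rw [hlΞ]; norm_num)
  let E : Y → Y →L[ℝ] ℝ := fun p => r p + ((‖p‖ - r p p) / l p) • l
  have hE : ContDiffAt ℝ 1 E (Ξ z) := hr.add (hm.smul contDiffAt_const)
  -- the formula holds near the point
  have hInvne : ∀ᶠ p in 𝓝 (Ξ z), Inv p ≠ 0 := by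
    have h1 : Tendsto Inv (𝓝 (Ξ z)) (𝓝 z) := by
      have := hInv.continuousAt.tendsto
      rwa [hInvz] at this
    exact h1.eventually (eventually_ne_zero hz0)
  have hlne : ∀ᶠ p in 𝓝 (Ξ z), l p ≠ 0 := by
    have h1 : ContinuousAt (fun p => l p) (Ξ z) := l.continuous.continuousAt
    exact h1.eventually_ne (by rw [hlΞ]; norm_num)
  have hform : ∀ᶠ p in 𝓝 (Ξ z), HasFDerivAt (nrm : Y → ℝ) (E p) p := by
    filter_upwards [hright', hInvne, hlne, eventually_ne_zero hΞne] with p hp1 hp2 hp3 hp4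
    have h1 : ∀ y, nu p y = r p y + l y * nu p (F z) := by
      intro y
      have h2 := S.identity_diff hz (hνπ y) hp2 (by
        have : ‖Inv p‖ • F z + F (Inv p) = Ξ (Inv p) := rfl
        rw [this, hp1]
        exact hp4)
      have h3 : ‖Inv p‖ • F z + F (Inv p) = p := hp1
      rw [h3, ← hB] at h2
      have h4 : r p y = nu (‖Inv p‖ • z + Inv p) (π y) := rfl
      nth_rewrite 1 [hπ y]
      rw [map_add, map_smul, smul_eq_mul, h2, h4]
    have h5 : nu p p = ‖p‖ := ((S.nY p hp4).differentiableAt (by simp)).fderiv_norm_self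
    have h6 : nu p (F z) = (‖p‖ - r p p) / l p := by
      have := h1 p
      rw [h5] at this
      rw [eq_div_iff hp3]
      linarith
    have h7 : nu p = E p := by
      ext y
      rw [h1 y, h6]
      show _ = r p y + ((‖p‖ - r p p) / l p) * l y
      ring
    rw [← h7]
    exact S.hasFD_nY hp4
  have key : ContDiffAt ℝ (((1 : ℕ) : WithTop ℕ∞) + 1) (nrm : Y → ℝ) (Ξ z) := by
    rw [contDiffAt_succ_iff_hasFDerivAt]
    exact ⟨E, ⟨_, hform, fun p hp => hp⟩, by simpa using hE⟩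
  have h2 : (((1 : ℕ) : WithTop ℕ∞) + 1) = 2 := by norm_num
  rw [h2] at key
  exact key

end Setup1

/-- From the first order setting to the norm being `C²` everywhere off the origin. -/
theorem Setup1.norm_C2 [FiniteDimensional ℝ X] [FiniteDimensional ℝ Y] (S : Setup1 F G) {p : Y} (hp : p ≠ 0) :
    ContDiffAt ℝ 2 (nrm : Y → ℝ) p := by
  have hn : 0 < ‖p‖ := norm_pos_iff.mpr hp
  have hu := unit_of_ne hp
  have hz : ‖G (‖p‖⁻¹ • p)‖ = 1 := by rw [S.radG.norm_eq, hu]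
  have h1 := S.norm_C2_at hz
  rw [hz, one_smul, S.fg] at h1
  have h2 : ContDiffAt ℝ 2 (‖·‖) ((‖p‖ / 2) • (‖p‖⁻¹ • p + ‖p‖⁻¹ • p)) :=
    ContDiffAt.contDiffAt_norm_smul (by positivity) h1
  have h3 : (‖p‖ / 2) • (‖p‖⁻¹ • p + ‖p‖⁻¹ • p) = p := by
    rw [← two_smul ℝ, smul_smul, smul_smul]
    have : ‖p‖ / 2 * 2 * ‖p‖⁻¹ = 1 := by field_simp
    rw [this, one_smul]
  rw [h3] at h2
  exact h2

end Vale.Agent.Lib.P084_helper82
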