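import Mathlib
import Vale.Agent.Lib.P084_helper82.Main
import Vale.Agent.Lib.P084_helper82.Bridge
import Vale.Agent.Lib.P084_helper82.YReg2

/-!
Main theorem with an arbitrary target.
-/

namespace Vale.Agent.Lib.P084_helper82

open Filter Topology Module Metric

variable {X Y : Type*} [NormedAddCommGroup X] [NormedSpace ℝ X] [NormedAddCommGroup Y]
  [NormedSpace ℝ Y]

/-- A surjective isometry from the unit sphere of a strictly convex `C²` finite dimensional space
of dimension at least three is the restriction of a linear isometry, whatever the target. -/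
theorem exists_linear_total [FiniteDimensional ℝ X] [FiniteDimensional ℝ Y]
    [StrictConvexSpace ℝ X]
    (hX : ∀ z : X, z ≠ 0 → ContDiffAt ℝ 2 (fun y : X => ‖y‖) z)
    (hdim : 3 ≤ finrank ℝ X) {f : X → Y} {g : Y → X} (h : SphIso f g) :
    ∃ T : X ≃ₗᵢ[ℝ] Y, ∀ x, ‖x‖ = 1 → f x = T x := by
  have hoddf : ∀ x, ‖x‖ = 1 → f (-x) = - f x := fun x hx => h.odd_f hx
  have hoddg : ∀ y, ‖y‖ = 1 → g (-y) = - g y := fun y hy => h.odd_g hy
  have rF : RadIso (radial f) := radIso_of h hoddf
  have rG : RadIso (radial g) := radIso_of h.symm hoddg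
  have gf : ∀ z, radial g (radial f z) = z := radial_left_inverse h
  have fg : ∀ y, radial f (radial g y) = y := radial_left_inverse h.symm
  have hsc : StrictConvexSpace ℝ Y := strictConvex_target rG fg
  have hN : ∀ z : X, z ≠ 0 → DifferentiableAt ℝ (nrm : X → ℝ) z :=
    fun z hz => (hX z hz).differentiableAt (by simp)
  have hdY : ∀ p : Y, p ≠ 0 → DifferentiableAt ℝ (nrm : Y → ℝ) p :=
    fun p hp => differentiable_target hN rF rG fg hp
  have hY1 : ∀ p : Y, p ≠ 0 → ContDiffAt ℝ 1 (nrm : Y → ℝ) p :=
    fun p hp => norm_contDiffAt_one hdY hp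
  have hX1 : ∀ z : X, z ≠ 0 → ContDiffAt ℝ 1 (nrm : X → ℝ) z :=
    fun z hz => (hX z hz).of_le (by norm_num)
  have S1 : Setup1 (radial f) (radial g) :=
    { radF := rF
      radG := rG
      gf := gf
      fg := fg
      nX := hX
      nY := hY1
      cF := fun z hz => contDiffAt_of_radIso (by norm_num) hX1 hY1 rF rG fg hz
      cG := fun y hy => contDiffAt_of_radIso (by norm_num) hY1 hX1 rG rF gf hy }
  exact exists_linear_of_smooth hX (fun p hp => S1.norm_C2 hp) hdim h

end Vale.Agent.Lib.P084_helper82
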